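import Vale.Agent.P233.H719.RADef
import Vale.Agent.P233.RA.IfG
import Vale.Agent.P233.H276.CContr

/-! P233, RCDA, block RL4 (= L3): the Sobolev-to-Lipschitz property from contraction maps
(helper790). -/

set_option linter.all false

open MeasureTheory Filter Topology Set
open scoped ENNReal NNReal MeasureTheory

universe u

namespace Vale.Agent.P233.H790.RL4

/-- If `∫ F_k → 0` then `liminf F_k = 0` almost everywhere. -/
theorem liminf_zero {M : Type*} [MeasurableSpace M] {μ : Measure M} {F : ℕ → M → ℝ≥0∞}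
    (hF : ∀ k, Measurable (F k)) (h : Tendsto (fun k => ∫⁻ x, F k x ∂μ) atTop (𝓝 0)) :
    ∀ᵐ x ∂μ, ∀ δ : ℝ≥0∞, 0 < δ → ∃ᶠ k in atTop, F k x < δ := by
  have h1 : ∫⁻ x, liminf (fun k => F k x) atTop ∂μ = 0 := by
    refine le_antisymm ?_ zero_le
    calc _ ≤ liminf (fun k => ∫⁻ x, F k x ∂μ) atTop := lintegral_liminf_le hF
      _ = 0 := h.liminf_eq
  have h2 := (lintegral_eq_zero_iff (Measurable.liminf hF)).1 h1
  filter_upwards [h2] with x hx δ hδ
  refine frequently_lt_of_liminf_lt (by isBoundedDefault) ?_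
  rw [hx]
  exact hδ

variable {M : Type u} [MetricSpace M] [MeasurableSpace M] [BorelSpace M] {m : Measure M}

/-- The functional `∫ ((|∇h| - 1)⁺)²`. -/
noncomputable def ex (m : Measure M) (h : M →ₘ[m] ℝ) (x : M) : ℝ≥0∞ :=
  ENNReal.ofReal (max 0 (PD.gn m h x - 1) ^ 2)

theorem ex_measurable (h : M →ₘ[m] ℝ) : Measurable (ex m h) :=
  ENNReal.measurable_ofReal.comp
    ((measurable_const.max ((H276.gn_measurable m h).sub_const 1)).pow_const 2)

/-- Step 1: the estimate along the contraction maps. -/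
theorem flow_le [SFinite m] {p : M} {s₀ R n K t : ℝ} {Y : ℝ → M → M} (hs₀ : 0 ≤ s₀)
    (hC : PD.Contr m p s₀ R n K Y) (ht : t ∈ Ioc (0 : ℝ) 1)
    {f : M → ℝ} {u : ℕ → M → ℝ} {h : ℕ → M →ₘ[m] ℝ} (hLW : ∀ k, PD.LW m (h k) (u k))
    (hu : ∀ᵐ x ∂m, Tendsto (fun k => u k x) atTop (𝓝 (f x)))
    (hE : Tendsto (fun k => ∫⁻ x, ex m (h k) x ∂m) atTop (𝓝 0)) :
    ∀ᵐ x ∂m, dist p x < R → |f x - f (Y t x)| ≤ dist p x := by
  have hS : MeasurableSet {x : M | dist p x < R} := H276.measurableSet_dist_lt p R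
  have hYt : ∀ t, Measurable (Y t) := fun t => hC.meas.comp (measurable_const.prodMk measurable_id)
  have h1s : 0 < 1 + s₀ := by linarith
  obtain ⟨c, hc0, hc⟩ : ∃ c : ℝ, 0 ≤ c ∧ ∀ τ ∈ Ioc t 1, K * τ ^ (-n) ≤ c := by
    have hcont : ContinuousOn (fun τ : ℝ => K * τ ^ (-n)) (Icc t 1) := by
      refine continuousOn_const.mul (ContinuousOn.rpow_const continuousOn_id fun τ hτ => Or.inl ?_)
      exact (ht.1.trans_le hτ.1).ne'
    obtain ⟨B, hB⟩ := isCompact_Icc.exists_bound_of_continuousOn hcont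
    refine ⟨max B 0, le_max_right _ _, fun τ hτ => ?_⟩
    exact ((le_abs_self _).trans (hB τ ⟨hτ.1.le, hτ.2⟩)).trans (le_max_left _ _)
  set F : ℕ → M → ℝ≥0∞ := fun k x => ∫⁻ τ in Ioc t 1, ex m (h k) (Y τ x) with hFdef
  have hFm : ∀ k, Measurable (F k) := fun k =>
    Measurable.lintegral_prod_left' (f := fun z : ℝ × M => ex m (h k) (Y z.1 z.2))
      ((ex_measurable (h k)).comp hC.meas)
  have hFle : ∀ k, ∫⁻ x in {x : M | dist p x < R}, F k x ∂m ≤
      ENNReal.ofReal c * ∫⁻ x, ex m (h k) x ∂m := by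
    intro k
    have hmm : Measurable (Function.uncurry fun (x : M) (τ : ℝ) => ex m (h k) (Y τ x)) :=
      (ex_measurable (h k)).comp (hC.meas.comp measurable_swap)
    rw [hFdef, lintegral_lintegral_swap hmm.aemeasurable]
    calc ∫⁻ τ in Ioc t 1, ∫⁻ x in {x : M | dist p x < R}, ex m (h k) (Y τ x) ∂m
        ≤ ∫⁻ τ in Ioc t 1, ENNReal.ofReal c * ∫⁻ x, ex m (h k) x ∂m := by
          refine setLIntegral_mono' measurableSet_Ioc fun τ hτ => ?_
          have h3 := H276.lintegral_push_le (B := univ) hS MeasurableSet.univ (hYt τ)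
            (hC.dens τ ⟨ht.1.trans hτ.1, hτ.2⟩) (ae_of_all _ fun _ _ => mem_univ _)
            (ex_measurable (h k))
          rw [setLIntegral_univ] at h3
          refine h3.trans ?_
          gcongr
          exact hc τ hτ
      _ = (ENNReal.ofReal c * ∫⁻ x, ex m (h k) x ∂m) * volume (Ioc t 1) := by
          rw [setLIntegral_const]
      _ ≤ (ENNReal.ofReal c * ∫⁻ x, ex m (h k) x ∂m) * 1 := by
          gcongr
          rw [Real.volume_Ioc]
          calc ENNReal.ofReal (1 - t) ≤ ENNReal.ofReal 1 :=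
                ENNReal.ofReal_le_ofReal (by linarith [ht.1])
            _ = 1 := ENNReal.ofReal_one
      _ = _ := mul_one _
  have hFt : Tendsto (fun k => ∫⁻ x in {x : M | dist p x < R}, F k x ∂m) atTop (𝓝 0) := by
    have h1 : Tendsto (fun k => ENNReal.ofReal c * ∫⁻ x, ex m (h k) x ∂m) atTop (𝓝 0) := by
      have := ENNReal.Tendsto.const_mul hE (Or.inr (ENNReal.ofReal_ne_top (r := c)))
      rwa [mul_zero] at this
    exact tendsto_of_tendsto_of_tendsto_of_le_of_le tendsto_const_nhds h1 (fun _ => zero_le)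
      hFle
  have a1 := liminf_zero hFm hFt
  rw [ae_restrict_iff' hS] at a1
  have a2 := H276.ae_flow_of_ae (S := {x : M | dist p x < R}) (hC.dens t ht) hu
  have a3 : ∀ᵐ x ∂m, ∀ k, dist p x < R → ∀ t ∈ Ioc (0 : ℝ) 1,
      IntervalIntegrable (fun τ => PD.gn m (h k) (Y τ x)) volume t 1 ∧
      |u k x - u k (Y t x)| ≤ dist p x / (1 + s₀) * ∫ τ in t..1, PD.gn m (h k) (Y τ x) :=
    ae_all_iff.2 fun k => hC.curve (h k) (u k) (hLW k)
  filter_upwards [a1, a2, a3, hu] with x x1 x2 x3 x4 hx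
  have b1 := x1 hx
  have b2 := x2 hx
  have hd0 : 0 ≤ dist p x := dist_nonneg
  -- the estimate for `u k`
  have key : ∀ ε > (0 : ℝ), ∀ k, F k x < ∞ → |u k x - u k (Y t x)| ≤
      dist p x * (1 + ε + (F k x).toReal / (4 * ε)) := by
    intro ε hε k hk
    obtain ⟨c1, c2⟩ := x3 k hx t ht
    have hgx : Measurable fun τ => PD.gn m (h k) (Y τ x) :=
      (H276.gn_measurable m (h k)).comp (hC.meas.comp (measurable_id.prodMk measurable_const))
    have hex : Measurable fun τ => (max 0 (PD.gn m (h k) (Y τ x) - 1)) ^ 2 :=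
      (measurable_const.max (hgx.sub_const 1)).pow_const 2
    have hi : IntegrableOn (fun τ => (max 0 (PD.gn m (h k) (Y τ x) - 1)) ^ 2) (Ioc t 1)
        volume := by
      refine ⟨hex.aestronglyMeasurable, ?_⟩
      rw [hasFiniteIntegral_iff_ofReal (ae_of_all _ fun τ => sq_nonneg _)]
      exact hk
    have hiv : ∫ τ in Ioc t 1, (max 0 (PD.gn m (h k) (Y τ x) - 1)) ^ 2 = (F k x).toReal := by
      rw [integral_eq_lintegral_of_nonneg_ae (ae_of_all _ fun τ => sq_nonneg _)
        hex.aestronglyMeasurable]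
      rfl
    have c3 : ∫ τ in t..1, PD.gn m (h k) (Y τ x) ≤ 1 + ε + (F k x).toReal / (4 * ε) := by
      rw [intervalIntegral.integral_of_le ht.2]
      have c4 : ∫ τ in Ioc t 1, PD.gn m (h k) (Y τ x) ≤
          ∫ τ in Ioc t 1, ((1 + ε) + (max 0 (PD.gn m (h k) (Y τ x) - 1)) ^ 2 / (4 * ε)) := by
        refine integral_mono_ae ?_ ?_ (ae_of_all _ fun τ => ?_)
        · exact (intervalIntegrable_iff_integrableOn_Ioc_of_le ht.2).1 c1
        · exact (integrableOn_const (by rw [Real.volume_Ioc]; exact ENNReal.ofReal_ne_top)).add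
            (hi.div_const _)
        · dsimp only
          set g := PD.gn m (h k) (Y τ x) with hg
          set e := max 0 (g - 1) with he
          have e1 : g - 1 ≤ e := le_max_right _ _
          have e2 : e ≤ ε + e ^ 2 / (4 * ε) := by
            have : 0 ≤ (e - 2 * ε) ^ 2 / (4 * ε) := by positivity
            have e3 : (e - 2 * ε) ^ 2 / (4 * ε) = ε + e ^ 2 / (4 * ε) - e := by
              field_simp
              ring
            linarith
          linarith
      refine c4.trans ?_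
      have hic : Integrable (fun _ : ℝ => 1 + ε) (volume.restrict (Ioc t 1)) :=
        integrableOn_const (by rw [Real.volume_Ioc]; exact ENNReal.ofReal_ne_top)
      rw [integral_add hic (hi.div_const _), integral_div, hiv]
      have c5 : ∫ τ in Ioc t 1, (1 + ε) = (1 - t) * (1 + ε) := by
        rw [setIntegral_const, Measure.real, Real.volume_Ioc,
          ENNReal.toReal_ofReal (by linarith [ht.2]), smul_eq_mul]
      rw [c5]
      have : (1 - t) * (1 + ε) ≤ 1 * (1 + ε) :=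
        mul_le_mul_of_nonneg_right (by linarith [ht.1]) (by linarith)
      linarith
    have c6 : 0 ≤ 1 + ε + (F k x).toReal / (4 * ε) := by positivity
    calc |u k x - u k (Y t x)| ≤ dist p x / (1 + s₀) * ∫ τ in t..1, PD.gn m (h k) (Y τ x) := c2
      _ ≤ dist p x / (1 + s₀) * (1 + ε + (F k x).toReal / (4 * ε)) := by gcongr
      _ ≤ dist p x * (1 + ε + (F k x).toReal / (4 * ε)) := by
          gcongr
          exact div_le_self hd0 (by linarith)
  -- the limit
  refine le_of_forall_pos_le_add fun η hη => ?_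
  set ε : ℝ := η / (4 * (dist p x + 1)) with hεdef
  have hε : 0 < ε := by positivity
  have hεd : dist p x * ε ≤ η / 4 := by
    have : dist p x * ε ≤ (dist p x + 1) * ε := by gcongr; linarith
    have e : (dist p x + 1) * ε = η / 4 := by
      rw [hεdef]
      field_simp
    linarith
  have q1 := b1 (ENNReal.ofReal (4 * ε * ε)) (by
    rw [ENNReal.ofReal_pos]
    positivity)
  have q2 := Metric.tendsto_atTop.1 x4 (η / 8) (by positivity)
  have q3 := Metric.tendsto_atTop.1 b2 (η / 8) (by positivity)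
  obtain ⟨N2, hN2⟩ := q2
  obtain ⟨N3, hN3⟩ := q3
  obtain ⟨k, hk1, hk2⟩ := ((q1.and_eventually (eventually_ge_atTop (max N2 N3)))).exists
  have r2 := hN2 k ((le_max_left _ _).trans hk2)
  have r3 := hN3 k ((le_max_right _ _).trans hk2)
  rw [Real.dist_eq] at r2 r3
  have hkt : F k x < ∞ := hk1.trans ENNReal.ofReal_lt_top
  have r1 := key ε hε k hkt
  have r4 : (F k x).toReal ≤ 4 * ε * ε := by
    have := (ENNReal.lt_ofReal_iff_toReal_lt hkt.ne).1 hk1
    exact this.le
  have r5 : (F k x).toReal / (4 * ε) ≤ ε := by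
    rw [div_le_iff₀ (by positivity)]
    linarith
  have r6 : |f x - f (Y t x)| ≤ |u k x - f x| + |u k x - u k (Y t x)| +
      |u k (Y t x) - f (Y t x)| := by
    have e : f x - f (Y t x) = -(u k x - f x) + (u k x - u k (Y t x)) +
      (u k (Y t x) - f (Y t x)) := by ring
    rw [e]
    refine (abs_add_le _ _).trans ?_
    gcongr
    refine (abs_add_le _ _).trans ?_
    rw [abs_neg]
  have r7 : |u k x - u k (Y t x)| ≤ dist p x + η / 2 := by
    refine r1.trans ?_
    calc dist p x * (1 + ε + (F k x).toReal / (4 * ε)) ≤ dist p x * (1 + ε + ε) := by gcongr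
      _ = dist p x + (dist p x * ε + dist p x * ε) := by ring
      _ ≤ _ := by linarith
  linarith

/-- Step 1b: Lipschitz approximations of a function with slope `≤ 1`. -/
theorem exists_approx {f : M →ₘ[m] ℝ} (hf : f ∈ (sob m).W) (h1 : slope f ≤ 1) :
    ∃ (u : ℕ → M → ℝ) (h : ℕ → M →ₘ[m] ℝ), (∀ k, PD.LW m (h k) (u k)) ∧
      (∀ᵐ x ∂m, Tendsto (fun k => u k x) atTop (𝓝 (f x))) ∧
      Tendsto (fun k => ∫⁻ x, ex m (h k) x ∂m) atTop (𝓝 0) := by
  have hW := mem_sob_iff.1 hf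
  obtain ⟨hf2, hG2, u, g, hug, hu, hg⟩ := hW.rSlope
  have hG1 : ∀ᵐ x ∂m, Met.mslope m f x ≤ 1 := by
    have h2 : ∀ᵐ x ∂m, slope f x ≤ (1 : M →ₘ[m] ℝ) x := AEEqFun.coeFn_le.2 h1
    filter_upwards [h2, slope_ae hf, AEEqFun.coeFn_one (α := M) (μ := m) (β := ℝ)] with x a b c
    rw [← b]
    refine a.trans ?_
    rw [c]
    rfl
  -- the classes
  have hcl : ∀ k, ∃ h ∈ (sob m).W, (⇑(h : M →ₘ[m] ℝ) : M → ℝ) =ᵐ[m] u k := fun k =>
    exists_class ⟨g k, (hug k).rSlope⟩
  choose h hhW hhu using hcl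
  have hex : ∀ k, ∫⁻ x, ex m (h k) x ∂m ≤ (eLpNorm (g k - Met.mslope m f) 2 m) ^ (2 : ℝ) := by
    intro k
    have e1 : (eLpNorm (g k - Met.mslope m f) 2 m) ^ (2 : ℝ) =
        ∫⁻ x, ‖(g k - Met.mslope m f) x‖ₑ ^ (2 : ℝ) ∂m := by
      rw [eLpNorm_eq_lintegral_rpow_enorm_toReal (by norm_num) (by norm_num)]
      rw [← ENNReal.rpow_mul]
      norm_num
    rw [e1]
    refine lintegral_mono_ae ?_
    filter_upwards [sob_Γ_self_ae (hhW k), Met.mslope_congr (hhu k) (mem_sob_iff.1 (hhW k)),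
      (hug k).rSlope.mslope_le, hG1, (hug k).2.2.2,
      (mem_sob_iff.1 (hhW k)).mslope_nonneg] with x a1 a2 a3 a4 a5 a6
    have hgn : PD.gn m (h k) x = Met.mslope m (h k) x := by
      rw [PD.gn, a1, Real.sqrt_sq a6]
    have b1 : PD.gn m (h k) x ≤ g k x := by
      rw [hgn, a2]
      exact a3
    have b2 : max 0 (PD.gn m (h k) x - 1) ≤ |g k x - Met.mslope m f x| := by
      refine max_le (abs_nonneg _) ?_
      refine le_trans ?_ (le_abs_self _)
      linarith
    rw [ex, Pi.sub_apply, Real.enorm_eq_ofReal_abs,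
      ENNReal.ofReal_rpow_of_nonneg (abs_nonneg _) (by norm_num)]
    refine ENNReal.ofReal_le_ofReal ?_
    have e2 : |g k x - Met.mslope m f x| ^ (2 : ℝ) = |g k x - Met.mslope m f x| ^ 2 := by
      rw [← Real.rpow_natCast]
      norm_num
    rw [e2]
    exact pow_le_pow_left₀ (le_max_left _ _) b2 2
  have hlim : Tendsto (fun k => (eLpNorm (g k - Met.mslope m f) 2 m) ^ (2 : ℝ)) atTop (𝓝 0) := by
    have := ((ENNReal.continuous_rpow_const (y := (2 : ℝ))).tendsto 0).comp hg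
    simpa [Function.comp_def] using this
  obtain ⟨ns, hns, hae⟩ := Met.exists_subseq_ae (fun k => (hug k).2.1.1) hf2.1 hu
  refine ⟨fun k => u (ns k), fun k => h (ns k), fun k => ⟨hhW _, (hug _).1, hhu _⟩, hae, ?_⟩
  refine tendsto_of_tendsto_of_tendsto_of_le_of_le tendsto_const_nhds
    (hlim.comp hns.tendsto_atTop) (fun _ => zero_le) (fun k => hex (ns k))

/-- Step 2: the estimate with the value at a Lebesgue point. -/
theorem point_le [SFinite m] {p : M} {R K : ℝ} {n : ℕ} (hR : 0 < R)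
    (hC : ∀ s₀ ∈ Ioc (0 : ℝ) 1, ∃ Y, PD.Contr m p s₀ R n K Y)
    {f : M → ℝ} (hf : Measurable f) {u : ℕ → M → ℝ} {h : ℕ → M →ₘ[m] ℝ}
    (hLW : ∀ k, PD.LW m (h k) (u k))
    (hu : ∀ᵐ x ∂m, Tendsto (fun k => u k x) atTop (𝓝 (f x)))
    (hE : Tendsto (fun k => ∫⁻ x, ex m (h k) x ∂m) atTop (𝓝 0))
    (hp : Tendsto (fun r : ℝ => ENNReal.ofReal (r ^ (-(n : ℝ))) *
      ∫⁻ x in Metric.closedBall p r, ENNReal.ofReal |f x - f p| ∂m) (𝓝[>] 0) (𝓝 0)) :
    ∀ᵐ x ∂m, dist p x < R → |f x - f p| ≤ dist p x := by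
  have hS : MeasurableSet {x : M | dist p x < R} := H276.measurableSet_dist_lt p R
  set s : ℕ → ℝ := fun j => 1 / ((j : ℝ) + 1) with hs
  have hs0 : ∀ j, s j ∈ Ioc (0 : ℝ) 1 := by
    intro j
    refine ⟨by rw [hs]; positivity, ?_⟩
    rw [hs]
    dsimp only
    rw [div_le_one (by positivity)]
    have : (0 : ℝ) ≤ j := Nat.cast_nonneg j
    linarith
  have hst : Tendsto s atTop (𝓝 0) := tendsto_one_div_add_atTop_nhds_zero_nat
  choose Y hY using fun j => hC (s j) (hs0 j)
  have a1 : ∀ᵐ x ∂m, ∀ j, dist p x < R → |f x - f (Y j (s j) x)| ≤ dist p x :=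
    ae_all_iff.2 fun j => flow_le (hs0 j).1.le (hY j) (hs0 j) hLW hu hE
  set ρ : ℕ → ℝ := fun j => 2 * s j * R with hρ
  have hρ0 : ∀ j, 0 < ρ j := fun j => by
    have := (hs0 j).1
    rw [hρ]
    positivity
  have hφm : Measurable fun x => ENNReal.ofReal |f x - f p| :=
    ENNReal.measurable_ofReal.comp (hf.sub_const _).abs
  have hYm : ∀ j, Measurable (Y j (s j)) := fun j =>
    (hY j).meas.comp (measurable_const.prodMk measurable_id)
  have hle : ∀ j, ∫⁻ x in {x : M | dist p x < R}, ENNReal.ofReal |f (Y j (s j) x) - f p| ∂m ≤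
      ENNReal.ofReal (K * (2 * R) ^ n) * (ENNReal.ofReal ((ρ j) ^ (-(n : ℝ))) *
        ∫⁻ x in Metric.closedBall p (ρ j), ENNReal.ofReal |f x - f p| ∂m) := by
    intro j
    have hsj := (hs0 j).1
    have h3 := H276.lintegral_push_le (B := Metric.closedBall p (ρ j)) hS
      Metric.isClosed_closedBall.measurableSet (hYm j) ((hY j).dens (s j) (hs0 j)) (by
        filter_upwards [(hY j).rad] with x hx hxR
        have h4 := (hx hxR (s j) (hs0 j)).1
        rw [Metric.mem_closedBall, dist_comm, h4]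
        have h5 : (s j + s j) / (1 + s j) ≤ 2 * s j := by
          rw [div_le_iff₀ (by linarith)]
          nlinarith
        calc (s j + s j) / (1 + s j) * dist p x ≤ 2 * s j * R := by
              gcongr
          _ = ρ j := rfl) hφm
    refine h3.trans ?_
    rw [← mul_assoc]
    gcongr
    by_cases hK : 0 ≤ K
    · rw [← ENNReal.ofReal_mul (by positivity)]
      refine ENNReal.ofReal_le_ofReal (le_of_eq ?_)
      have e1 : (ρ j) ^ (-(n : ℝ)) = (2 * R) ^ (-(n : ℝ)) * (s j) ^ (-(n : ℝ)) := by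
        rw [← Real.mul_rpow (by positivity) hsj.le]
        congr 1
        rw [hρ]
        ring
      have e2 : (2 * R) ^ n * (2 * R) ^ (-(n : ℝ)) = 1 := by
        rw [← Real.rpow_natCast, ← Real.rpow_add (by positivity)]
        simp
      rw [e1]
      calc K * s j ^ (-(n : ℝ)) = K * 1 * s j ^ (-(n : ℝ)) := by ring
        _ = _ := by rw [← e2]; ring
    · rw [ENNReal.ofReal_of_nonpos]
      · exact zero_le
      · exact mul_nonpos_of_nonpos_of_nonneg (not_le.1 hK).le (Real.rpow_nonneg hsj.le _)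
  have hρt : Tendsto ρ atTop (𝓝[>] 0) := by
    rw [tendsto_nhdsWithin_iff]
    refine ⟨?_, Eventually.of_forall hρ0⟩
    have := (hst.const_mul 2).mul_const R
    simpa using this
  have hFt : Tendsto (fun j => ∫⁻ x in {x : M | dist p x < R},
      ENNReal.ofReal |f (Y j (s j) x) - f p| ∂m) atTop (𝓝 0) := by
    have h1 := ENNReal.Tendsto.const_mul (a := ENNReal.ofReal (K * (2 * R) ^ n)) (hp.comp hρt)
      (Or.inr ENNReal.ofReal_ne_top)
    rw [mul_zero] at h1
    exact tendsto_of_tendsto_of_tendsto_of_le_of_le tendsto_const_nhds h1 (fun _ => zero_le) hle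
  have a2 := liminf_zero (fun j => hφm.comp (hYm j)) hFt
  rw [ae_restrict_iff' hS] at a2
  filter_upwards [a1, a2] with x x1 x2 hx
  refine le_of_forall_pos_le_add fun η hη => ?_
  obtain ⟨j, hj⟩ := (x2 hx (ENNReal.ofReal η) (by rw [ENNReal.ofReal_pos]; exact hη)).exists
  have b1 : |f (Y j (s j) x) - f p| < η := (ENNReal.ofReal_lt_ofReal_iff hη).1 hj
  have b2 := x1 j hx
  have e : f x - f p = (f x - f (Y j (s j) x)) + (f (Y j (s j) x) - f p) := by ring
  rw [e]
  refine (abs_add_le _ _).trans ?_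
  linarith

/-- Step 3: a function with `|f x - f p| ≤ d(p,x)` for almost all `p`, `x` is Lipschitz. -/
theorem exists_lip [m.IsOpenPosMeasure] {f : M → ℝ}
    (h : ∀ᵐ p ∂m, ∀ᵐ x ∂m, |f x - f p| ≤ dist p x) :
    ∃ u : M → ℝ, LipschitzWith 1 u ∧ f =ᵐ[m] u := by
  set G : Set M := {p | ∀ᵐ x ∂m, |f x - f p| ≤ dist p x} with hG
  have hl : LipschitzOnWith 1 f G := by
    refine LipschitzOnWith.of_dist_le_mul fun p hp q hq => ?_
    rw [NNReal.coe_one, one_mul, Real.dist_eq]
    refine le_of_forall_pos_le_add fun η hη => ?_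
    have hpos : m (Metric.ball p (η / 2)) ≠ 0 :=
      (Metric.measure_ball_pos m p (by positivity)).ne'
    have h1 : ∃ x ∈ Metric.ball p (η / 2), |f x - f p| ≤ dist p x ∧ |f x - f q| ≤ dist q x := by
      by_contra hcon
      push Not at hcon
      refine hpos (measure_mono_null ?_ (ae_iff.1 (Filter.Eventually.and (show ∀ᵐ x ∂m, |f x - f p| ≤ dist p x from hp)
        (show ∀ᵐ x ∂m, |f x - f q| ≤ dist q x from hq))))
      intro x hx hx2
      exact absurd hx2.2 (not_le.2 (hcon x hx hx2.1))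
    obtain ⟨x, hx, h2, h3⟩ := h1
    rw [Metric.mem_ball, dist_comm] at hx
    have h4 : dist q x ≤ dist p q + dist p x := by
      rw [dist_comm p q]
      exact dist_triangle _ _ _
    have e : f p - f q = -(f x - f p) + (f x - f q) := by ring
    rw [e]
    refine (abs_add_le _ _).trans ?_
    rw [abs_neg]
    linarith
  obtain ⟨g, hg1, hg2⟩ := hl.extend_real
  refine ⟨g, hg1, ?_⟩
  filter_upwards [h] with p hp using hg2 hp

/-- Lebesgue points. -/
theorem leb [SecondCountableTopology M] [IsLocallyFiniteMeasure m] [IsUnifLocDoublingMeasure m]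
    {n : ℕ} (hvol : ∀ (x₀ : M) (R₀ : ℝ), ∃ C : ℝ, ∀ y ∈ Metric.ball x₀ R₀, ∀ s : ℝ,
      0 < s → s ≤ R₀ → m (Metric.ball y s) ≤ ENNReal.ofReal (C * s ^ n))
    (hfin : ∀ (x : M) (r : ℝ), m (Metric.ball x r) < ∞)
    {f : M → ℝ} (hf : MemLp f 2 m) :
    ∀ᵐ p ∂m, Tendsto (fun r : ℝ => ENNReal.ofReal (r ^ (-(n : ℝ))) *
      ∫⁻ x in Metric.closedBall p r, ENNReal.ofReal |f x - f p| ∂m) (𝓝[>] 0) (𝓝 0) := by
  have hcfin : ∀ (p : M) (r : ℝ), m (Metric.closedBall p r) < ∞ := fun p r =>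
    (measure_mono (Metric.closedBall_subset_ball (by linarith : r < r + 1))).trans_lt (hfin p _)
  have hfi : ∀ (p : M) (r : ℝ), IntegrableOn f (Metric.closedBall p r) m := fun p r => by
    have : IsFiniteMeasure (m.restrict (Metric.closedBall p r)) :=
      ⟨by rw [Measure.restrict_apply_univ]; exact hcfin p r⟩
    exact (hf.restrict _).integrable (by norm_num)
  have hloc : LocallyIntegrable f m := fun p =>
    ⟨Metric.closedBall p 1, Metric.closedBall_mem_nhds p one_pos, hfi p 1⟩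
  filter_upwards [IsUnifLocDoublingMeasure.ae_tendsto_average_norm_sub m hloc 1] with p hp
  have h1 : Tendsto (fun r : ℝ => ⨍ y in Metric.closedBall p r, ‖f y - f p‖ ∂m) (𝓝[>] 0)
      (𝓝 0) := by
    refine hp (fun _ => p) (fun r => r) tendsto_id ?_
    filter_upwards [self_mem_nhdsWithin] with r hr
    rw [one_mul]
    exact Metric.mem_closedBall_self (le_of_lt hr)
  obtain ⟨C, hC⟩ := hvol p 1
  set C' := max C 0 with hC'
  have h2 : Tendsto (fun r : ℝ => ENNReal.ofReal (C' * 2 ^ n *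
      ⨍ y in Metric.closedBall p r, ‖f y - f p‖ ∂m)) (𝓝[>] 0) (𝓝 0) := by
    have := ENNReal.tendsto_ofReal (h1.const_mul (C' * 2 ^ n))
    rwa [mul_zero, ENNReal.ofReal_zero] at this
  refine tendsto_of_tendsto_of_tendsto_of_le_of_le' tendsto_const_nhds h2
    (Eventually.of_forall fun _ => zero_le) ?_
  have hsm : Ioo (0 : ℝ) (1 / 2) ∈ 𝓝[>] (0 : ℝ) := Ioo_mem_nhdsGT (by norm_num)
  filter_upwards [hsm] with r hr
  have hr0 : 0 < r := hr.1
  set cB := Metric.closedBall p r with hcB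
  have hi : IntegrableOn (fun y => |f y - f p|) cB m :=
    ((hfi p r).sub (integrableOn_const (hcfin p r).ne)).abs
  have e1 : ∫⁻ x in cB, ENNReal.ofReal |f x - f p| ∂m =
      ENNReal.ofReal (∫ x in cB, |f x - f p| ∂m) :=
    (ofReal_integral_eq_lintegral_ofReal hi (ae_of_all _ fun _ => abs_nonneg _)).symm
  have e2 : ∫ x in cB, |f x - f p| ∂m = m.real cB * ⨍ y in cB, ‖f y - f p‖ ∂m := by
    have := measure_smul_setAverage (μ := m) (fun y => ‖f y - f p‖) (hcfin p r).ne
    rw [smul_eq_mul] at this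
    rw [this]
    rfl
  have e3 : m.real cB ≤ C' * (2 * r) ^ n := by
    have h3 : m cB ≤ ENNReal.ofReal (C' * (2 * r) ^ n) := by
      refine (measure_mono (Metric.closedBall_subset_ball (by linarith : r < 2 * r))).trans ?_
      refine (hC p (Metric.mem_ball_self one_pos) (2 * r) (by linarith)
        (by linarith [hr.2])).trans ?_
      refine ENNReal.ofReal_le_ofReal ?_
      gcongr
      exact le_max_left _ _
    have h4 : 0 ≤ C' * (2 * r) ^ n := by
      have : 0 ≤ C' := le_max_right _ _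
      positivity
    exact ENNReal.toReal_le_of_le_ofReal h4 h3
  have hT0 : 0 ≤ ⨍ y in cB, ‖f y - f p‖ ∂m := by
    rw [setAverage_eq]
    refine smul_nonneg (by positivity) (integral_nonneg fun _ => norm_nonneg _)
  rw [e1, e2, ← ENNReal.ofReal_mul (by positivity)]
  refine ENNReal.ofReal_le_ofReal ?_
  calc r ^ (-(n : ℝ)) * (m.real cB * ⨍ y in cB, ‖f y - f p‖ ∂m)
      ≤ r ^ (-(n : ℝ)) * ((C' * (2 * r) ^ n) * ⨍ y in cB, ‖f y - f p‖ ∂m) := by gcongr
    _ = (r ^ (-(n : ℝ)) * r ^ n) * (C' * 2 ^ n * ⨍ y in cB, ‖f y - f p‖ ∂m) := by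
        rw [mul_pow]
        ring
    _ = C' * 2 ^ n * ⨍ y in cB, ‖f y - f p‖ ∂m := by
        rw [← Real.rpow_natCast r n, ← Real.rpow_add hr0]
        simp

/-- **L3**: the Sobolev-to-Lipschitz property, from contraction maps. -/
theorem s2l_of [SecondCountableTopology M] {n : ℕ} (hfull : m.IsOpenPosMeasure)
    (hfin : ∀ (x : M) (r : ℝ), m (Metric.ball x r) < ∞) (hgeo : PD.Geo m n)
    (hcontr : PD.HasContr m n) : RA.S2L m := by
  intro f hf h1
  have : SigmaFinite m := sigmaFinite_of_ball hfin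
  have := hfull
  have := hgeo.dbl
  have : IsLocallyFiniteMeasure m := ⟨fun x =>
    ⟨Metric.ball x 1, Metric.ball_mem_nhds x one_pos, hfin x 1⟩⟩
  obtain ⟨u, h, hLW, hu, hE⟩ := exists_approx hf h1
  have hf2 : MemLp f 2 m := (mem_sob_iff.1 hf).memLp
  have hfm : Measurable f := (AEEqFun.stronglyMeasurable f).measurable
  have hvol : ∀ (x₀ : M) (R₀ : ℝ), ∃ C : ℝ, ∀ y ∈ Metric.ball x₀ R₀, ∀ s : ℝ,
      0 < s → s ≤ R₀ → m (Metric.ball y s) ≤ ENNReal.ofReal (C * s ^ n) := by
    intro x₀ R₀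
    obtain ⟨c, hc, C, hC⟩ := hgeo.vol x₀ R₀
    exact ⟨C, fun y hy s hs hs' => (hC y hy s hs hs').2⟩
  have hleb := leb hvol hfin hf2
  refine exists_lip ?_
  filter_upwards [hleb] with p hp
  have h3 : ∀ N : ℕ, ∀ᵐ x ∂m, dist p x < (N : ℝ) + 1 → |f x - f p| ≤ dist p x := by
    intro N
    obtain ⟨K, hK⟩ := hcontr ((N : ℝ) + 1) (by positivity)
    exact point_le (by positivity) (hK p) hfm hLW hu hE hp
  filter_upwards [ae_all_iff.2 h3] with x hx
  obtain ⟨N, hN⟩ := exists_nat_gt (dist p x)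
  exact hx N (by linarith)

/-- **RL4** of `H719/RADef`. -/
theorem blk_RL4 : RA.Blk_RL4.{u} := by
  intro M _ _ _ _ _ m n hA hq hgeo hcontr
  exact s2l_of hA.full hA.fin hgeo hcontr

/-- The form of `RA/IfG`. -/
theorem s2l_spA [SecondCountableTopology M] {n : ℕ} (h : RG.SpA m n) (hgeo : PD.Geo m n) :
    RG.S2L m :=
  s2l_of h.full h.hfin hgeo h.contr

end Vale.Agent.P233.H790.RL4
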