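import Vale.Agent.P233.RA.IfG
import Vale.Agent.P233.H183.Unit
import Vale.Agent.P233.H457.Cont

/-! P233, RCDA, block LC2: the Laplacian comparison for Lipschitz test functions implies the one
for Sobolev test functions (helper790). -/

set_option linter.all false

open MeasureTheory Filter Topology Set
open scoped ENNReal NNReal MeasureTheory

universe u

namespace Vale.Agent.P233.H790.LC2

open Vale.Agent.P233.Met

variable {M : Type u} [MetricSpace M] [MeasurableSpace M] [BorelSpace M] {m : Measure M}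

theorem abs_pos_sub_le (s t : ℝ) : |max s 0 - max t 0| ≤ |s - t| := by
  have h := (LipschitzWith.id.max_const (0 : ℝ)).dist_le_mul s t
  simpa [Real.dist_eq] using h

theorem lipBd_pos {f : M → ℝ} {x : M} {a : ℝ} (hf : LipBd f x a) :
    LipBd (fun y => max (f y) 0) x a := by
  intro c hc
  filter_upwards [hf c hc] with y hy
  exact (abs_pos_sub_le _ _).trans hy

theorem good_pos {u g : M → ℝ} (h : Good m u g) : Good m (fun x => max (u x) 0) g := by
  refine Good.mk' (h.1.comp (LipschitzWith.id.max_const (0 : ℝ))) ?_ h.2.2.1 ?_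
  · refine h.2.1.mono ((LipschitzWith.id.max_const (0 : ℝ)).continuous.comp_aestronglyMeasurable
      h.2.1.1) ?_
    filter_upwards with x
    have := abs_pos_sub_le (u x) 0
    simpa using this
  · filter_upwards [h.lipBd] with x hx
    exact ⟨hx.1, lipBd_pos hx.2⟩

theorem good_zero : Good m (0 : M → ℝ) 0 := by
  refine Good.mk' ⟨0, LipschitzWith.const 0⟩ (MemLp.zero') (MemLp.zero') ?_
  refine ae_of_all _ fun x => ⟨le_rfl, ?_⟩
  intro c hc
  refine Eventually.of_forall fun y => ?_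
  have hc' : (0 : ℝ) < c := hc
  simp only [Pi.zero_apply, sub_self, abs_zero]
  positivity

/-- Nonnegative Lipschitz functions with bounded support that converge to a nonnegative Sobolev
function with bounded support, with bounded energies. -/
theorem exists_pos_approx {φ : M → ℝ} (hφ : W12 m φ)
    (h0 : ∀ᵐ x ∂m, 0 ≤ φ x) (p : M) (r : ℝ) (hz : ∀ᵐ x ∂m, r ≤ dist x p → φ x = 0) :
    ∃ (b : ℕ → M → ℝ) (B : ℝ), (∀ k, ∃ L : ℝ≥0, LipschitzWith L (b k)) ∧ (∀ k x, 0 ≤ b k x) ∧
      (∀ k x, r + 1 ≤ dist x p → b k x = 0) ∧ (∀ k, W12 m (b k)) ∧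
      (∀ᶠ k in atTop, Q m (b k) ≤ B) ∧
      Tendsto (fun k => ∫ x, (b k x - φ x) ^ 2 ∂m) atTop (𝓝 0) := by
  have hex : ∀ k : ℕ, ∃ q : (M → ℝ) × (M → ℝ), Good m q.1 q.2 ∧ (∃ C, ∀ x, |q.1 x| ≤ C) ∧
      eLpNorm (q.1 - φ) 2 m ≤ ((k : ℝ≥0∞) + 1)⁻¹ ∧
      eLpNorm (q.2 - mslope m φ) 2 m ≤ ((k : ℝ≥0∞) + 1)⁻¹ := by
    intro k
    obtain ⟨u, g, h1, h2, h3, h4⟩ := hφ.rSlope.exists_bdd (ε := ((k : ℝ≥0∞) + 1)⁻¹)
      (by simp [ENNReal.inv_eq_zero])
    exact ⟨(u, g), h1, h2, h3, h4⟩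
  choose q hq1 hq2 hq3 hq4 using hex
  have hlim0 : Tendsto (fun k : ℕ => ((k : ℝ≥0∞) + 1)⁻¹) atTop (𝓝 0) := by
    have := ENNReal.tendsto_inv_nat_nhds_zero
    have h2 := this.comp (tendsto_add_atTop_nat 1)
    simpa [Function.comp_def] using h2
  have l1 : Tendsto (fun k => eLpNorm ((q k).1 - φ) 2 m) atTop (𝓝 0) :=
    tendsto_of_tendsto_of_tendsto_of_le_of_le tendsto_const_nhds hlim0 (fun _ => zero_le) hq3
  have l2 : Tendsto (fun k => eLpNorm ((q k).2 - mslope m φ) 2 m) atTop (𝓝 0) :=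
    tendsto_of_tendsto_of_tendsto_of_le_of_le tendsto_const_nhds hlim0 (fun _ => zero_le) hq4
  have n0 := tendsto_sq_of_eLpNorm (fun k => (hq1 k).2.1) hφ.memLp l1
  have n1 := tendsto_norm_sq_of_eLpNorm (fun k => (hq1 k).2.1) hφ.memLp l1
  have n2 := tendsto_norm_sq_of_eLpNorm (fun k => (hq1 k).2.2.1) hφ.memLp_mslope l2
  set χ : M → ℝ := cutoff p r with hχ
  have hχL : LipschitzWith 1 χ := cutoff_lip p r
  have hgood : ∀ k, Good m (fun x => χ x * max ((q k).1 x) 0 + (1 - χ x) * (0 : M → ℝ) x)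
      (fun x => χ x * (q k).2 x + (1 - χ x) * (0 : M → ℝ) x +
        (1 : ℝ≥0) * |max ((q k).1 x) 0 - (0 : M → ℝ) x|) := fun k => by
    refine Good.glue hχL (cutoff_nonneg p r) (cutoff_le_one p r) (good_pos (hq1 k)) good_zero ?_
      ⟨0, fun x => by simp⟩
    obtain ⟨C, hC⟩ := hq2 k
    refine ⟨C, fun x => ?_⟩
    have := abs_pos_sub_le ((q k).1 x) 0
    simp only [max_self, sub_zero] at this
    exact this.trans (hC x)
  refine ⟨fun k x => χ x * max ((q k).1 x) 0 + (1 - χ x) * (0 : M → ℝ) x,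
    2 * (Q m φ + 1) + 2 * (∫ x, φ x ^ 2 ∂m + 1), fun k => (hgood k).1, ?_, ?_,
    fun k => ⟨_, (hgood k).rSlope⟩, ?_, ?_⟩
  · intro k x
    have h1 := cutoff_nonneg p r x
    simp only [Pi.zero_apply, mul_zero, add_zero]
    exact mul_nonneg h1 (le_max_right _ _)
  · intro k x hx
    have h1 : χ x = 0 := cutoff_eq_zero (by rw [Metric.mem_ball, not_lt]; exact hx)
    simp [h1]
  · have e1 : ∀ᶠ k in atTop, ∫ x, ((q k).1 x) ^ 2 ∂m < ∫ x, φ x ^ 2 ∂m + 1 :=
      n1.eventually_lt_const (by linarith)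
    have e2 : ∀ᶠ k in atTop, ∫ x, ((q k).2 x) ^ 2 ∂m < Q m φ + 1 :=
      n2.eventually_lt_const (by unfold Q; linarith)
    filter_upwards [e1, e2] with k k1 k2
    have hW : W12 m (fun x => χ x * max ((q k).1 x) 0 + (1 - χ x) * (0 : M → ℝ) x) :=
      ⟨_, (hgood k).rSlope⟩
    have hle : Q m (fun x => χ x * max ((q k).1 x) 0 + (1 - χ x) * (0 : M → ℝ) x) ≤
        ∫ x, (2 * ((q k).2 x) ^ 2 + 2 * ((q k).1 x) ^ 2) ∂m := by
      unfold Q
      refine integral_mono_ae (sq_integrable hW) (((hq1 k).2.2.1.integrable_sq.const_mul 2).add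
        ((hq1 k).2.1.integrable_sq.const_mul 2)) ?_
      filter_upwards [(hgood k).rSlope.mslope_le, hW.mslope_nonneg, (hq1 k).2.2.2] with x a1 a2 a3
      simp only [Pi.zero_apply, mul_zero, add_zero, sub_zero, NNReal.coe_one, one_mul] at a1
      have h1 := cutoff_nonneg p r x
      have h2 := cutoff_le_one p r x
      have h3 : χ x * (q k).2 x ≤ (q k).2 x := by
        have := mul_le_mul_of_nonneg_right h2 a3.1
        rwa [one_mul] at this
      have h4 : |max ((q k).1 x) 0| ≤ |(q k).1 x| := by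
        have := abs_pos_sub_le ((q k).1 x) 0
        simpa using this
      have h5 : mslope m (fun x => χ x * max ((q k).1 x) 0 + (1 - χ x) * (0 : M → ℝ) x) x ≤
          (q k).2 x + |(q k).1 x| := by
        simp only [Pi.zero_apply, mul_zero, add_zero]
        linarith
      have h6 := pow_le_pow_left₀ a2 h5 2
      have h7 : |(q k).1 x| ^ 2 = (q k).1 x ^ 2 := sq_abs _
      nlinarith [sq_nonneg ((q k).2 x - |(q k).1 x|)]
    rw [integral_add ((hq1 k).2.2.1.integrable_sq.const_mul 2)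
        ((hq1 k).2.1.integrable_sq.const_mul 2), integral_const_mul, integral_const_mul] at hle
    linarith
  · refine tendsto_of_tendsto_of_tendsto_of_le_of_le tendsto_const_nhds n0
      (fun k => integral_nonneg fun x => sq_nonneg _) (fun k => ?_)
    dsimp only
    refine integral_mono_ae (((hgood k).2.1.sub hφ.memLp).integrable_sq)
      (((hq1 k).2.1.sub hφ.memLp).integrable_sq) ?_
    filter_upwards [h0, hz] with x a1 a2
    simp only [Pi.zero_apply, mul_zero, add_zero]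
    rw [sq_le_sq]
    by_cases hx : dist x p ≤ r
    · have h1 : χ x = 1 := cutoff_eq_one hx
      have h2 := abs_pos_sub_le ((q k).1 x) (φ x)
      rw [max_eq_left a1] at h2
      rw [h1, one_mul]
      exact h2
    · have h1 : φ x = 0 := a2 (not_le.1 hx).le
      have h2 := abs_pos_sub_le ((q k).1 x) 0
      have h3 := cutoff_nonneg p r x
      have h4 := cutoff_le_one p r x
      simp only [max_self, sub_zero] at h2
      rw [h1, sub_zero, sub_zero, abs_mul, abs_of_nonneg h3]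
      calc χ x * |max ((q k).1 x) 0| ≤ 1 * |max ((q k).1 x) 0| := by gcongr
        _ = |max ((q k).1 x) 0| := one_mul _
        _ ≤ _ := h2

variable [SecondCountableTopology M]

/-- the Laplacian comparison for nonnegative Lipschitz test functions -/
def LC1' (m : Measure M) (a c : ℝ) : Prop :=
  ∀ (p : M) (δ : ℝ), 0 < δ → ∀ (b : M → ℝ) (L : ℝ≥0), LipschitzWith L b → (∀ x, 0 ≤ b x) →
    (∀ x, δ ≤ RA.gg p x → b x = 0) →
    -I ((sob m).Γ (cl m (RA.ww δ p)) (cl m b)) ≤ ∫ x, (a - c * RA.gg p x) * b x ∂m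

theorem ww_lip' {δ : ℝ} (hδ : 0 < δ) (p : M) :
    (∃ L : ℝ≥0, LipschitzWith L (RA.ww δ p)) ∧ ∀ x, √(2 * δ) ≤ dist p x → RA.ww δ p x = 0 := by
  set s := √(2 * δ) with hs
  have hs0 : 0 ≤ s := Real.sqrt_nonneg _
  have hs2 : s ^ 2 = 2 * δ := Real.sq_sqrt (by positivity)
  have key : ∀ x, RA.ww δ p x = (min (dist x p) s) ^ 2 / 2 - δ := by
    intro x
    unfold RA.ww RA.cc
    rcases le_total (dist x p) s with h | h
    · rw [min_eq_left h, min_eq_left]
      have : dist x p ^ 2 ≤ s ^ 2 := pow_le_pow_left₀ dist_nonneg h 2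
      linarith
    · rw [min_eq_right h, min_eq_right, hs2]
      · ring
      · have : s ^ 2 ≤ dist x p ^ 2 := pow_le_pow_left₀ hs0 h 2
        linarith
  refine ⟨⟨Real.toNNReal s, LipschitzWith.of_dist_le_mul fun x x' => ?_⟩, fun x hx => ?_⟩
  · rw [Real.dist_eq, Real.coe_toNNReal _ hs0, key, key]
    have e : (min (dist x p) s) ^ 2 / 2 - δ - ((min (dist x' p) s) ^ 2 / 2 - δ)
        = (min (dist x p) s - min (dist x' p) s) *
          ((min (dist x p) s + min (dist x' p) s) / 2) := by ring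
    have h1 : |min (dist x p) s - min (dist x' p) s| ≤ dist x x' := by
      have h2 := abs_min_sub_min_le_max (dist x p) s (dist x' p) s
      have h3 := abs_dist_sub_le x x' p
      have h4 : max |dist x p - dist x' p| |s - s| = |dist x p - dist x' p| := by
        rw [sub_self, abs_zero]
        exact max_eq_left (abs_nonneg _)
      rw [h4] at h2
      exact h2.trans h3
    have h2 : |(min (dist x p) s + min (dist x' p) s) / 2| ≤ s := by
      have h3 : 0 ≤ min (dist x p) s := le_min dist_nonneg hs0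
      have h4 : 0 ≤ min (dist x' p) s := le_min dist_nonneg hs0
      have h5 : min (dist x p) s ≤ s := min_le_right _ _
      have h6 : min (dist x' p) s ≤ s := min_le_right _ _
      rw [abs_of_nonneg (by linarith)]
      linarith
    rw [e, abs_mul, mul_comm s]
    exact mul_le_mul h1 h2 (abs_nonneg _) dist_nonneg
  · rw [key, min_eq_right (by rwa [dist_comm]), hs2]
    ring

/-- The Laplacian comparison for Sobolev test functions. -/
theorem lc_of (hfin : ∀ (x : M) (r : ℝ), m (Metric.ball x r) < ∞) (hq : RG.Quadr m) {a c : ℝ}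
    (h1 : LC1' m a c) (p : M) (δ : ℝ) (hδ : 0 < δ) (φ : M →ₘ[m] ℝ) (hφ : φ ∈ (sob m).W)
    (hφ0 : 0 ≤ φ) (hz : ∀ᵐ x ∂m, δ ≤ RA.gg p x → φ x = 0) :
    -I ((sob m).Γ (cl m (RA.ww δ p)) φ) ≤ ∫ x, (a - c * RA.gg p x) * φ x ∂m := by
  have hC : IsDir (sob m) := isDir_sob hfin hq
  set r : ℝ := √(2 * δ) with hr
  have hr0 : 0 ≤ r := Real.sqrt_nonneg _
  have hr2 : r ^ 2 = 2 * δ := Real.sq_sqrt (by positivity)
  set δ' : ℝ := (r + 1) ^ 2 / 2 with hδ'
  have hδ'0 : 0 < δ' := by positivity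
  have hle : δ ≤ δ' := by
    have : r ^ 2 ≤ (r + 1) ^ 2 := pow_le_pow_left₀ hr0 (by linarith) 2
    rw [hδ']
    linarith
  have hgg : ∀ x, δ' ≤ RA.gg p x ↔ r + 1 ≤ dist x p := by
    intro x
    unfold RA.gg
    rw [hδ', div_le_div_iff_of_pos_right (by norm_num)]
    exact pow_le_pow_iff_left₀ (by linarith) dist_nonneg two_ne_zero
  have hgg' : ∀ x, r ≤ dist x p → δ ≤ RA.gg p x := by
    intro x hx
    unfold RA.gg
    have : r ^ 2 ≤ dist x p ^ 2 := pow_le_pow_left₀ hr0 hx 2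
    linarith
  have hφW := mem_sob_iff.1 hφ
  have h0ae : ∀ᵐ x ∂m, 0 ≤ φ x := by
    filter_upwards [AEEqFun.coeFn_le.2 hφ0, AEEqFun.coeFn_zero (α := M) (μ := m) (β := ℝ)]
      with x a1 a2
    rw [a2] at a1
    exact a1
  obtain ⟨b, B, b1, b2, b3, b4, b5, b6⟩ := exists_pos_approx hφW h0ae p r
    (hz.mono fun x hx hx' => hx (hgg' x hx'))
  -- the classes
  have hb3 : ∀ k x, r + 1 ≤ dist p x → b k x = 0 := fun k x hx => b3 k x (by rwa [dist_comm])
  have hbc : ∀ k, Continuous (b k) := fun k => by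
    obtain ⟨L, hL⟩ := b1 k
    exact hL.continuous
  have hbae : ∀ k, ⇑(cl m (b k)) =ᵐ[m] b k := fun k => H183.cl_cont (hbc k)
  have hbW : ∀ k, cl m (b k) ∈ (sob m).W := fun k => by
    obtain ⟨L, hL⟩ := b1 k
    exact H183.cl_mem_W hfin hL (hb3 k)
  have hLip := fun (d : ℝ) (hd : 0 < d) => ww_lip' hd p
  have hwW : ∀ d : ℝ, 0 < d → cl m (RA.ww d p) ∈ (sob m).W := fun d hd => by
    obtain ⟨⟨L, hL⟩, h2⟩ := hLip d hd
    exact H183.cl_mem_W hfin hL h2
  have hwae : ∀ d : ℝ, 0 < d → ⇑(cl m (RA.ww d p)) =ᵐ[m] RA.ww d p := fun d hd => by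
    obtain ⟨⟨L, hL⟩, h2⟩ := hLip d hd
    exact H183.cl_cont hL.continuous
  set W' := cl m (RA.ww δ' p) with hW'
  set W := cl m (RA.ww δ p) with hW
  -- weak convergence
  have hen : ∀ᶠ k in atTop, I ((sob m).Γ (cl m (b k)) (cl m (b k))) ≤ B := by
    filter_upwards [b5] with k hk
    refine le_trans (le_of_eq ?_) hk
    unfold I Q
    refine integral_congr_ae ?_
    filter_upwards [sob_Γ_self_ae (hbW k), mslope_congr (hbae k) (mem_sob_iff.1 (hbW k))]
      with x a1 a2
    rw [a1, a2]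
  have hl2 : Tendsto (fun k => I ((cl m (b k) - φ) ^ 2)) atTop (𝓝 0) := by
    refine b6.congr fun k => ?_
    unfold I
    refine integral_congr_ae ?_
    filter_upwards [sq_ae (cl m (b k) - φ), sub_ae (cl m (b k)) φ, hbae k] with x a1 a2 a3
    rw [a1, a2, a3]
  have hw := hC.E_tendsto_weak (Eventually.of_forall hbW) hφ (hwW δ' hδ'0) hen hl2
  have hw' : Tendsto (fun k => -I ((sob m).Γ W' (cl m (b k)))) atTop
      (𝓝 (-I ((sob m).Γ W' φ))) := by
    have e1 : ∀ k, (sob m).Γ W' (cl m (b k)) = (sob m).Γ (cl m (b k)) W' := fun k =>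
      hC.symm _ (hwW δ' hδ'0) _ (hbW k)
    rw [hC.symm _ (hwW δ' hδ'0) _ hφ]
    simp only [e1]
    exact hw.neg
  -- the right-hand side
  have hmb : m (Metric.closedBall p (r + 1)) < ∞ :=
    (measure_mono (Metric.closedBall_subset_ball (by linarith : r + 1 < r + 2))).trans_lt (hfin p _)
  set Z : M → ℝ := (Metric.closedBall p (r + 1)).indicator fun x => a - c * RA.gg p x with hZ
  have hggm : Measurable fun x => a - c * RA.gg p x := by
    unfold RA.gg
    exact ((((continuous_id.dist continuous_const).pow 2).div_const 2).const_mul c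
      |>.measurable.const_sub a)
  have hZm : Measurable Z := hggm.indicator Metric.isClosed_closedBall.measurableSet
  have hZb : ∀ x, |Z x| ≤ |a| + |c| * δ' := by
    intro x
    rw [hZ]
    by_cases hx : x ∈ Metric.closedBall p (r + 1)
    · rw [indicator_of_mem hx]
      have h2 : RA.gg p x ≤ δ' := by
        unfold RA.gg
        rw [Metric.mem_closedBall] at hx
        have := pow_le_pow_left₀ dist_nonneg hx 2
        rw [hδ']
        linarith
      have h3 : 0 ≤ RA.gg p x := by unfold RA.gg; positivity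
      calc |a - c * RA.gg p x| ≤ |a| + |c * RA.gg p x| := abs_sub _ _
        _ = |a| + |c| * RA.gg p x := by rw [abs_mul, abs_of_nonneg h3]
        _ ≤ _ := by gcongr
    · rw [indicator_of_notMem hx, abs_zero]
      positivity
  have hZ2 : MemLp Z 2 m := by
    have h2 : MemLp ((Metric.closedBall p (r + 1)).indicator fun _ => |a| + |c| * δ') 2 m :=
      memLp_indicator_const 2 Metric.isClosed_closedBall.measurableSet _ (Or.inr hmb.ne)
    refine h2.mono hZm.aestronglyMeasurable (ae_of_all _ fun x => ?_)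
    by_cases hx : x ∈ Metric.closedBall p (r + 1)
    · rw [indicator_of_mem hx, Real.norm_eq_abs]
      exact (hZb x).trans (le_abs_self _)
    · rw [hZ, indicator_of_notMem hx, indicator_of_notMem hx]
  have hZφ : Integrable (fun x => Z x * φ x) m := hZ2.integrable_mul hφW.memLp
  have hZb' : ∀ k, Integrable (fun x => Z x * b k x) m := fun k => hZ2.integrable_mul (b4 k).memLp
  have e1 : ∀ k, ∫ x, (a - c * RA.gg p x) * b k x ∂m = ∫ x, Z x * b k x ∂m := by
    intro k
    refine integral_congr_ae (ae_of_all _ fun x => ?_)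
    dsimp only
    by_cases hx : x ∈ Metric.closedBall p (r + 1)
    · rw [hZ, indicator_of_mem hx]
    · rw [Metric.mem_closedBall, not_le] at hx
      rw [b3 k x hx.le, mul_zero, mul_zero]
  have e2 : ∫ x, (a - c * RA.gg p x) * φ x ∂m = ∫ x, Z x * φ x ∂m := by
    refine integral_congr_ae ?_
    filter_upwards [hz] with x hx
    by_cases hx' : x ∈ Metric.closedBall p (r + 1)
    · rw [hZ, indicator_of_mem hx']
    · rw [Metric.mem_closedBall, not_le] at hx'
      rw [hx (hgg' x (by linarith)), mul_zero, mul_zero]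
  have hrhs : Tendsto (fun k => ∫ x, Z x * b k x ∂m) atTop (𝓝 (∫ x, Z x * φ x ∂m)) := by
    rw [tendsto_iff_dist_tendsto_zero]
    have h2 : Tendsto (fun k => √(∫ x, Z x ^ 2 ∂m) * √(∫ x, (b k x - φ x) ^ 2 ∂m)) atTop
        (𝓝 0) := by
      have := (b6.sqrt).const_mul (√(∫ x, Z x ^ 2 ∂m))
      simpa using this
    refine squeeze_zero (fun _ => dist_nonneg) (fun k => ?_) h2
    rw [Real.dist_eq, ← integral_sub (hZb' k) hZφ]
    have e3 : ∀ x, Z x * b k x - Z x * φ x = Z x * (b k x - φ x) := fun x => by ring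
    simp only [e3]
    have h3 : MemLp (fun x => b k x - φ x) 2 m := (b4 k).memLp.sub hφW.memLp
    have hZc : ⇑(cl m Z) =ᵐ[m] Z := H183.cl_ae hZm.aestronglyMeasurable
    have hbc' : ⇑(cl m (b k) - φ) =ᵐ[m] fun x => b k x - φ x := by
      filter_upwards [sub_ae (cl m (b k)) φ, hbae k] with x a1 a2
      rw [a1, a2]
    have h4 := I_abs_le (hZ2.ae_eq hZc.symm) (h3.ae_eq hbc'.symm)
    have e4 : I (cl m Z * (cl m (b k) - φ)) = ∫ x, Z x * (b k x - φ x) ∂m := by
      unfold I
      refine integral_congr_ae ?_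
      filter_upwards [mul_ae (cl m Z) (cl m (b k) - φ), hZc, hbc'] with x a1 a2 a3
      rw [a1, a2, a3]
    have e5 : I ((cl m Z) ^ 2) = ∫ x, Z x ^ 2 ∂m := by
      unfold I
      refine integral_congr_ae ?_
      filter_upwards [sq_ae (cl m Z), hZc] with x a1 a2
      rw [a1, a2]
    have e6 : I ((cl m (b k) - φ) ^ 2) = ∫ x, (b k x - φ x) ^ 2 ∂m := by
      unfold I
      refine integral_congr_ae ?_
      filter_upwards [sq_ae (cl m (b k) - φ), hbc'] with x a1 a2
      rw [a1, a2]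
    rw [e4, e5, e6] at h4
    exact h4
  have hmain : -I ((sob m).Γ W' φ) ≤ ∫ x, Z x * φ x ∂m := by
    refine le_of_tendsto_of_tendsto' hw' hrhs fun k => ?_
    obtain ⟨L, hL⟩ := b1 k
    rw [← e1 k]
    exact h1 p δ' hδ'0 (b k) L hL (b2 k) (fun x hx => b3 k x ((hgg x).1 hx))
  -- locality
  have hloc : (sob m).Γ W φ = (sob m).Γ W' φ := by
    refine AEEqFun.ext ?_
    filter_upwards [H183.Γ_loc hC (hwW δ hδ) (hwW δ' hδ'0) hφ (δ' - δ),
      H183.Γ_loc0 hC hφ (hwW δ hδ) 0, H183.Γ_loc0 hC hφ (hwW δ' hδ'0) 0, hz, hwae δ hδ,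
      hwae δ' hδ'0] with x a1 a2 a3 a4 a5 a6
    by_cases hx : δ ≤ RA.gg p x
    · have h2 := a4 hx
      rw [hC.symm _ (hwW δ hδ) _ hφ, hC.symm _ (hwW δ' hδ'0) _ hφ, a2 h2, a3 h2]
    · refine a1 ?_
      rw [a5, a6]
      have h2 : RA.gg p x < δ := not_le.1 hx
      unfold RA.ww RA.cc
      unfold RA.gg at h2
      rw [min_eq_left h2.le, min_eq_left (h2.le.trans hle)]
      ring
  rw [hloc, e2]
  exact hmain

end Vale.Agent.P233.H790.LC2
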