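import Vale.Agent.P233.RA.IfL2
import Vale.Agent.P233.H790.LC2
import Vale.Agent.P233.H761.LcReal

/-! P233, RCDA, block L2 (c): from the Euler form `EC` of the comparison to `LC` (helper790). -/

set_option linter.all false

open MeasureTheory Filter Topology Set
open scoped ENNReal NNReal MeasureTheory

universe u

namespace Vale.Agent.P233.H790.LCE

open Vale.Agent.P233.Met

theorem cont_sn (κ : ℝ) : Continuous (sn κ) := by
  unfold sn
  split_ifs <;> fun_prop

theorem cont_cs (κ : ℝ) : Continuous (cs κ) := by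
  unfold cs
  split_ifs <;> fun_prop

/-- the real functions of helper761 -/
def ExT (κ : ℝ) (n : ℕ) : Prop :=
  ∀ R₁ R₂ : ℝ, 0 < R₁ → R₁ < R₂ → √κ * R₂ < Real.pi → ∃ Φ Φ' χ : ℝ → ℝ, Continuous Φ ∧
    Continuous Φ' ∧ (∀ t, HasDerivAt Φ (Φ' t) t) ∧ (∃ K, ∀ t, |Φ' t| ≤ K) ∧
    (∃ K, ∀ t ≥ 0, 0 ≤ Φ t ∧ Φ t ≤ K) ∧ Continuous χ ∧ (∀ t, 0 ≤ χ t ∧ χ t ≤ 1) ∧
    (∀ t ≤ R₁ ^ 2 / 2, χ t = 1) ∧ (∀ t ≥ R₂ ^ 2 / 2, χ t = 0 ∧ Φ t = 0 ∧ Φ' t = 0) ∧
    ∀ r ≥ 0, Φ (r ^ 2 / 2) * sn κ r = χ (r ^ 2 / 2) * r ∧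
      n * cs κ r * Φ (r ^ 2 / 2) + sn κ r * (r * Φ' (r ^ 2 / 2)) ≤
        χ (r ^ 2 / 2) * (n - 2 * ((n - 1) * κ) / 3 * (r ^ 2 / 2))

variable {M : Type u} [MetricSpace M]

/-- The first variation is unique. -/
theorem FV_unique {b : M → ℝ} {p y : M} {a a' : ℝ} (hpy : p ≠ y)
    (hg : ∀ s t : ℝ, 0 ≤ s → 0 ≤ t → s + t = dist y p → ∃ w, dist y w = s ∧ dist w p = t)
    (h : PD.FV b p y a) (h' : PD.FV b p y a') : a = a' := by
  by_contra hne
  have hd : 0 < dist y p := dist_pos.2 (Ne.symm hpy)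
  set ε : ℝ := |a - a'| / 4 with hε
  have hε0 : 0 < ε := by
    have := abs_pos.2 (sub_ne_zero.2 hne)
    positivity
  obtain ⟨δ, hδ, h1⟩ := h ε hε0
  obtain ⟨δ', hδ', h1'⟩ := h' ε hε0
  set s : ℝ := min (min δ δ') (dist y p) / 2 with hs
  have hs0 : 0 < s := by positivity
  have hm : min (min δ δ') (dist y p) ≤ min δ δ' := min_le_left _ _
  have hm' : min (min δ δ') (dist y p) ≤ dist y p := min_le_right _ _
  have hm1 : min δ δ' ≤ δ := min_le_left _ _
  have hm2 : min δ δ' ≤ δ' := min_le_right _ _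
  have hsd : s < dist y p := by linarith
  obtain ⟨z, z1, z2⟩ := hg s (dist y p - s) hs0.le (by linarith) (by ring)
  have k1 := h1 z (by rw [z1]; linarith) (by rw [z1, z2]; ring)
  have k2 := h1' z (by rw [z1]; linarith) (by rw [z1, z2]; ring)
  rw [z1] at k1 k2
  have e : s * (a - a') = (b z - b y + s * a) - (b z - b y + s * a') := by ring
  have k3 : |s * (a - a')| ≤ ε * s + ε * s := by
    rw [e]
    refine (abs_sub _ _).trans ?_
    linarith
  rw [abs_mul, abs_of_pos hs0] at k3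
  have : s * |a - a'| = s * (4 * ε) := by rw [hε]; ring
  nlinarith

/-- Product rule for the first variation, with a function of `d_p²/2`. -/
theorem FV_mul {b : M → ℝ} {p y : M} {a : ℝ} {Φ : ℝ → ℝ} {D : ℝ}
    (hΦ : HasDerivAt Φ D (RA.gg p y)) (h : PD.FV b p y a) :
    PD.FV (fun x => b x * Φ (RA.gg p x)) p y
      (Φ (RA.gg p y) * a + b y * D * dist p y) := by
  set d := dist y p with hd
  have hh : HasDerivAt (fun s : ℝ => Φ ((d - s) ^ 2 / 2)) (D * (-d)) 0 := by
    have h1 : HasDerivAt (fun s : ℝ => (d - s) ^ 2 / 2) (-d) 0 := by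
      have h2 : HasDerivAt (fun s : ℝ => d - s) (-1) 0 := by
        simpa using (hasDerivAt_id (0 : ℝ)).const_sub d
      have h3 := (h2.pow 2).div_const 2
      refine h3.congr_deriv ?_
      simp
      ring
    have h2 : HasDerivAt Φ D ((d - 0) ^ 2 / 2) := by
      rw [sub_zero]
      exact hΦ
    exact h2.comp 0 h1
  have hc : ∀ᶠ s in 𝓝 (0 : ℝ), |Φ ((d - s) ^ 2 / 2) - Φ ((d - 0) ^ 2 / 2)| < 1 := by
    have := hh.continuousAt.tendsto
    have h2 := (Metric.tendsto_nhds.1 this) 1 one_pos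
    filter_upwards [h2] with s hs
    rwa [Real.dist_eq] at hs
  intro ε hε
  set A : ℝ := 3 * (|Φ (RA.gg p y)| + 1) with hA
  set B : ℝ := 3 * (|b y| + 1) with hB
  set E : ℝ := 3 * (|a| + 1) with hE
  have hA0 : 0 < A := by positivity
  have hB0 : 0 < B := by positivity
  have hE0 : 0 < E := by positivity
  obtain ⟨δ₁, hδ₁, k1⟩ := h (ε / A) (by positivity)
  have h2 := (hasDerivAt_iff_isLittleO.1 hh).def (show 0 < ε / B by positivity)
  have h3 : ∀ᶠ s in 𝓝 (0 : ℝ), |Φ ((d - s) ^ 2 / 2) - Φ ((d - 0) ^ 2 / 2)| < ε / E := by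
    have := hh.continuousAt.tendsto
    have h2 := (Metric.tendsto_nhds.1 this) (ε / E) (by positivity)
    filter_upwards [h2] with s hs
    rwa [Real.dist_eq] at hs
  obtain ⟨δ₂, hδ₂, k2⟩ := Metric.eventually_nhds_iff.1 (hc.and (h2.and h3))
  refine ⟨min δ₁ δ₂, lt_min hδ₁ hδ₂, fun z hz hzp => ?_⟩
  have hz1 : dist y z < δ₁ := hz.trans_le (min_le_left _ _)
  have hz2 : dist y z < δ₂ := hz.trans_le (min_le_right _ _)
  have c1 := k1 z hz1 hzp
  obtain ⟨c2, c3, c4⟩ := @k2 (dist y z) (by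
    rw [Real.dist_eq, sub_zero, abs_of_nonneg dist_nonneg]; exact hz2)
  set s := dist y z with hs
  have hs0 : 0 ≤ s := dist_nonneg
  have hzd : dist z p = d - s := by linarith
  have egz : RA.gg p z = (d - s) ^ 2 / 2 := by
    unfold RA.gg
    rw [hzd]
  have egy : RA.gg p y = (d - 0) ^ 2 / 2 := by
    unfold RA.gg
    rw [sub_zero]
  rw [← egz, ← egy] at c2 c3 c4
  rw [sub_zero, smul_eq_mul, Real.norm_eq_abs, Real.norm_eq_abs, abs_of_nonneg hs0] at c3
  have hdp : dist p y = d := dist_comm p y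
  dsimp only
  rw [hdp]
  have e : b z * Φ (RA.gg p z) - b y * Φ (RA.gg p y) + s * (Φ (RA.gg p y) * a + b y * D * d) =
      Φ (RA.gg p z) * (b z - b y + s * a) +
      b y * (Φ (RA.gg p z) - Φ (RA.gg p y) - s * (D * -d)) -
      s * a * (Φ (RA.gg p z) - Φ (RA.gg p y)) := by ring
  rw [e]
  have f1 : |Φ (RA.gg p z)| ≤ |Φ (RA.gg p y)| + 1 := by
    have e1 : Φ (RA.gg p z) = (Φ (RA.gg p z) - Φ (RA.gg p y)) + Φ (RA.gg p y) := by ring
    rw [e1]
    refine (abs_add_le _ _).trans ?_
    linarith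
  have g1 : |Φ (RA.gg p z) * (b z - b y + s * a)| ≤ ε / 3 * s := by
    rw [abs_mul]
    calc |Φ (RA.gg p z)| * |b z - b y + s * a| ≤ (|Φ (RA.gg p y)| + 1) * (ε / A * s) := by
          gcongr
      _ = ε / 3 * s := by
          rw [hA]
          field_simp
  have g2 : |b y * (Φ (RA.gg p z) - Φ (RA.gg p y) - s * (D * -d))| ≤ ε / 3 * s := by
    rw [abs_mul]
    calc |b y| * |Φ (RA.gg p z) - Φ (RA.gg p y) - s * (D * -d)| ≤
        (|b y| + 1) * (ε / B * s) := by
          gcongr
          linarith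
      _ = ε / 3 * s := by
          rw [hB]
          field_simp
  have g3 : |s * a * (Φ (RA.gg p z) - Φ (RA.gg p y))| ≤ ε / 3 * s := by
    rw [abs_mul, abs_mul, abs_of_nonneg hs0]
    calc s * |a| * |Φ (RA.gg p z) - Φ (RA.gg p y)| ≤ s * (|a| + 1) * (ε / E) := by
          gcongr
          linarith
      _ = ε / 3 * s := by
          rw [hE]
          field_simp
  refine (abs_sub _ _).trans ?_
  have := abs_add_le (Φ (RA.gg p z) * (b z - b y + s * a))
    (b y * (Φ (RA.gg p z) - Φ (RA.gg p y) - s * (D * -d)))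
  linarith

/-- Exhaustion of `{√κ r < π}`. -/
theorem exists_exh (κ : ℝ) : ∃ R₁ R₂ : ℕ → ℝ, (∀ j, 0 < R₁ j ∧ R₁ j < R₂ j ∧
    √κ * R₂ j < Real.pi) ∧ ∀ d : ℝ, √κ * d < Real.pi → ∀ᶠ j in atTop, d ≤ R₁ j := by
  by_cases hκ : √κ = 0
  · refine ⟨fun j => j + 1, fun j => j + 2, fun j => ⟨by positivity, by linarith, ?_⟩, ?_⟩
    · rw [hκ, zero_mul]
      exact Real.pi_pos
    · intro d _
      obtain ⟨N, hN⟩ := exists_nat_gt d
      filter_upwards [eventually_ge_atTop N] with j hj
      have : (N : ℝ) ≤ j := by exact_mod_cast hj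
      linarith
  · have hκ0 : 0 < √κ := lt_of_le_of_ne (Real.sqrt_nonneg _) (Ne.symm hκ)
    have hpi := Real.pi_pos
    refine ⟨fun j => Real.pi / √κ * (1 - 1 / ((j : ℝ) + 2)),
      fun j => Real.pi / √κ * (1 - 1 / ((j : ℝ) + 3)), fun j => ⟨?_, ?_, ?_⟩, ?_⟩
    · have : 1 / ((j : ℝ) + 2) < 1 := by
        rw [div_lt_one (by positivity)]
        have : (0 : ℝ) ≤ j := Nat.cast_nonneg j
        linarith
      have h2 : 0 < 1 - 1 / ((j : ℝ) + 2) := by linarith
      positivity
    · have h1 : 1 / ((j : ℝ) + 3) < 1 / ((j : ℝ) + 2) :=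
        one_div_lt_one_div_of_lt (by positivity) (by linarith)
      have h2 : 0 < Real.pi / √κ := by positivity
      exact mul_lt_mul_of_pos_left (by linarith) h2
    · have h1 : 0 < 1 / ((j : ℝ) + 3) := by positivity
      have h2 : √κ * (Real.pi / √κ * (1 - 1 / ((j : ℝ) + 3))) =
          Real.pi - Real.pi * (1 / ((j : ℝ) + 3)) := by
        field_simp
      have h3 : 0 < Real.pi * (1 / ((j : ℝ) + 3)) := by positivity
      rw [h2]
      linarith
    · intro d hd
      have h1 : Tendsto (fun j : ℕ => Real.pi / √κ * (1 - 1 / ((j : ℝ) + 2))) atTop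
          (𝓝 (Real.pi / √κ * (1 - 0))) := by
        refine Tendsto.const_mul _ (Tendsto.const_sub _ ?_)
        have h2 := (tendsto_one_div_add_atTop_nhds_zero_nat (𝕜 := ℝ)).comp
          (tendsto_add_atTop_nat 1)
        refine h2.congr fun j => ?_
        simp only [Function.comp_apply]
        push_cast
        ring
      have h2 : d < Real.pi / √κ * (1 - 0) := by
        rw [sub_zero, mul_one, lt_div_iff₀ hκ0]
        linarith
      filter_upwards [h1.eventually_const_lt h2] with j hj using hj.le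

variable [MeasurableSpace M] [BorelSpace M] {m : Measure M}

/-- integrability of `F(d_p) G` -/
theorem int_FG {G : M → ℝ} (hG : Integrable G m) {p : M} {r : ℝ}
    (h0 : ∀ᵐ x ∂m, r ≤ dist p x → G x = 0) {F : ℝ → ℝ} (hF : Continuous F) :
    Integrable (fun x => F (dist p x) * G x) m := by
  obtain ⟨C, hC⟩ := isCompact_Icc.exists_bound_of_continuousOn (s := Icc 0 r) hF.continuousOn
  have hd : Continuous fun x => F (dist p x) := hF.comp (continuous_const.dist continuous_id)
  refine Integrable.mono' (hG.norm.const_mul |C|) (hd.aestronglyMeasurable.mul hG.1) ?_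
  filter_upwards [h0] with x hx
  rw [norm_mul]
  by_cases h : dist p x ≤ r
  · have := hC _ ⟨dist_nonneg, h⟩
    gcongr
    exact this.trans (le_abs_self _)
  · rw [hx (not_le.1 h).le, norm_zero, mul_zero, mul_zero]

/-- continuous functions with bounded support are integrable -/
theorem int_b (hfin : ∀ (x : M) (r : ℝ), m (Metric.ball x r) < ∞) {b : M → ℝ} (hb : Continuous b)
    {C : ℝ} (hC : ∀ x, |b x| ≤ C) {p : M} {r : ℝ} (h0 : ∀ x, r ≤ dist p x → b x = 0) :
    Integrable b m := by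
  have h2 : Integrable ((Metric.ball p r).indicator fun _ => |C|) m := by
    rw [integrable_indicator_iff Metric.isOpen_ball.measurableSet]
    exact integrableOn_const (hfin p r).ne
  refine h2.mono' hb.aestronglyMeasurable (ae_of_all _ fun x => ?_)
  by_cases hx : x ∈ Metric.ball p r
  · rw [indicator_of_mem hx, Real.norm_eq_abs]
    exact (hC x).trans (le_abs_self _)
  · rw [indicator_of_notMem hx, h0 x (by
      rw [Metric.mem_ball, not_lt, dist_comm] at hx; exact hx), norm_zero]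

theorem dtr_lip (p : M) (R : ℝ) : LipschitzWith 1 (dtr p R) := by
  refine LipschitzWith.of_dist_le_mul fun x y => ?_
  rw [NNReal.coe_one, one_mul, Real.dist_eq]
  unfold dtr
  have h2 := abs_min_sub_min_le_max (dist p x) R (dist p y) R
  have h3 := abs_dist_sub_le x y p
  rw [dist_comm x p, dist_comm y p] at h3
  have h4 : max |dist p x - dist p y| |R - R| = |dist p x - dist p y| := by
    rw [sub_self, abs_zero]
    exact max_eq_left (abs_nonneg _)
  rw [h4] at h2
  have e : min (dist p x) R - R - (min (dist p y) R - R) = min (dist p x) R - min (dist p y) R := by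
    ring
  rw [e]
  exact h2.trans h3

theorem dtr_zero {p x : M} {R : ℝ} (h : R ≤ dist p x) : dtr p R x = 0 := by
  unfold dtr
  rw [min_eq_right h, sub_self]

/-- spheres are null sets -/
theorem sphere_null (hfin : ∀ (x : M) (r : ℝ), m (Metric.ball x r) < ∞) (hC : IsDir (sob m))
    (hU : PD.UnitGrad m) (p : M) (c : ℝ) : ∀ᵐ y ∂m, dist p y ≠ c := by
  set R : ℝ := |c| + 1 with hR
  have hcR : c < R := by
    have := le_abs_self c
    linarith
  have hW : PD.dp m p R ∈ (sob m).W :=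
    H183.cl_mem_W hfin (dtr_lip p R) (fun x hx => dtr_zero hx)
  filter_upwards [hU p R, H183.Γ_loc0 hC hW hW (c - R),
    H183.cl_cont (m := m) (dtr_lip p R).continuous] with y h1 h2 h3 h4
  have h5 := h1 (by rw [h4]; exact hcR)
  have h6 : PD.dp m p R y = c - R := by
    unfold PD.dp
    rw [h3]
    unfold dtr
    rw [h4, min_eq_left hcR.le]
  rw [h2 h6] at h5
  exact zero_ne_one h5

variable [SecondCountableTopology M]

/-- **EC implies LC for Lipschitz functions.** -/
theorem lc1_of {n : ℕ} {κ : ℝ} (hfin : ∀ (x : M) (r : ℝ), m (Metric.ball x r) < ∞)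
    (hq : RG.Quadr m) (hgeo : PD.Geo m n) (hL : RG.LOut m n) (hM : RG.Myers M κ)
    (hE : RG.EC m n κ) (hT : ExT κ n) : LC2.LC1' m n (2 * ((n - 1) * κ) / 3) := by
  intro p δ hδ b L hbL hb0 hbz
  have hC : IsDir (sob m) := isDir_sob hfin hq
  set c : ℝ := 2 * ((n - 1) * κ) / 3 with hc
  set r : ℝ := √(2 * δ) with hr
  have hr0 : 0 < r := Real.sqrt_pos.2 (by positivity)
  have hr2 : r ^ 2 = 2 * δ := Real.sq_sqrt (by positivity)
  have hbz' : ∀ x, r ≤ dist p x → b x = 0 := by
    intro x hx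
    refine hbz x ?_
    unfold RA.gg
    rw [dist_comm]
    have := pow_le_pow_left₀ hr0.le hx 2
    linarith
  obtain ⟨Cb, hCb⟩ := Met.bdd_of_bounded_support hbL (x₀ := p) (R := r) (fun x hx => hbz' x (by
    rw [Metric.mem_ball, not_lt, dist_comm] at hx; exact hx))
  have hbW : cl m b ∈ (sob m).W := H183.cl_mem_W hfin hbL hbz'
  have hbae : ⇑(cl m b) =ᵐ[m] b := H183.cl_cont hbL.continuous
  have hbLW : PD.LW m (cl m b) b := ⟨hbW, ⟨L, hbL⟩, hbae⟩
  set D := PD.dp m p r with hD
  have hDA : D ∈ (sob m).A := H183.cl_mem_A hfin (dtr_lip p r) (fun x hx => dtr_zero hx)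
  have hDae : ⇑D =ᵐ[m] dtr p r := H183.cl_cont (dtr_lip p r).continuous
  set G := (sob m).Γ (cl m b) D with hG
  have hG1 : Integrable G m := int_of_mem (hC.Γ_mem1 hbW hDA.1)
  have hGz : ∀ᵐ x ∂m, r ≤ dist p x → G x = 0 := by
    filter_upwards [H183.Γ_loc0 hC hDA.1 hbW 0, hDae] with x h1 h2 hx
    rw [hG, hC.symm _ hbW _ hDA.1]
    exact h1 (by rw [h2, dtr_zero hx])
  have hbint : Integrable b m := int_b hfin hbL.continuous hCb hbz'
  -- the left-hand side
  obtain ⟨⟨Lw, hLw⟩, hwz⟩ := LC2.ww_lip' hδ p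
  have hwae : ⇑(cl m (RA.ww δ p)) =ᵐ[m] RA.ww δ p := H183.cl_cont hLw.continuous
  have hww : ∀ x, RA.ww δ p x = r * dtr p r x + (1 / 2) * (dtr p r x * dtr p r x) := by
    intro x
    unfold RA.ww RA.cc dtr
    rw [dist_comm]
    have hd0 : 0 ≤ dist p x := dist_nonneg
    rcases le_total (dist p x) r with h | h
    · have h1 := pow_le_pow_left₀ hd0 h 2
      rw [min_eq_left h, min_eq_left (by linarith)]
      have : δ = r ^ 2 / 2 := by linarith
      rw [this]
      ring
    · have h1 := pow_le_pow_left₀ hr0.le h 2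
      rw [min_eq_right h, min_eq_right (by linarith)]
      ring
  have hwc : cl m (RA.ww δ p) = r • D + (1 / 2 : ℝ) • (D * D) := by
    refine AEEqFun.ext ?_
    filter_upwards [hwae, hDae, add_ae (r • D) ((1 / 2 : ℝ) • (D * D)), smul_ae D r,
      smul_ae (D * D) (1 / 2 : ℝ), mul_ae D D] with x h1 h2 h3 h4 h5 h6
    rw [h1, h3, h4, h5, h6, h2, hww]
  have hDD : D * D ∈ (sob m).W := (hC.mul_mem_A hDA hDA).1
  have hΓ : (sob m).Γ (cl m (RA.ww δ p)) (cl m b) = r • (sob m).Γ D (cl m b) +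
      (1 / 2 : ℝ) • (D * (sob m).Γ D (cl m b) + D * (sob m).Γ D (cl m b)) := by
    rw [hwc, hC.add_left _ (hC.smul_mem r _ hDA.1) _ (hC.smul_mem _ _ hDD) _ hbW,
      hC.smul_left r _ hDA.1 _ hbW, hC.smul_left _ _ hDD _ hbW, hC.Γ_mul_left hDA hDA hbW]
  have hlhs : I ((sob m).Γ (cl m (RA.ww δ p)) (cl m b)) = ∫ x, dist p x * G x ∂m := by
    rw [hΓ]
    unfold I
    refine integral_congr_ae ?_
    have eG : (sob m).Γ D (cl m b) = G := hC.symm _ hDA.1 _ hbW
    rw [eG]
    filter_upwards [hDae, add_ae (r • G) ((1 / 2 : ℝ) • (D * G + D * G)), smul_ae G r,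
      smul_ae (D * G + D * G) (1 / 2 : ℝ), add_ae (D * G) (D * G), mul_ae D G, hGz]
      with x h1 h2 h3 h4 h5 h6 h7
    rw [h2, h3, h4, h5, h6, h1]
    by_cases hx : r ≤ dist p x
    · rw [h7 hx]
      ring
    · unfold dtr
      rw [min_eq_left (not_le.1 hx).le]
      ring
  rw [hlhs]
  -- one level
  obtain ⟨R₁, R₂, hR, hRlim⟩ := exists_exh κ
  have hlev : ∀ j, ∃ χ : ℝ → ℝ, Continuous χ ∧ (∀ t, 0 ≤ χ t ∧ χ t ≤ 1) ∧
      (∀ t ≤ R₁ j ^ 2 / 2, χ t = 1) ∧
      -∫ x, χ (RA.gg p x) * (dist p x * G x) ∂m ≤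
        ∫ x, χ (RA.gg p x) * ((n - c * RA.gg p x) * b x) ∂m := by
    intro j
    obtain ⟨Φ, Φ', χ, p1, p2, p3, ⟨K1, p4⟩, ⟨K2, p5⟩, p6, p7, p8, p9, p10⟩ :=
      hT (R₁ j) (R₂ j) (hR j).1 (hR j).2.1 (hR j).2.2
    refine ⟨χ, p6, p7, p8, ?_⟩
    -- the test function
    have hgl : ∃ L' : ℝ≥0, LipschitzWith L' fun x => Φ (RA.ww δ p x + δ) := by
      have h1 : LipschitzWith (Real.toNNReal K1) Φ := by
        refine lipschitzWith_of_nnnorm_deriv_le (fun t => (p3 t).differentiableAt) fun t => ?_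
        rw [(p3 t).deriv, ← NNReal.coe_le_coe, coe_nnnorm, Real.norm_eq_abs]
        exact (p4 t).trans (Real.le_coe_toNNReal _)
      have h2 : LipschitzWith Lw fun x => RA.ww δ p x + δ :=
        LipschitzWith.of_dist_le_mul fun x y => by
          rw [dist_add_right]
          exact hLw.dist_le_mul x y
      exact ⟨_, h1.comp h2⟩
    have hwδ : ∀ x, 0 ≤ RA.ww δ p x + δ := by
      intro x
      unfold RA.ww RA.cc
      have : 0 ≤ min (dist x p ^ 2 / 2) δ := le_min (by positivity) hδ.le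
      linarith
    have hψe : ∀ x, b x * Φ (RA.gg p x) = b x * Φ (RA.ww δ p x + δ) := by
      intro x
      by_cases hx : δ ≤ RA.gg p x
      · rw [hbz x hx, zero_mul, zero_mul]
      · have h1 : RA.gg p x < δ := not_le.1 hx
        have h2 : RA.ww δ p x + δ = RA.gg p x := by
          unfold RA.ww RA.cc
          unfold RA.gg at h1 ⊢
          rw [min_eq_left h1.le]
          ring
        rw [h2]
    obtain ⟨Lψ, hψL⟩ : ∃ L' : ℝ≥0, LipschitzWith L' fun x => b x * Φ (RA.gg p x) := by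
      have h1 : (fun x => b x * Φ (RA.gg p x)) = fun x => b x * Φ (RA.ww δ p x + δ) :=
        funext hψe
      rw [h1]
      refine IsLip.mul ⟨L, hbL⟩ hgl ⟨Cb, hCb⟩ ⟨K2, fun x => ?_⟩
      have := p5 _ (hwδ x)
      rw [abs_of_nonneg this.1]
      exact this.2
    have hψ0 : ∀ x, 0 ≤ b x * Φ (RA.gg p x) := fun x =>
      mul_nonneg (hb0 x) (p5 _ (by unfold RA.gg; positivity)).1
    have hψz : ∀ x, r ≤ dist p x → b x * Φ (RA.gg p x) = 0 := fun x hx => by
      rw [hbz' x hx, zero_mul]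
    have hψη : ∃ η > 0, ∀ x, Real.pi - η ≤ √κ * dist p x → b x * Φ (RA.gg p x) = 0 := by
      by_cases hκ : √κ = 0
      · refine ⟨Real.pi / 2, by have := Real.pi_pos; positivity, fun x hx => ?_⟩
        rw [hκ, zero_mul] at hx
        have := Real.pi_pos
        linarith
      · have hκ0 : 0 < √κ := lt_of_le_of_ne (Real.sqrt_nonneg _) (Ne.symm hκ)
        refine ⟨Real.pi - √κ * R₂ j, by linarith [(hR j).2.2], fun x hx => ?_⟩
        have h1 : √κ * R₂ j ≤ √κ * dist p x := by linarith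
        have h2 : R₂ j ≤ dist p x := le_of_mul_le_mul_left h1 hκ0
        have h3 : R₂ j ^ 2 / 2 ≤ RA.gg p x := by
          unfold RA.gg
          rw [dist_comm x p]
          have := pow_le_pow_left₀ ((hR j).1.trans (hR j).2.1).le h2 2
          linarith
        rw [(p9 _ h3).2.1, mul_zero]
    have hec := hE p r (fun x => b x * Φ (RA.gg p x)) Lψ hψL hψ0 hψz hψη
    have hψW : cl m (fun x => b x * Φ (RA.gg p x)) ∈ (sob m).W := H183.cl_mem_W hfin hψL hψz
    have hψLW : PD.LW m (cl m fun x => b x * Φ (RA.gg p x)) (fun x => b x * Φ (RA.gg p x)) :=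
      ⟨hψW, ⟨_, hψL⟩, H183.cl_cont hψL.continuous⟩
    have hgd : ∀ x, RA.gg p x = dist p x ^ 2 / 2 := fun x => by
      unfold RA.gg
      rw [dist_comm]
    -- the integrand
    have hae : ∀ᵐ x ∂m, sn κ (dist p x) *
        (sob m).Γ (cl m fun x => b x * Φ (RA.gg p x)) (PD.dp m p r) x =
        χ (RA.gg p x) * (dist p x * G x) +
          (sn κ (dist p x) * (dist p x * Φ' (RA.gg p x))) * b x := by
      filter_upwards [hL.fv _ _ hbLW p r, hL.fv _ _ hψLW p r, sphere_null hfin hC hL.unit p 0,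
        hGz, H183.Γ_loc0 hC hDA.1 hψW 0, hDae] with x h1 h2 h3 h4 h5 h6
      by_cases hx : r ≤ dist p x
      · rw [h4 hx, hbz' x hx, hC.symm _ hψW _ hDA.1, h5 (by rw [h6, dtr_zero hx])]
        ring
      · have hx' := not_le.1 hx
        have k1 := FV_mul (p3 (RA.gg p x)) (h1 hx')
        have k2 := FV_unique (fun h => h3 (by rw [h, dist_self])) (fun s t hs ht hst =>
          hgeo.geod x p s t hs ht hst) (h2 hx') k1
        rw [k2]
        have k3 := (p10 (dist p x) dist_nonneg).1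
        rw [← hgd] at k3
        have e1 : sn κ (dist p x) * (Φ (RA.gg p x) * (sob m).Γ (cl m b) (PD.dp m p r) x +
            b x * Φ' (RA.gg p x) * dist p x) =
            (Φ (RA.gg p x) * sn κ (dist p x)) * (sob m).Γ (cl m b) (PD.dp m p r) x +
            (sn κ (dist p x) * (dist p x * Φ' (RA.gg p x))) * b x := by ring
        rw [e1, k3]
        ring
    -- integrability
    have i1 : Integrable (fun x => χ (RA.gg p x) * (dist p x * G x)) m := by
      have := int_FG hG1 hGz (F := fun t => χ (t ^ 2 / 2) * t) (by fun_prop)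
      refine this.congr (ae_of_all _ fun x => ?_)
      dsimp only
      rw [hgd]
      ring
    have i2 : Integrable (fun x => (sn κ (dist p x) * (dist p x * Φ' (RA.gg p x))) * b x) m := by
      have hsn := cont_sn κ
      have := int_FG hbint (ae_of_all _ hbz') (F := fun t => sn κ t * (t * Φ' (t ^ 2 / 2)))
        (by fun_prop)
      refine this.congr (ae_of_all _ fun x => ?_)
      dsimp only
      rw [hgd]
    have i3 : Integrable (fun x => n * cs κ (dist p x) * (b x * Φ (RA.gg p x))) m := by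
      have hcs := cont_cs κ
      have := int_FG hbint (ae_of_all _ hbz') (F := fun t => n * cs κ t * Φ (t ^ 2 / 2))
        (by fun_prop)
      refine this.congr (ae_of_all _ fun x => ?_)
      dsimp only
      rw [hgd]
      ring
    have i4 : Integrable (fun x => χ (RA.gg p x) * ((n - c * RA.gg p x) * b x)) m := by
      have := int_FG hbint (ae_of_all _ hbz') (F := fun t => χ (t ^ 2 / 2) * (n - c * (t ^ 2 / 2)))
        (by fun_prop)
      refine this.congr (ae_of_all _ fun x => ?_)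
      dsimp only
      rw [hgd]
      ring
    rw [integral_congr_ae hae, integral_add i1 i2] at hec
    have h5 : ∫ x, n * cs κ (dist p x) * (b x * Φ (RA.gg p x)) ∂m +
        ∫ x, (sn κ (dist p x) * (dist p x * Φ' (RA.gg p x))) * b x ∂m ≤
        ∫ x, χ (RA.gg p x) * ((n - c * RA.gg p x) * b x) ∂m := by
      rw [← integral_add i3 i2]
      refine integral_mono (i3.add i2) i4 fun x => ?_
      have k4 := (p10 (dist p x) dist_nonneg).2
      rw [← hgd, ← hc] at k4
      have k5 := mul_le_mul_of_nonneg_right k4 (hb0 x)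
      dsimp only
      linarith
    linarith
  choose χ q1 q2 q3 q4 using hlev
  have hgd : ∀ x, RA.gg p x = dist p x ^ 2 / 2 := fun x => by
    unfold RA.gg
    rw [dist_comm]
  have hggc : Continuous fun x => RA.gg p x := by
    unfold RA.gg
    fun_prop
  -- the cut-off tends to one
  have hpt : ∀ᵐ x ∂m, ∀ᶠ j in atTop, χ j (RA.gg p x) = 1 := by
    filter_upwards [sphere_null hfin hC hL.unit p (Real.pi / √κ)] with x hx
    have h1 : √κ * dist p x < Real.pi := by
      by_cases hκ : √κ = 0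
      · rw [hκ, zero_mul]
        exact Real.pi_pos
      · have hκ0 : 0 < √κ := lt_of_le_of_ne (Real.sqrt_nonneg _) (Ne.symm hκ)
        have h2 := hM (Real.sqrt_pos.1 hκ0) p x
        have h3 := lt_of_le_of_ne h2 hx
        rwa [lt_div_iff₀ hκ0, mul_comm] at h3
    filter_upwards [hRlim _ h1] with j hj
    refine q3 j _ ?_
    rw [hgd]
    have := pow_le_pow_left₀ dist_nonneg hj 2
    linarith
  have j1 : Integrable (fun x => dist p x * G x) m := int_FG hG1 hGz (F := fun t => t)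
    continuous_id
  have j2 : Integrable (fun x => (n - c * RA.gg p x) * b x) m := by
    have := int_FG hbint (ae_of_all _ hbz') (F := fun t => (n - c * (t ^ 2 / 2))) (by fun_prop)
    refine this.congr (ae_of_all _ fun x => ?_)
    dsimp only
    rw [hgd]
  have t1 : Tendsto (fun j => -∫ x, χ j (RA.gg p x) * (dist p x * G x) ∂m) atTop
      (𝓝 (-∫ x, dist p x * G x ∂m)) := by
    refine Tendsto.neg (tendsto_integral_of_dominated_convergence (fun x => ‖dist p x * G x‖)
      (fun j => (((q1 j).comp hggc).aestronglyMeasurable.mul j1.1)) j1.norm (fun j => ?_) ?_)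
    · refine ae_of_all _ fun x => ?_
      rw [norm_mul, Real.norm_eq_abs, abs_of_nonneg (q2 j _).1]
      calc χ j (RA.gg p x) * ‖dist p x * G x‖ ≤ 1 * ‖dist p x * G x‖ := by
            gcongr
            exact (q2 j _).2
        _ = _ := one_mul _
    · filter_upwards [hpt] with x hx
      refine tendsto_const_nhds.congr' ?_
      filter_upwards [hx] with j hj
      rw [hj, one_mul]
  have t2 : Tendsto (fun j => ∫ x, χ j (RA.gg p x) * ((n - c * RA.gg p x) * b x) ∂m) atTop
      (𝓝 (∫ x, (n - c * RA.gg p x) * b x ∂m)) := by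
    refine tendsto_integral_of_dominated_convergence (fun x => ‖(n - c * RA.gg p x) * b x‖)
      (fun j => (((q1 j).comp hggc).aestronglyMeasurable.mul j2.1)) j2.norm (fun j => ?_) ?_
    · refine ae_of_all _ fun x => ?_
      rw [norm_mul, Real.norm_eq_abs, abs_of_nonneg (q2 j _).1]
      calc χ j (RA.gg p x) * ‖(n - c * RA.gg p x) * b x‖ ≤
          1 * ‖(n - c * RA.gg p x) * b x‖ := by
            gcongr
            exact (q2 j _).2
        _ = _ := one_mul _
    · filter_upwards [hpt] with x hx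
      refine tendsto_const_nhds.congr' ?_
      filter_upwards [hx] with j hj
      rw [hj, one_mul]
  exact le_of_tendsto_of_tendsto' t1 t2 q4

/-- **Block (c) of L2**, from the real functions of helper761. -/
theorem blk_LCE_of (hT : ∀ (κ : ℝ) (n : ℕ), 1 ≤ n → ExT κ n) : RG.Blk_LCE.{u} := by
  intro M _ _ _ _ _ n κ hA hM hG hQ hL hE p δ hδ φ hφ hφ0 hz
  have h1 := lc1_of hG.fin hQ hG.geo hL hM hE (hT κ n (by have := hA.two_le; omega))
  exact LC2.lc_of hG.fin hQ h1 p δ hδ φ hφ hφ0 hz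

/-- **Block (c) of L2**: `EC` implies `LC`. -/
theorem blk_LCE : RG.Blk_LCE.{u} :=
  blk_LCE_of fun κ n hn R₁ R₂ h1 h2 h3 => H761.exists_test κ n hn R₁ R₂ h1 h2 h3

end Vale.Agent.P233.H790.LCE
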