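import Vale.Agent.P233.H790.S2LD1
import Vale.Agent.P233.CD.If3b

/-!
P233, stage 3, block (M7): the Sobolev-to-Lipschitz property from one-step contraction plans.
Part 2: limits and the block `CD.Blk_S2l`. (helper790)
-/

set_option linter.all false

open MeasureTheory Filter Topology Set Metric
open scoped ENNReal NNReal MeasureTheory

universe u

namespace Vale.Agent.P233.H790.SD

open Vale.Agent.P233.H227.Ch

variable {M : Type u} [MetricSpace M] [MeasurableSpace M] [BorelSpace M]
  [SecondCountableTopology M]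

/-- approximability in the ball: the input on `f` -/
def Appr (μ : Measure M) (p : M) (R : ℝ) (f : M → ℝ) : Prop :=
  ∀ ε : ℝ≥0∞, ε ≠ 0 → ∃ (u : M → ℝ) (L : ℝ≥0), LipschitzWith L u ∧
    ∫⁻ x in closedBall p R, ‖u x - f x‖ₑ ∂μ ≤ ε ∧ ∫⁻ x in closedBall p R, (lipAt u x - 1) ∂μ ≤ ε

theorem Appr.neg {μ : Measure M} {p : M} {R : ℝ} {f : M → ℝ} (h : Appr μ p R f) :
    Appr μ p R (fun x => -f x) := by
  intro ε hε
  obtain ⟨u, L, h1, h2, h3⟩ := h ε hε
  refine ⟨fun x => -u x, L, h1.neg, ?_, ?_⟩
  · refine le_trans (le_of_eq ?_) h2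
    refine lintegral_congr fun x => ?_
    have : -u x - -f x = -(u x - f x) := by ring
    rw [this, enorm_neg]
  · refine le_trans (le_of_eq ?_) h3
    refine lintegral_congr fun x => ?_
    have : lipAt (fun x => -u x) x = lipAt u x := by
      unfold lipAt
      congr 1
      funext y
      have : |-u y - -u x| = |u y - u x| := by
        rw [show -u y - -u x = -(u y - u x) by ring, abs_neg]
      rw [this]
    rw [this]

/-- excess at a small scale -/
theorem exists_scale {μ : Measure M} {p : M} {R : ℝ} (hμ : μ (closedBall p R) < ∞)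
    {u : M → ℝ} {L : ℝ≥0} (hu : LipschitzWith L u) {ε ε' : ℝ≥0∞}
    (h : ∫⁻ x in closedBall p R, (lipAt u x - 1) ∂μ ≤ ε) (hε : ε < ε') :
    ∃ η : ℝ, 0 < η ∧ ∫⁻ x in closedBall p R, (lipE u η x - 1) ∂μ ≤ ε' := by
  have hlim : Tendsto (fun j : ℕ => ∫⁻ x in closedBall p R, (lipE u (1 / ((j : ℝ) + 1)) x - 1) ∂μ)
      atTop (𝓝 (∫⁻ x in closedBall p R, (lipAt u x - 1) ∂μ)) := by
    refine tendsto_lintegral_of_dominated_convergence (fun _ => (L : ℝ≥0∞)) (fun j => ?_)
      (fun j => ae_of_all _ fun x => ?_) ?_ (ae_of_all _ fun x => ?_)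
    · exact (lipE_measurable hu.continuous _).sub_const 1
    · exact tsub_le_self.trans (lipE_le hu _ x)
    · rw [setLIntegral_const]
      exact ENNReal.mul_ne_top ENNReal.coe_ne_top hμ.ne
    · exact ENNReal.Tendsto.sub (tendsto_lipE x) tendsto_const_nhds (Or.inr ENNReal.one_ne_top)
  obtain ⟨j, hj⟩ := (hlim.eventually (ge_mem_nhds (h.trans_lt hε))).exists
  exact ⟨1 / ((j : ℝ) + 1), by positivity, hj⟩

/-- The estimate at time `S`. -/
theorem stepC {μ : Measure M} {p : M} {R S : ℝ} {n : ℕ} (hR : 0 ≤ R) (hS : 0 < S)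
    (hμ : μ (closedBall p R) < ∞)
    (hstep : ∀ t : ℝ, 0 < t → t < 1 → Step μ p t (ENNReal.ofReal (((1 - t) ^ n)⁻¹)))
    {f : M → ℝ} (hf : IntegrableOn f (closedBall p R) μ) (hA : Appr μ p R f) {A : Set M}
    (hAm : MeasurableSet A) (hAR : A ⊆ closedBall p R) :
    ∫ x in A, f x ∂μ ≤ f p * μ.real A + ∫ x in A, dist x p ∂μ +
      Real.exp (n * S) * ∫ x in closedBall p (Real.exp (-S) * R), |f x - f p| ∂μ := by
  refine le_of_forall_pos_le_add fun δ hδ => ?_
  set e := Real.exp (n * S) with he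
  have he0 : 0 < e := Real.exp_pos _
  set ε : ℝ := δ / (e * (1 + 2 * (S * R)) + 1) with hε
  have hSR : 0 ≤ S * R := by positivity
  have hε0 : 0 < ε := by positivity
  have hεδ : e * ε + ε + S * R * (e * (2 * ε)) = δ := by
    rw [hε]
    field_simp
    ring
  obtain ⟨u, L, hu, hu1, hu2⟩ := hA (ENNReal.ofReal ε) (by
    rw [Ne, ENNReal.ofReal_eq_zero, not_le]; exact hε0)
  obtain ⟨η, hη0, hη⟩ := exists_scale hμ hu hu2 (ε' := ENNReal.ofReal (2 * ε)) (by
    rw [ENNReal.ofReal_lt_ofReal_iff (by positivity)]; linarith)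
  obtain ⟨N, hN⟩ := exists_nat_gt (S * R / η)
  have hN0' : (0 : ℝ) < N := lt_of_le_of_lt (by positivity) hN
  have hN0 : 0 < N := by exact_mod_cast hN0'
  set t : ℝ := 1 - Real.exp (-(S / N)) with ht
  have hSN : 0 < S / N := by positivity
  have ht0 : 0 < t := by
    have : Real.exp (-(S / N)) < Real.exp 0 := Real.exp_lt_exp.2 (by linarith)
    rw [Real.exp_zero] at this
    linarith
  have ht1 : t < 1 := by
    have : 0 < Real.exp (-(S / N)) := Real.exp_pos _
    linarith
  have htS : t ≤ S / N := by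
    have := Real.add_one_le_exp (-(S / N))
    linarith
  have h1t : 1 - t = Real.exp (-(S / N)) := by rw [ht]; ring
  have htR : t * R < η := by
    have h1 : t * R ≤ S / N * R := mul_le_mul_of_nonneg_right htS hR
    have h2 : S / N * R = S * R / N := by ring
    have h3 : S * R / N < η := by
      rw [div_lt_iff₀ hη0] at hN
      rw [div_lt_iff₀ hN0']
      linarith
    linarith
  have hpow : (1 - t) ^ N = Real.exp (-S) := by
    rw [h1t, ← Real.exp_nat_mul]
    congr 1
    field_simp
  set a : ℝ≥0∞ := ENNReal.ofReal (((1 - t) ^ n)⁻¹) with hadef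
  have haN : a ^ N = ENNReal.ofReal e := by
    rw [hadef, ← ENNReal.ofReal_pow (by rw [h1t]; positivity)]
    congr 1
    rw [h1t, ← Real.exp_nat_mul, ← Real.exp_neg, ← Real.exp_nat_mul, he]
    congr 1
    field_simp
  have ha1 : 1 ≤ a := by
    rw [hadef, ← ENNReal.ofReal_one]
    refine ENNReal.ofReal_le_ofReal ?_
    refine one_le_inv_iff₀.2 ⟨by rw [h1t]; positivity, ?_⟩
    refine pow_le_one₀ (by rw [h1t]; positivity) (by linarith)
  have hat : a ≠ ∞ := ENNReal.ofReal_ne_top
  have hνle : μ.restrict A ≤ (1 : ℝ≥0∞) • μ := by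
    rw [one_smul]
    exact Measure.restrict_le_self
  have hcBm : MeasurableSet (closedBall p R) := isClosed_closedBall.measurableSet
  have hνR : (μ.restrict A) (closedBall p R)ᶜ = 0 := by
    rw [Measure.restrict_apply hcBm.compl]
    have : (closedBall p R)ᶜ ∩ A = ∅ := by
      ext x
      simp only [mem_inter_iff, mem_compl_iff, mem_empty_iff_false, iff_false, not_and, not_not]
      intro h1 h2
      exact h1 (hAR h2)
    rw [this, measure_empty]
  obtain ⟨ν', g1, g2, g3, g4⟩ := chain hμ ht0 ht1 ha1 hat (hstep t ht0 ht1) hu htR hR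
    ENNReal.one_ne_top hνle hνR N
  rw [one_mul, haN] at g1
  rw [hpow] at g2
  have hAfin : μ A < ∞ := (measure_mono hAR).trans_lt hμ
  have hν'u : ν' univ = μ A := by rw [g3, Measure.restrict_apply_univ]
  haveI : IsFiniteMeasure ν' := ⟨by rw [hν'u]; exact hAfin⟩
  haveI : IsFiniteMeasure (μ.restrict A) := ⟨by rw [Measure.restrict_apply_univ]; exact hAfin⟩
  haveI : IsFiniteMeasure (μ.restrict (closedBall p R)) :=
    ⟨by rw [Measure.restrict_apply_univ]; exact hμ⟩
  set B' := closedBall p (Real.exp (-S) * R) with hB'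
  have hB'sub : B' ⊆ closedBall p R := by
    refine closedBall_subset_closedBall ?_
    have : Real.exp (-S) ≤ 1 := Real.exp_le_one_iff.2 (by linarith)
    calc Real.exp (-S) * R ≤ 1 * R := by gcongr
      _ = R := one_mul R
  have hB'm : MeasurableSet B' := isClosed_closedBall.measurableSet
  -- the error term of the chain
  have k1 : (N : ℝ) * (t * R * (1 * a ^ N *
      ∫⁻ x in closedBall p R, (lipE u η x - 1) ∂μ).toReal) ≤ S * R * (e * (2 * ε)) := by
    have h1 : (1 * a ^ N * ∫⁻ x in closedBall p R, (lipE u η x - 1) ∂μ).toReal ≤ e * (2 * ε) := by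
      rw [one_mul, haN]
      have h2 : ENNReal.ofReal e * ∫⁻ x in closedBall p R, (lipE u η x - 1) ∂μ ≤
          ENNReal.ofReal (e * (2 * ε)) := by
        rw [ENNReal.ofReal_mul he0.le]
        gcongr
      exact ENNReal.toReal_le_of_le_ofReal (by positivity) h2
    have h2 : (N : ℝ) * t ≤ S := by
      calc (N : ℝ) * t ≤ N * (S / N) := by gcongr
        _ = S := by field_simp
    calc (N : ℝ) * (t * R * (1 * a ^ N *
        ∫⁻ x in closedBall p R, (lipE u η x - 1) ∂μ).toReal)
        ≤ N * (t * R * (e * (2 * ε))) := by gcongr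
      _ = (N * t) * R * (e * (2 * ε)) := by ring
      _ ≤ S * R * (e * (2 * ε)) := by gcongr
  -- ∫ d dν' ≥ 0
  have k2 : 0 ≤ ∫ x, dist x p ∂ν' := integral_nonneg fun _ => dist_nonneg
  -- ∫ u dν'
  have iu' : Integrable u ν' := integrable_of_lip g2 hu
  have k3 : ∫ x, u x ∂ν' ≤ f p * μ.real A + ∫ x, |u x - f p| ∂ν' := by
    have h1 : ∫ x, u x ∂ν' ≤ ∫ x, (f p + |u x - f p|) ∂ν' := by
      refine integral_mono iu' ((integrable_const _).add (iu'.sub (integrable_const _)).abs) ?_
      intro x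
      have := le_abs_self (u x - f p)
      simp only
      linarith
    have h2 : ∫ x, (f p + |u x - f p|) ∂ν' = ∫ x, f p ∂ν' + ∫ x, |u x - f p| ∂ν' :=
      integral_add (integrable_const _) (iu'.sub (integrable_const _)).abs
    rw [h2, integral_const, smul_eq_mul, Measure.real, hν'u] at h1
    rw [Measure.real]
    linarith
  have iuB : IntegrableOn u (closedBall p R) μ := by
    refine integrable_of_lip (p := p) (R := R) ?_ hu
    rw [Measure.restrict_apply hcBm.compl, compl_inter_self, measure_empty]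
  have hufi : IntegrableOn (fun x => |u x - f x|) (closedBall p R) μ := (iuB.sub hf).abs
  have k5 : ∫ x in closedBall p R, |u x - f x| ∂μ ≤ ε := by
    have h1 : ∫ x in closedBall p R, |u x - f x| ∂μ =
        (∫⁻ x in closedBall p R, ‖u x - f x‖ₑ ∂μ).toReal := by
      exact integral_norm_eq_lintegral_enorm (f := fun x => u x - f x) (iuB.sub hf).1
    rw [h1]
    exact ENNReal.toReal_le_of_le_ofReal hε0.le hu1
  have iuf : IntegrableOn (fun x => |u x - f p|) B' μ :=
    ((iuB.mono_set hB'sub).sub (integrableOn_const ((measure_mono hB'sub).trans_lt hμ).ne)).abs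
  have iff' : IntegrableOn (fun x => |f x - f p|) B' μ :=
    ((hf.mono_set hB'sub).sub (integrableOn_const ((measure_mono hB'sub).trans_lt hμ).ne)).abs
  have k4 : ∫ x, |u x - f p| ∂ν' ≤ e * (∫ x in B', |f x - f p| ∂μ + ε) := by
    have h1 : ∫ x, |u x - f p| ∂ν' = (∫⁻ x, ‖u x - f p‖ₑ ∂ν').toReal := by
      exact integral_norm_eq_lintegral_enorm (f := fun x => u x - f p)
        (iu'.sub (integrable_const _)).1
    have h2 : ∫⁻ x, ‖u x - f p‖ₑ ∂ν' ≤ ENNReal.ofReal e * ∫⁻ x in B', ‖u x - f p‖ₑ ∂μ :=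
      lintegral_le_of_le g1 g2 _
    have h3 : ∫⁻ x in B', ‖u x - f p‖ₑ ∂μ = ENNReal.ofReal (∫ x in B', |u x - f p| ∂μ) := by
      rw [ofReal_integral_eq_lintegral_ofReal iuf (ae_of_all _ fun _ => abs_nonneg _)]
      refine lintegral_congr fun x => ?_
      rw [Real.enorm_eq_ofReal_abs]
    have h4 : ∫ x in B', |u x - f p| ∂μ ≤ ∫ x in B', |f x - f p| ∂μ + ε := by
      have h5 : ∫ x in B', |u x - f p| ∂μ ≤ ∫ x in B', (|f x - f p| + |u x - f x|) ∂μ := by
        refine integral_mono iuf (iff'.add (hufi.mono_set hB'sub)) fun x => ?_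
        have := abs_add_le (f x - f p) (u x - f x)
        have e1 : (f x - f p) + (u x - f x) = u x - f p := by ring
        rw [e1] at this
        exact this
      rw [integral_add iff' (hufi.mono_set hB'sub)] at h5
      have h6 : ∫ x in B', |u x - f x| ∂μ ≤ ∫ x in closedBall p R, |u x - f x| ∂μ :=
        setIntegral_mono_set hufi (ae_of_all _ fun _ => abs_nonneg _)
          (HasSubset.Subset.eventuallyLE hB'sub)
      linarith
    rw [h1]
    refine ENNReal.toReal_le_of_le_ofReal ?_ (h2.trans ?_)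
    · have : 0 ≤ ∫ x in B', |f x - f p| ∂μ := integral_nonneg fun _ => abs_nonneg _
      positivity
    · rw [h3, ← ENNReal.ofReal_mul he0.le]
      exact ENNReal.ofReal_le_ofReal (mul_le_mul_of_nonneg_left h4 he0.le)
  -- ∫_A f
  have k6 : ∫ x in A, f x ∂μ ≤ ∫ x in A, u x ∂μ + ε := by
    have h1 : ∫ x in A, f x ∂μ ≤ ∫ x in A, (u x + |u x - f x|) ∂μ := by
      refine integral_mono (hf.mono_set hAR) ((iuB.mono_set hAR).add (hufi.mono_set hAR)) ?_
      intro x
      have := neg_abs_le (u x - f x)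
      simp only
      linarith
    rw [integral_add (iuB.mono_set hAR) (hufi.mono_set hAR)] at h1
    have h6 : ∫ x in A, |u x - f x| ∂μ ≤ ∫ x in closedBall p R, |u x - f x| ∂μ :=
      setIntegral_mono_set hufi (ae_of_all _ fun _ => abs_nonneg _)
        (HasSubset.Subset.eventuallyLE hAR)
    linarith
  have k7 : e * (∫ x in B', |f x - f p| ∂μ + ε) = e * ∫ x in B', |f x - f p| ∂μ + e * ε := by
    ring
  linarith

/-- Pointwise form at a Lebesgue point. -/
theorem point_le {μ : Measure M} {p : M} {R : ℝ} {n : ℕ} (hR : 0 ≤ R)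
    (hμ : μ (closedBall p R) < ∞)
    (hstep : ∀ t : ℝ, 0 < t → t < 1 → Step μ p t (ENNReal.ofReal (((1 - t) ^ n)⁻¹)))
    {f : M → ℝ} (hf : IntegrableOn f (closedBall p R) μ) (hA : Appr μ p R f)
    (hp : Tendsto (fun S : ℝ => Real.exp (n * S) *
      ∫ x in closedBall p (Real.exp (-S) * R), |f x - f p| ∂μ) atTop (𝓝 0)) :
    ∀ᵐ x ∂(μ.restrict (closedBall p R)), f x ≤ f p + dist x p := by
  haveI : IsFiniteMeasure (μ.restrict (closedBall p R)) :=
    ⟨by rw [Measure.restrict_apply_univ]; exact hμ⟩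
  have hcBm : MeasurableSet (closedBall p R) := isClosed_closedBall.measurableSet
  have id : Integrable (fun x => dist x p) (μ.restrict (closedBall p R)) := by
    refine integrable_of_lip (p := p) (R := R) (L := 1) ?_ (LipschitzWith.dist_left p)
    rw [Measure.restrict_apply hcBm.compl, compl_inter_self, measure_empty]
  refine ae_le_of_forall_setIntegral_le hf ((integrable_const _).add id) fun s hs _ => ?_
  rw [Measure.restrict_restrict hs]
  set A := s ∩ closedBall p R with hAdef
  have hAm : MeasurableSet A := hs.inter hcBm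
  have hAR : A ⊆ closedBall p R := inter_subset_right
  have hAfin : μ A < ∞ := (measure_mono hAR).trans_lt hμ
  have idA : Integrable (fun x => dist x p) (μ.restrict A) :=
    id.mono_measure (Measure.restrict_mono hAR le_rfl)
  have e1 : ∫ x in A, (f p + dist x p) ∂μ = f p * μ.real A + ∫ x in A, dist x p ∂μ := by
    haveI : IsFiniteMeasure (μ.restrict A) := ⟨by rw [Measure.restrict_apply_univ]; exact hAfin⟩
    rw [integral_add (integrable_const _) idA, setIntegral_const, smul_eq_mul, mul_comm]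
  rw [e1]
  have h1 : ∀ᶠ S : ℝ in atTop, ∫ x in A, f x ∂μ ≤ (f p * μ.real A + ∫ x in A, dist x p ∂μ) +
      Real.exp (n * S) * ∫ x in closedBall p (Real.exp (-S) * R), |f x - f p| ∂μ := by
    filter_upwards [eventually_gt_atTop (0 : ℝ)] with S hS
    exact stepC hR hS hμ hstep hf hA hAm hAR
  have h2 := (tendsto_const_nhds (x := f p * μ.real A + ∫ x in A, dist x p ∂μ)).add hp
  rw [add_zero] at h2
  exact ge_of_tendsto h2 h1

/-! ### The measure `mV` -/

section mV

variable {m : Measure M} {K : ℝ} {p : M}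

omit [SecondCountableTopology M] in
theorem VV_measurable : Measurable fun x : M => ENNReal.ofReal (VV K p x) := by
  unfold VV
  refine ENNReal.measurable_ofReal.comp (Continuous.measurable ?_)
  fun_prop

omit [SecondCountableTopology M] in
theorem mV_restrict_le (R : ℝ) : (mV m K p).restrict (closedBall p R) ≤
    ENNReal.ofReal (Real.exp (|K| * R ^ 2 / 6)) • m.restrict (closedBall p R) := by
  have hcBm : MeasurableSet (closedBall p R) := isClosed_closedBall.measurableSet
  refine Measure.le_iff.2 fun s hs => ?_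
  rw [Measure.restrict_apply hs, mV, withDensity_apply _ (hs.inter hcBm), Measure.smul_apply,
    Measure.restrict_apply hs, smul_eq_mul, ← setLIntegral_const]
  refine setLIntegral_mono' (hs.inter hcBm) fun x hx => ?_
  refine ENNReal.ofReal_le_ofReal (Real.exp_le_exp.2 ?_)
  have h1 : dist x p ≤ R := mem_closedBall.1 hx.2
  have h2 : dist x p ^ 2 ≤ R ^ 2 := pow_le_pow_left₀ dist_nonneg h1 2
  have h3 : K * dist x p ^ 2 ≤ |K| * R ^ 2 := by
    calc K * dist x p ^ 2 ≤ |K| * dist x p ^ 2 :=
          mul_le_mul_of_nonneg_right (le_abs_self K) (by positivity)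
      _ ≤ |K| * R ^ 2 := mul_le_mul_of_nonneg_left h2 (abs_nonneg K)
  linarith

omit [SecondCountableTopology M] in
theorem lintegral_mV_le (R : ℝ) (φ : M → ℝ≥0∞) : ∫⁻ x in closedBall p R, φ x ∂(mV m K p) ≤
    ENNReal.ofReal (Real.exp (|K| * R ^ 2 / 6)) * ∫⁻ x in closedBall p R, φ x ∂m := by
  refine (lintegral_mono' (mV_restrict_le R) le_rfl).trans (le_of_eq ?_)
  rw [lintegral_smul_measure, smul_eq_mul]

omit [SecondCountableTopology M] in
theorem mV_closedBall_lt_top (hfin : ∀ (x : M) (r : ℝ), m (ball x r) < ∞) (R : ℝ) :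
    mV m K p (closedBall p R) < ∞ := by
  have h1 := mV_restrict_le (m := m) (K := K) (p := p) R univ
  rw [Measure.restrict_apply_univ, Measure.smul_apply, Measure.restrict_apply_univ,
    smul_eq_mul] at h1
  refine h1.trans_lt (ENNReal.mul_lt_top ENNReal.ofReal_lt_top ?_)
  exact (measure_mono (closedBall_subset_ball (by linarith : R < R + 1))).trans_lt (hfin p _)

omit [SecondCountableTopology M] in
theorem ac_mV : m ≪ mV m K p := by
  refine withDensity_absolutelyContinuous' VV_measurable.aemeasurable (ae_of_all _ fun x => ?_)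
  rw [Ne, ENNReal.ofReal_eq_zero, not_le]
  exact Real.exp_pos _

theorem step_of_OS {n : ℕ} (h : OS m n K) (p : M) (t : ℝ) (ht0 : 0 < t) (ht1 : t < 1) :
    Step (mV m K p) p t (ENNReal.ofReal (((1 - t) ^ n)⁻¹)) := by
  intro ν c R hc hν hνR
  lift c to ℝ≥0 using hc
  obtain ⟨π, h1, h2, h3⟩ := h p t ht0 ht1 ν c R hν hνR
  refine ⟨π, h1, h2, h3.trans (le_of_eq ?_)⟩
  have e : ((c * Real.toNNReal (((1 - t) ^ n)⁻¹) : ℝ≥0) : ℝ≥0∞) =
      (c : ℝ≥0∞) * ENNReal.ofReal (((1 - t) ^ n)⁻¹) := by
    rw [ENNReal.coe_mul]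
    rfl
  rw [← e]
  rfl

end mV

/-- functions with `|Df| ≤ 1` are approximable -/
theorem appr_of {m : Measure M} {K : ℝ} {p : M} {R : ℝ}
    (hfin : ∀ (x : M) (r : ℝ), m (ball x r) < ∞) {f : M →ₘ[m] ℝ} (hf : f ∈ (sob m).W)
    (h1 : slope f ≤ 1) : Appr (mV m K p) p R f := by
  intro ε hε
  have hW := mem_sob_iff.1 hf
  have hG1 : ∀ᵐ x ∂m, Met.mslope m f x ≤ 1 := by
    have h2 : ∀ᵐ x ∂m, slope f x ≤ (1 : M →ₘ[m] ℝ) x := AEEqFun.coeFn_le.2 h1
    filter_upwards [h2, slope_ae hf, AEEqFun.coeFn_one (α := M) (μ := m) (β := ℝ)] with x a b c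
    rw [← b]
    refine a.trans ?_
    rw [c]
    rfl
  have hcB : m (closedBall p R) < ∞ :=
    (measure_mono (closedBall_subset_ball (by linarith : R < R + 1))).trans_lt (hfin p _)
  set C : ℝ≥0∞ := ENNReal.ofReal (Real.exp (|K| * R ^ 2 / 6)) with hC
  set κ : ℝ≥0∞ := (m (closedBall p R)) ^ (1 / 2 : ℝ) with hκ
  have hκt : κ ≠ ∞ := ENNReal.rpow_ne_top_of_nonneg (by norm_num) hcB.ne
  have hCt : C ≠ ∞ := ENNReal.ofReal_ne_top
  have hCκ : C * κ + 1 ≠ ∞ := ENNReal.add_ne_top.2 ⟨ENNReal.mul_ne_top hCt hκt, ENNReal.one_ne_top⟩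
  set δ : ℝ≥0∞ := min ε 1 / (C * κ + 1) with hδ
  have hδ0 : δ ≠ 0 := by
    rw [hδ]
    refine (ENNReal.div_pos ?_ hCκ).ne'
    exact (lt_min (pos_iff_ne_zero.2 hε) one_pos).ne'
  have hδε : C * κ * δ ≤ ε := by
    calc C * κ * δ ≤ (C * κ + 1) * δ := by gcongr; exact le_self_add
      _ ≤ min ε 1 := by
          rw [hδ]
          exact ENNReal.mul_div_le
      _ ≤ ε := min_le_left _ _
  obtain ⟨u, g, ⟨⟨L, hL⟩, hu2, hg2, hug⟩, h3, h4⟩ :=
    (Met.rSlope_iff_eps.1 hW.rSlope).2.2 δ hδ0
  have key : ∀ φ : M → ℝ, AEStronglyMeasurable φ m → eLpNorm φ 2 m ≤ δ →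
      ∫⁻ x in closedBall p R, ‖φ x‖ₑ ∂(mV m K p) ≤ ε := by
    intro φ hφ hφδ
    have e1 : ∫⁻ x in closedBall p R, ‖φ x‖ₑ ∂m = eLpNorm φ 1 (m.restrict (closedBall p R)) := by
      rw [eLpNorm_one_eq_lintegral_enorm]
    have e2 := eLpNorm_le_eLpNorm_mul_rpow_measure_univ (μ := m.restrict (closedBall p R))
      (p := 1) (q := 2) (f := φ) (by norm_num) hφ.restrict
    have e3 : eLpNorm φ 2 (m.restrict (closedBall p R)) ≤ eLpNorm φ 2 m :=
      eLpNorm_mono_measure φ Measure.restrict_le_self
    rw [Measure.restrict_apply_univ] at e2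
    have e4 : (1 / (1 : ℝ≥0∞).toReal - 1 / (2 : ℝ≥0∞).toReal) = (1 / 2 : ℝ) := by norm_num
    rw [e4] at e2
    calc ∫⁻ x in closedBall p R, ‖φ x‖ₑ ∂(mV m K p)
        ≤ C * ∫⁻ x in closedBall p R, ‖φ x‖ₑ ∂m := lintegral_mV_le R _
      _ ≤ C * (δ * κ) := by
          gcongr
          rw [e1]
          refine e2.trans ?_
          rw [← hκ]
          gcongr
          exact e3.trans hφδ
      _ = C * κ * δ := by ring
      _ ≤ ε := hδε
  refine ⟨u, L, hL, ?_, ?_⟩
  · exact key (u - f) (hu2.1.sub (AEEqFun.aestronglyMeasurable f)) h3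
  · refine le_trans ?_ (key (g - Met.mslope m f) (hg2.1.sub hW.memLp_mslope.1) h4)
    refine lintegral_mono_ae ?_
    have hac : (mV m K p).restrict (closedBall p R) ≪ m :=
      (Measure.restrict_le_self.absolutelyContinuous).trans (withDensity_absolutelyContinuous _ _)
    have h5 : ∀ᵐ x ∂m, lipAt u x - 1 ≤ ‖(g - Met.mslope m f) x‖ₑ := by
      filter_upwards [hug, hG1] with x a b
      rw [Pi.sub_apply, Real.enorm_eq_ofReal_abs]
      calc lipAt u x - 1 ≤ ENNReal.ofReal (g x) - ENNReal.ofReal 1 := by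
            rw [ENNReal.ofReal_one]
            exact tsub_le_tsub_right a.2 1
        _ = ENNReal.ofReal (g x - 1) := (ENNReal.ofReal_sub _ zero_le_one).symm
        _ ≤ ENNReal.ofReal |g x - Met.mslope m f x| := by
            refine ENNReal.ofReal_le_ofReal ((le_abs_self _).trans' ?_)
            linarith
    exact hac.ae_le h5

/-- The Sobolev-to-Lipschitz property. -/
theorem s2l_of_OS {m : Measure M} {n : ℕ} {K : ℝ} (hG : RG.GeoN m n) (hOS : OS m n K) :
    RG.S2L m := by
  intro f hf h1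
  have hfin := hG.fin
  have : SigmaFinite m := sigmaFinite_of_ball hfin
  have := hG.full
  have := hG.geo.dbl
  have : IsLocallyFiniteMeasure m := ⟨fun x => ⟨ball x 1, ball_mem_nhds x one_pos, hfin x 1⟩⟩
  have hf2 : MemLp f 2 m := (mem_sob_iff.1 hf).memLp
  have hvol : ∀ (x₀ : M) (R₀ : ℝ), ∃ C : ℝ, ∀ y ∈ ball x₀ R₀, ∀ s : ℝ,
      0 < s → s ≤ R₀ → m (ball y s) ≤ ENNReal.ofReal (C * s ^ n) := by
    intro x₀ R₀
    obtain ⟨c, hc, C, hC⟩ := hG.geo.vol x₀ R₀
    exact ⟨C, fun y hy s hs hs' => (hC y hy s hs hs').2⟩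
  have hleb := RL4.leb hvol hfin hf2
  refine RL4.exists_lip ?_
  filter_upwards [hleb] with p hp
  have h3 : ∀ N : ℕ, ∀ᵐ x ∂m, x ∈ closedBall p ((N : ℝ) + 1) → |f x - f p| ≤ dist p x := by
    intro N
    set R : ℝ := (N : ℝ) + 1 with hR
    have hR0 : 0 < R := by positivity
    have hcBm : MeasurableSet (closedBall p R) := isClosed_closedBall.measurableSet
    have hμ : mV m K p (closedBall p R) < ∞ := mV_closedBall_lt_top hfin R
    have hcB : m (closedBall p R) < ∞ :=
      (measure_mono (closedBall_subset_ball (by linarith : R < R + 1))).trans_lt (hfin p _)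
    have hac : (mV m K p).restrict (closedBall p R) ≪ m.restrict (closedBall p R) :=
      (mV_restrict_le R).absolutelyContinuous.trans (Measure.smul_absolutelyContinuous)
    have hfi : IntegrableOn f (closedBall p R) m := by
      have : IsFiniteMeasure (m.restrict (closedBall p R)) :=
        ⟨by rw [Measure.restrict_apply_univ]; exact hcB⟩
      exact (hf2.restrict _).integrable (by norm_num)
    have hfμ : IntegrableOn f (closedBall p R) (mV m K p) := by
      refine ⟨hfi.1.mono_ac hac, ?_⟩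
      have h4 := lintegral_mV_le (m := m) (K := K) (p := p) R (fun x => ‖f x‖ₑ)
      exact h4.trans_lt (ENNReal.mul_lt_top ENNReal.ofReal_lt_top hfi.2)
    have hap : Appr (mV m K p) p R f := appr_of hfin hf h1
    -- the limit at the Lebesgue point
    have hlim : Tendsto (fun S : ℝ => Real.exp (n * S) *
        ∫ x in closedBall p (Real.exp (-S) * R), |f x - f p| ∂(mV m K p)) atTop (𝓝 0) := by
      set C : ℝ≥0∞ := ENNReal.ofReal (Real.exp (|K| * R ^ 2 / 6)) with hC
      have hρ : Tendsto (fun S : ℝ => Real.exp (-S) * R) atTop (𝓝[>] 0) := by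
        rw [tendsto_nhdsWithin_iff]
        refine ⟨?_, Eventually.of_forall fun S => by
          have : 0 < Real.exp (-S) * R := by positivity
          exact this⟩
        have := (Real.tendsto_exp_neg_atTop_nhds_zero).mul_const R
        simpa using this
      have h5 : Tendsto (fun S : ℝ => ENNReal.ofReal (R ^ n) * C *
          (ENNReal.ofReal ((Real.exp (-S) * R) ^ (-(n : ℝ))) *
          ∫⁻ x in closedBall p (Real.exp (-S) * R), ENNReal.ofReal |f x - f p| ∂m)) atTop
          (𝓝 0) := by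
        have h6 := ENNReal.Tendsto.const_mul (a := ENNReal.ofReal (R ^ n) * C) (hp.comp hρ)
          (Or.inr (ENNReal.mul_ne_top ENNReal.ofReal_ne_top ENNReal.ofReal_ne_top))
        rw [mul_zero] at h6
        exact h6
      have h7 : Tendsto (fun S : ℝ => (ENNReal.ofReal (R ^ n) * C *
          (ENNReal.ofReal ((Real.exp (-S) * R) ^ (-(n : ℝ))) *
          ∫⁻ x in closedBall p (Real.exp (-S) * R), ENNReal.ofReal |f x - f p| ∂m)).toReal) atTop
          (𝓝 0) := by
        have := (ENNReal.tendsto_toReal ENNReal.zero_ne_top).comp h5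
        rw [ENNReal.toReal_zero] at this
        exact this
      refine squeeze_zero' (Eventually.of_forall fun S => ?_) ?_ h7
      · have : 0 ≤ ∫ x in closedBall p (Real.exp (-S) * R), |f x - f p| ∂(mV m K p) :=
          integral_nonneg fun _ => abs_nonneg _
        positivity
      · have h5f : ∀ᶠ S : ℝ in atTop, (ENNReal.ofReal (R ^ n) * C *
          (ENNReal.ofReal ((Real.exp (-S) * R) ^ (-(n : ℝ))) *
          ∫⁻ x in closedBall p (Real.exp (-S) * R), ENNReal.ofReal |f x - f p| ∂m)) < 1 :=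
          h5.eventually (gt_mem_nhds one_pos)
        filter_upwards [eventually_gt_atTop (0 : ℝ), h5f] with S hS hS5
        set r := Real.exp (-S) * R with hr
        have hr0 : 0 < r := by positivity
        have hrR : r ≤ R := by
          have : Real.exp (-S) ≤ 1 := Real.exp_le_one_iff.2 (by linarith)
          calc Real.exp (-S) * R ≤ 1 * R := by gcongr
            _ = R := one_mul R
        have hsub : closedBall p r ⊆ closedBall p R := closedBall_subset_closedBall hrR
        have hfin1 : mV m K p (closedBall p r) ≠ ∞ := ((measure_mono hsub).trans_lt hμ).ne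
        have hi : IntegrableOn (fun x => |f x - f p|) (closedBall p r) (mV m K p) :=
          ((hfμ.mono_set hsub).sub (integrableOn_const hfin1)).abs
        have e1 : ∫ x in closedBall p r, |f x - f p| ∂(mV m K p) =
            (∫⁻ x in closedBall p r, ENNReal.ofReal |f x - f p| ∂(mV m K p)).toReal :=
          integral_eq_lintegral_of_nonneg_ae (ae_of_all _ fun _ => abs_nonneg _) hi.1
        have e2 : ∫⁻ x in closedBall p r, ENNReal.ofReal |f x - f p| ∂(mV m K p) ≤
            C * ∫⁻ x in closedBall p r, ENNReal.ofReal |f x - f p| ∂m := by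
          have h8 := lintegral_mV_le (m := m) (K := K) (p := p) r
            (fun x => ENNReal.ofReal |f x - f p|)
          have h9 : ENNReal.ofReal (Real.exp (|K| * r ^ 2 / 6)) ≤ C := by
            rw [hC]
            gcongr
          exact h8.trans (mul_le_mul_left h9 _)
        have e3 : Real.exp (n * S) = R ^ n * r ^ (-(n : ℝ)) := by
          rw [hr, Real.mul_rpow (Real.exp_pos _).le hR0.le, ← Real.exp_mul]
          have e4 : R ^ n * (Real.exp (-S * -(n : ℝ)) * R ^ (-(n : ℝ))) =
              Real.exp (-S * -(n : ℝ)) * (R ^ n * R ^ (-(n : ℝ))) := by ring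
          have e5 : R ^ n * R ^ (-(n : ℝ)) = 1 := by
            rw [← Real.rpow_natCast R n, ← Real.rpow_add hR0]
            simp
          rw [e4, e5, mul_one]
          congr 1
          ring
        have e6 : Real.exp (n * S) = (ENNReal.ofReal (Real.exp (n * S))).toReal :=
          (ENNReal.toReal_ofReal (Real.exp_pos _).le).symm
        rw [e1, e6, ← ENNReal.toReal_mul]
        refine ENNReal.toReal_mono (hS5.trans ENNReal.one_lt_top).ne ?_
        rw [e3, ENNReal.ofReal_mul (by positivity)]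
        calc ENNReal.ofReal (R ^ n) * ENNReal.ofReal (r ^ (-(n : ℝ))) *
            ∫⁻ x in closedBall p r, ENNReal.ofReal |f x - f p| ∂(mV m K p)
            ≤ ENNReal.ofReal (R ^ n) * ENNReal.ofReal (r ^ (-(n : ℝ))) *
              (C * ∫⁻ x in closedBall p r, ENNReal.ofReal |f x - f p| ∂m) := by gcongr
          _ = _ := by ring
    have hstep := step_of_OS hOS p
    have g1 := point_le hR0.le hμ hstep hfμ hap hlim
    have g2 := point_le (f := fun x => -f x) hR0.le hμ hstep hfμ.neg hap.neg (by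
      refine hlim.congr fun S => ?_
      congr 1
      refine integral_congr_ae (ae_of_all _ fun x => ?_)
      have : -f x - -f p = -(f x - f p) := by ring
      simp only
      rw [this, abs_neg])
    have g3 : ∀ᵐ x ∂(m.restrict (closedBall p R)), |f x - f p| ≤ dist p x := by
      have hac2 : m.restrict (closedBall p R) ≪ (mV m K p).restrict (closedBall p R) :=
        Measure.AbsolutelyContinuous.restrict ac_mV _
      filter_upwards [hac2.ae_le g1, hac2.ae_le g2] with x a b
      rw [dist_comm p x, abs_le]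
      constructor <;> linarith
    exact (ae_restrict_iff' hcBm).1 g3
  filter_upwards [ae_all_iff.2 h3] with x hx
  obtain ⟨N, hN⟩ := exists_nat_gt (dist x p)
  exact hx N (mem_closedBall.2 (by linarith))

/-- **Block (M7)** of stage 3. -/
theorem blk_S2l : CD.Blk_S2l.{u} := by
  intro M _ _ _ _ _ m n K _ hG hOS
  exact s2l_of_OS hG hOS

end Vale.Agent.P233.H790.SD
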