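import Vale.Agent.P233.H790.Sub
import Vale.Agent.P233.Bd3.B6

/-! P233, block A5iii: the Hopf-Lax upper bound at level `ε`. -/

set_option linter.all false

open MeasureTheory Filter Topology Set
open scoped ENNReal NNReal InnerProductSpace

namespace Vale.Agent.P233.H790

section avg

variable {M : Type*} [MetricSpace M] [MeasurableSpace M] [BorelSpace M] {m : Measure M}

/-- normalized indicators of small balls -/
theorem exists_avg [m.IsOpenPosMeasure] (hfin : ∀ (x : M) (r : ℝ), m (Metric.ball x r) < ∞)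
    (x : M) : ∃ g : ℕ → M →ₘ[m] ℝ, (∀ n, 0 ≤ g n) ∧ (∀ n, MemLp (g n) 1 m) ∧
      (∀ n, MemLp (g n) 2 m) ∧ (∀ n, I (g n) = 1) ∧
      ∀ (f : M →ₘ[m] ℝ) (F : M → ℝ), MemLp f 2 m → f =ᵐ[m] F → ContinuousAt F x →
        Tendsto (fun n => I (f * g n)) atTop (𝓝 (F x)) := by
  set B : ℕ → Set M := fun n => Metric.ball x ((n : ℝ) + 1)⁻¹ with hB
  have hBm : ∀ n, MeasurableSet (B n) := fun n => Metric.isOpen_ball.measurableSet
  have hv0 : ∀ n, 0 < m (B n) := fun n => Metric.measure_ball_pos m x (by positivity)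
  have hvt : ∀ n, m (B n) ≠ ∞ := fun n => (hfin x _).ne
  set v : ℕ → ℝ := fun n => (m (B n)).toReal with hv
  have hv1 : ∀ n, 0 < v n := fun n => ENNReal.toReal_pos (hv0 n).ne' (hvt n)
  set i : ℕ → M → ℝ := fun n => (B n).indicator fun _ => (v n)⁻¹ with hi
  have him : ∀ n, AEStronglyMeasurable (i n) m := fun n =>
    (measurable_const.indicator (hBm n)).aestronglyMeasurable
  have hL : ∀ n (p : ℝ≥0∞), MemLp (i n) p m := fun n p =>
    memLp_indicator_const p (hBm n) _ (Or.inr (hvt n))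
  set g : ℕ → M →ₘ[m] ℝ := fun n => AEEqFun.mk (i n) (him n) with hg
  have hgae : ∀ n, ∀ᵐ y ∂m, g n y = i n y := fun n => AEEqFun.coeFn_mk _ _
  have hg0 : ∀ n, 0 ≤ g n := fun n => by
    rw [nonneg_iff_ae]
    filter_upwards [hgae n] with y hy
    rw [hy]; exact indicator_nonneg (fun _ _ => (inv_pos.2 (hv1 n)).le) y
  have hgL : ∀ n (p : ℝ≥0∞), MemLp (g n) p m := fun n p => (memLp_congr_ae (hgae n)).2 (hL n p)
  have hgI : ∀ n, I (g n) = 1 := fun n => by
    unfold I
    rw [integral_congr_ae (hgae n)]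
    simp only [hi]
    rw [integral_indicator_const _ (hBm n)]
    show (m (B n)).toReal • (v n)⁻¹ = 1
    rw [smul_eq_mul]
    exact mul_inv_cancel₀ (hv1 n).ne'
  refine ⟨g, hg0, fun n => hgL n 1, fun n => hgL n 2, hgI, ?_⟩
  intro f F hf hfF hF
  rw [Metric.tendsto_atTop]
  intro ε hε
  obtain ⟨δ, hδ, hball⟩ := Metric.continuousAt_iff.1 hF (ε / 2) (by positivity)
  obtain ⟨N, hN⟩ := exists_nat_gt δ⁻¹
  refine ⟨N, fun n hn => ?_⟩
  have hn1 : ((n : ℝ) + 1)⁻¹ < δ := by
    rw [inv_lt_comm₀ (by positivity) hδ]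
    have : (N : ℝ) ≤ n := by exact_mod_cast hn
    linarith
  have e1 : I (f * g n) - F x = ∫ y, ((f * g n) y - F x * g n y) ∂m := by
    rw [integral_sub (int_of_mem (mem_mul_22 hf (hgL n 2))) ((int_of_mem (hgL n 1)).const_mul _),
      integral_const_mul]
    have : ∫ y, g n y ∂m = 1 := hgI n
    rw [this, mul_one]; rfl
  rw [Real.dist_eq, e1, ← Real.norm_eq_abs]
  refine lt_of_le_of_lt (norm_integral_le_integral_norm _) ?_
  have h2 : ∫ y, ‖(f * g n) y - F x * g n y‖ ∂m ≤ ∫ y, ε / 2 * g n y ∂m := by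
    refine integral_mono_ae ((int_of_mem (mem_mul_22 hf (hgL n 2))).sub
      ((int_of_mem (hgL n 1)).const_mul _)).norm ((int_of_mem (hgL n 1)).const_mul _) ?_
    filter_upwards [mul_ae f (g n), hgae n, hfF] with y h1 h2 h3
    rw [h1, h2, h3, ← sub_mul, Real.norm_eq_abs, abs_mul]
    by_cases hy : y ∈ B n
    · simp only [hi, indicator_of_mem hy]
      rw [abs_of_pos (inv_pos.2 (hv1 n))]
      have h4 : dist y x < δ := lt_trans (Metric.mem_ball.1 hy) hn1
      have h5 := (hball h4).le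
      rw [Real.dist_eq] at h5
      have := (inv_pos.2 (hv1 n)).le
      gcongr
    · simp [hi, indicator_of_notMem hy]
  refine lt_of_le_of_lt h2 ?_
  rw [integral_const_mul]
  have : ∫ y, g n y ∂m = 1 := hgI n
  rw [this]; linarith

end avg

section

variable {M : Type*} [MeasurableSpace M] {m : Measure M} {C : Calc m}
variable {a b L c : ℝ} {u D : ℝ → M →ₘ[m] ℝ}

theorem HJData.hasDeriv_I (hd : HJData C a b L c u D) (hC : IsDir C) {G : M →ₘ[m] ℝ}
    (hG2 : MemLp G 2 m) {t : ℝ} (ht : t ∈ Icc a b) :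
    HasDerivWithinAt (fun s => I (u s * G)) (I (D t * G)) (Icc a b) t := by
  rw [hasDerivWithinAt_iff_tendsto_slope, tendsto_iff_norm_sub_tendsto_zero]
  have hut := hC.memLp _ (hd.memW t ht)
  have hDt := hd.memD t ht
  refine squeeze_zero' (Eventually.of_forall fun s => norm_nonneg _) (g := fun s =>
    √(I (((s - t)⁻¹ • (u s - u t) - D t) ^ 2)) * √(I (G ^ 2))) ?_ ?_
  · filter_upwards [self_mem_nhdsWithin] with s hs
    have hus := hC.memLp _ (hd.memW s hs.1)
    have e : _root_.slope (fun s => I (u s * G)) t s - I (D t * G)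
        = I (((s - t)⁻¹ • (u s - u t) - D t) * G) := by
      rw [sub_mul, I_sub (mem_mul_22 (mem_smul _ (mem_sub hus hut)) hG2) (mem_mul_22 hDt hG2),
        smul_mul_assoc, I_smul, sub_mul, I_sub (mem_mul_22 hus hG2) (mem_mul_22 hut hG2)]
      rfl
    rw [e, Real.norm_eq_abs]
    exact I_abs_le (mem_sub (mem_smul _ (mem_sub hus hut)) hDt) hG2
  · have h3 := ((Real.continuous_sqrt.tendsto 0).comp (hd.deriv t ht)).mul_const (√(I (G ^ 2)))
    simpa [Function.comp_def] using h3

theorem HJData.mono_I (hd : HJData C a b L c u D) (hC : IsDir C) {G : M →ₘ[m] ℝ} (hG0 : 0 ≤ G)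
    (hG1 : MemLp G 1 m) (hG2 : MemLp G 2 m) {s t : ℝ} (hs : s ∈ Icc a b) (ht : t ∈ Icc a b)
    (hst : s ≤ t) : I (u t * G) - I (u s * G) ≤ c * I G * (t - s) := by
  have hD : ∀ r ∈ Icc a b, I (D r * G) ≤ c * I G := by
    intro r hr
    rw [← I_smul]
    refine I_mono (mem_mul_22 (hd.memD r hr) hG2) (mem_smul _ hG1) ?_
    rw [le_iff_ae]
    filter_upwards [mul_ae (D r) G, smul_ae G c, hd.ineq r hr, nonneg_iff_ae.1 hG0,
      hC.Γ_nonneg_ae (hd.memW r hr)] with x h1 h2 h3 h4 h5
    rw [h1, h2]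
    exact mul_le_mul_of_nonneg_right (by linarith) h4
  have key := Convex.image_sub_le_mul_sub_of_deriv_le (convex_Icc a b)
    (f := fun s => I (u s * G)) (fun r hr => (hd.hasDeriv_I hC hG2 hr).continuousWithinAt)
    (fun r hr => by
      rw [interior_Icc] at hr
      exact ((hd.hasDeriv_I hC hG2 ⟨hr.1.le, hr.2.le⟩).hasDerivAt
        (Icc_mem_nhds hr.1 hr.2)).differentiableAt.differentiableWithinAt)
    (C := c * I G) (fun r hr => by
      rw [interior_Icc] at hr
      rw [((hd.hasDeriv_I hC hG2 ⟨hr.1.le, hr.2.le⟩).hasDerivAt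
        (Icc_mem_nhds hr.1 hr.2)).deriv]
      exact hD r ⟨hr.1.le, hr.2.le⟩) s hs t ht hst
  exact key

end

section final

variable {M : Type*} [MetricSpace M] [MeasurableSpace M] [BorelSpace M] {m : Measure M}
variable {a b L c : ℝ} {u D : ℝ → M →ₘ[m] ℝ}

theorem HJData.pt_mono [m.IsOpenPosMeasure] (hfin : ∀ (x : M) (r : ℝ), m (Metric.ball x r) < ∞)
    (hC : IsDir (sob m)) (hd : HJData (sob m) a b L c u D) {U : ℝ → M → ℝ}
    (hU : ∀ t ∈ Icc a b, u t =ᵐ[m] U t) (hUc : ∀ t ∈ Icc a b, Continuous (U t)) {s t : ℝ}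
    (hs : s ∈ Icc a b) (ht : t ∈ Icc a b) (hst : s ≤ t) (x : M) :
    U t x - U s x ≤ c * (t - s) := by
  obtain ⟨g, h0, h1, h2, h3, h4⟩ := exists_avg (m := m) hfin x
  have l1 := h4 (u t) (U t) (hC.memLp _ (hd.memW t ht)) (hU t ht) (hUc t ht).continuousAt
  have l2 := h4 (u s) (U s) (hC.memLp _ (hd.memW s hs)) (hU s hs) (hUc s hs).continuousAt
  refine le_of_tendsto' (l1.sub l2) fun n => ?_
  have := hd.mono_I hC (h0 n) (h1 n) (h2 n) hs ht hst
  rwa [h3 n, mul_one] at this

/-- **Hopf-Lax upper bound**: if `∂_t u + |∇u|²/2 ≤ c` then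
`u_b(x) ≤ u_a(y) + d(x,y)²/(2(b-a)) + c (b-a)`. -/
theorem HJData.hopfLax [m.IsOpenPosMeasure] (hfin : ∀ (x : M) (r : ℝ), m (Metric.ball x r) < ∞)
    (hs : ∀ f ∈ (sob m).W, slope f ≤ 1 → ∃ u : M → ℝ, LipschitzWith 1 u ∧ f =ᵐ[m] u)
    (hC : IsDir (sob m)) (hd : HJData (sob m) a b L c u D) {U : ℝ → M → ℝ}
    (hU : ∀ t ∈ Icc a b, u t =ᵐ[m] U t) (hUc : ∀ t ∈ Icc a b, Continuous (U t)) (x y : M) :
    U b x ≤ U a y + dist x y ^ 2 / (2 * (b - a)) + c * (b - a) := by
  have hab := hd.hab
  have hba : 0 < b - a := by linarith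
  have key : ∀ lam : ℝ, 0 < lam → dist x y < lam * (b - a) →
      U b x ≤ U a y + (lam ^ 2 / 2 + c) * (b - a) := by
    intro lam hl hlt
    by_contra hcon
    push Not at hcon
    set κ : ℝ := lam ^ 2 / 2 + c with hκ
    set c₀ : ℝ := U a y - κ * a with hc₀
    have hη : 0 < U b x - κ * b - c₀ := by rw [hc₀]; nlinarith
    obtain ⟨χ, χ', K, h⟩ := exists_step hη
    obtain ⟨F, hF, hF1, hF2⟩ := hd.exists_int hC h hl c₀
    obtain ⟨Fr, hFr1, hFr2⟩ := exists_lip_rep hs hF (inv_pos.2 hl) hF1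
    have hFrc : Continuous Fr := (lipschitz_of_abs_sub_le (inv_pos.2 hl).le hFr1).continuous
    have hval : ∀ w : M, Fr w = ∫ t in a..b, tht χ κ c₀ t (U t w) := by
      intro w
      obtain ⟨g, g0, g1, g2, g3, g4⟩ := exists_avg (m := m) hfin w
      have l1 := g4 F Fr (hC.memLp _ hF) hFr2 hFrc.continuousAt
      refine tendsto_nhds_unique l1 ?_
      have e1 : ∀ n, I (F * g n) = ∫ t in a..b, I (TH h κ c₀ t (u t) * g n) := fun n =>
        (hF2 (g n) (g2 n)).2
      simp only [e1]
      refine intervalIntegral.tendsto_integral_filter_of_dominated_convergence (fun _ => 1)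
        (Eventually.of_forall fun n => ?_) (Eventually.of_forall fun n => ?_) (by simp) ?_
      · refine ContinuousOn.aestronglyMeasurable ?_ measurableSet_uIoc
        exact ((hF2 (g n) (g2 n)).1).mono (by rw [uIoc_of_le hab.le]; exact Ioc_subset_Icc_self)
      · filter_upwards with t ht
        rw [uIoc_of_le hab.le] at ht
        have htI : t ∈ Icc a b := Ioc_subset_Icc_self ht
        have hT2 : MemLp (TH h κ c₀ t (u t)) 2 m :=
          hC.memLp _ (TH_chain h κ c₀ hC t (hd.memW t htI)).1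
        unfold I
        refine (norm_integral_le_integral_norm _).trans ?_
        have : ∫ z, g n z ∂m = 1 := g3 n
        rw [← this]
        refine integral_mono_ae (int_of_mem (mem_mul_22 hT2 (g2 n))).norm
          (int_of_mem (g1 n)) ?_
        filter_upwards [mul_ae (TH h κ c₀ t (u t)) (g n), TH_ae h κ c₀ t (u t),
          nonneg_iff_ae.1 (g0 n)] with z a1 a2 a3
        rw [a1, a2, Real.norm_eq_abs, abs_mul, abs_of_nonneg a3]
        refine mul_le_of_le_one_left a3 ?_
        unfold tht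
        have b1 := h.nonneg (u t z - κ * t - c₀)
        have b2 := h.le_one (u t z - κ * t - c₀)
        have b3 := h.nonneg (-(κ * t) - c₀)
        have b4 := h.le_one (-(κ * t) - c₀)
        rw [abs_le]; constructor <;> linarith
      · filter_upwards with t ht
        rw [uIoc_of_le hab.le] at ht
        have htI : t ∈ Icc a b := Ioc_subset_Icc_self ht
        have hT2 : MemLp (TH h κ c₀ t (u t)) 2 m :=
          hC.memLp _ (TH_chain h κ c₀ hC t (hd.memW t htI)).1
        refine g4 _ (fun z => tht χ κ c₀ t (U t z)) hT2 ?_ ?_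
        · filter_upwards [TH_ae h κ c₀ t (u t), hU t htI] with z a1 a2
          rw [a1, a2]
        · exact ((tht_cont h κ c₀ t).comp (hUc t htI)).continuousAt
    -- the values at `x` and at `y`
    have hxy : Fr x - Fr y = b - a := by
      have hcx : ∀ w : M, IntervalIntegrable (fun t => tht χ κ c₀ t (U t w)) volume a b := by
        intro w
        refine ContinuousOn.intervalIntegrable_of_Icc hab.le ?_
        have hUw : ContinuousOn (fun t => U t w) (Icc a b) := by
          have hl2 : ∀ s ∈ Icc a b, ∀ t ∈ Icc a b, |U s w - U t w| ≤ L * |s - t| := by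
            intro s hs' t ht'
            have hc2 : Continuous fun z => |U s z - U t z| := ((hUc s hs').sub (hUc t ht')).abs
            refine le_of_ae_cont (m := m) hc2 continuous_const ?_ w
            filter_upwards [hd.lipt s hs' t ht', hU s hs', hU t ht'] with z a1 a2 a3
            rwa [← a2, ← a3]
          have : LipschitzOnWith (Real.toNNReal L) (fun t => U t w) (Icc a b) := by
            refine LipschitzOnWith.of_dist_le_mul fun s hs' t ht' => ?_
            rw [Real.dist_eq, Real.dist_eq, Real.coe_toNNReal _ hd.L0]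
            exact hl2 s hs' t ht'
          exact this.continuousOn
        unfold tht
        have := h.cont
        fun_prop
      rw [hval x, hval y, ← intervalIntegral.integral_sub (hcx x) (hcx y)]
      have e2 : ∫ t in a..b, (tht χ κ c₀ t (U t x) - tht χ κ c₀ t (U t y))
          = ∫ t in a..b, (1 : ℝ) := by
        refine intervalIntegral.integral_congr fun t ht => ?_
        rw [uIcc_of_le hab.le] at ht
        have m1 := hd.pt_mono hfin hC hU hUc ht (right_mem_Icc.2 hab.le) ht.2 x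
        have m2 := hd.pt_mono hfin hC hU hUc (left_mem_Icc.2 hab.le) ht ht.1 y
        have hl2 : 0 ≤ lam ^ 2 / 2 := by positivity
        have k1 : χ (U t x - κ * t - c₀) = 1 := by
          refine h.one _ ?_
          have : c * (b - t) ≤ κ * (b - t) := by
            rw [hκ]; nlinarith [ht.2]
          linarith
        have k2 : χ (U t y - κ * t - c₀) = 0 := by
          refine h.zero _ ?_
          have : c * (t - a) ≤ κ * (t - a) := by
            rw [hκ]; nlinarith [ht.1]
          rw [hc₀]; linarith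
        show tht χ κ c₀ t (U t x) - tht χ κ c₀ t (U t y) = 1
        unfold tht
        rw [k1, k2]; ring
      rw [e2]; simp
    have h1 := (le_abs_self _).trans (hFr1 x y)
    rw [hxy, inv_mul_eq_div, le_div_iff₀ hl] at h1
    linarith
  -- `λ → d/(b-a)`
  set l0 : ℝ := dist x y / (b - a) with hl0
  have hl00 : 0 ≤ l0 := by positivity
  have hlim : Tendsto (fun lam : ℝ => U a y + (lam ^ 2 / 2 + c) * (b - a)) (𝓝[>] l0)
      (𝓝 (U a y + (l0 ^ 2 / 2 + c) * (b - a))) := by
    have hc : Continuous fun lam : ℝ => U a y + (lam ^ 2 / 2 + c) * (b - a) := by fun_prop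
    exact (hc.tendsto l0).mono_left nhdsWithin_le_nhds
  have hfin2 : U b x ≤ U a y + (l0 ^ 2 / 2 + c) * (b - a) := by
    refine ge_of_tendsto hlim ?_
    filter_upwards [self_mem_nhdsWithin] with lam hlam
    have hlam' : l0 < lam := hlam
    refine key lam (lt_of_le_of_lt hl00 hlam') ?_
    rw [hl0, div_lt_iff₀ hba] at hlam'
    exact hlam'
  have e : (l0 ^ 2 / 2 + c) * (b - a) = dist x y ^ 2 / (2 * (b - a)) + c * (b - a) := by
    rw [hl0]; field_simp
  rw [e] at hfin2
  linarith

end final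

end Vale.Agent.P233.H790
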