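import Vale.Agent.P233.H790.Len
import Vale.Agent.P233.H790.HopfLax
import Vale.Agent.P233.Gig.IfA
import Vale.Agent.P233.H66.Time2
import Vale.Agent.P233.H599.Low

/-! P233, block A5iii: the field `up` of `PA.ULim`. -/

set_option linter.all false

open MeasureTheory Filter Topology Set
open scoped ENNReal NNReal InnerProductSpace

universe v

namespace Vale.Agent.P233.H790

/-- length space -/
theorem blk_A5v : PA.Blk_A5v.{v} := fun M _ _ _ _ _ m K N h x y s t hs ht hst e he =>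
  isLen h x y s t hs ht hst e he

section

variable {M : Type*} [MeasurableSpace M] {m : Measure M} {C : Calc m}

/-- from the derivative in `W` -/
theorem HJData.of_DW (hC : IsDir C) {a b L c : ℝ} {u D : ℝ → M →ₘ[m] ℝ} (hab : a < b)
    (hL : 0 ≤ L) (hu : ∀ t ∈ Icc a b, u t ∈ C.W)
    (hlip : ∀ s ∈ Icc a b, ∀ t ∈ Icc a b, ∀ᵐ x ∂m, |u s x - u t x| ≤ L * |s - t|)
    (hD : ∀ t ∈ Icc a b, C.DW u (D t) (Icc a b) t)
    (hin : ∀ t ∈ Icc a b, ∀ᵐ x ∂m, D t x + C.Γ (u t) (u t) x / 2 ≤ c) :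
    HJData C a b L c u D where
  hab := hab
  L0 := hL
  memW := hu
  lipt := hlip
  memD t ht := hC.memLp _ (hD t ht).mem'
  deriv t ht := by
    refine squeeze_zero' (Eventually.of_forall fun s => I_sq_nonneg _) ?_ (hD t ht).lim
    filter_upwards [self_mem_nhdsWithin] with s hs
    exact hC.I_sq_le_nrm2 (hC.sub_mem (hC.smul_mem _ _ ((hD t ht).mem s hs.1)) (hD t ht).mem')
  ineq := hin
  cont t ht := by
    have h1 := (hD t ht).lim
    -- `nrm2 (u s - u t) ≤ (s-t)² (2 nrm2 (q - D) + 2 nrm2 D)`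
    have h2 : Tendsto (fun s => (s - t) ^ 2 * (2 * C.nrm2 ((s - t)⁻¹ • (u s - u t) - D t)
        + 2 * C.nrm2 (D t))) (𝓝[Icc a b \ {t}] t) (𝓝 0) := by
      have h3 : Tendsto (fun s : ℝ => (s - t) ^ 2) (𝓝[Icc a b \ {t}] t) (𝓝 0) := by
        have hc : Continuous fun s : ℝ => (s - t) ^ 2 := by fun_prop
        have h4 := hc.tendsto t
        simp only [sub_self, ne_eq, OfNat.ofNat_ne_zero, not_false_eq_true, zero_pow] at h4
        exact h4.mono_left nhdsWithin_le_nhds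
      have h5 := h3.mul ((h1.const_mul 2).add_const (2 * C.nrm2 (D t)))
      simpa using h5
    have h6 : Tendsto (fun s => C.nrm2 (u s - u t)) (𝓝[Icc a b \ {t}] t) (𝓝 0) := by
      refine squeeze_zero' ?_ ?_ h2
      · filter_upwards [self_mem_nhdsWithin] with s hs
        exact hC.nrm2_nonneg ((hD t ht).mem s hs.1)
      · filter_upwards [self_mem_nhdsWithin] with s hs
        have hst : s - t ≠ 0 := sub_ne_zero.2 hs.2
        have hqW : (s - t)⁻¹ • (u s - u t) ∈ C.W := hC.smul_mem _ _ ((hD t ht).mem s hs.1)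
        have hq : C.nrm2 ((s - t)⁻¹ • (u s - u t)) ≤
            2 * C.nrm2 ((s - t)⁻¹ • (u s - u t) - D t) + 2 * C.nrm2 (D t) := by
          have h7 := hC.nrm2_add_le (hC.sub_mem hqW (hD t ht).mem') (hD t ht).mem'
          rwa [sub_add_cancel] at h7
        have h8 : C.nrm2 (u s - u t) = (s - t) ^ 2 * C.nrm2 ((s - t)⁻¹ • (u s - u t)) := by
          have h9 : u s - u t = (s - t) • ((s - t)⁻¹ • (u s - u t)) := by
            rw [smul_smul, mul_inv_cancel₀ hst, one_smul]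
          conv_lhs => rw [h9]
          unfold Calc.nrm2
          rw [hC.E_smul _ hqW]
          have h10 : I (((s - t) • ((s - t)⁻¹ • (u s - u t))) ^ 2)
              = (s - t) ^ 2 * I (((s - t)⁻¹ • (u s - u t)) ^ 2) := by
            rw [← I_smul]
            congr 1
            rw [smul_pow]
          rw [h10]; ring
        rw [h8]
        exact mul_le_mul_of_nonneg_left hq (sq_nonneg _)
    have h11 : (fun s => C.nrm2 (u s - u t)) t = 0 := by
      show C.nrm2 (u t - u t) = 0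
      rw [sub_self]
      have := hC.E_smul 0 (hC.zero_mem)
      unfold Calc.nrm2
      rw [zero_smul] at this
      rw [this]
      norm_num
      exact I_zero
    have h12 : Icc a b ⊆ insert t (Icc a b \ {t}) := fun s hs => by
      by_cases hst : s = t
      · rw [hst]; exact mem_insert _ _
      · exact mem_insert_of_mem _ ⟨hs, hst⟩
    refine Tendsto.mono_left ?_ (nhdsWithin_mono t h12)
    rw [nhdsWithin_insert]
    refine Tendsto.sup ?_ h6
    rw [tendsto_pure_left]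
    intro s hs
    have h13 : C.nrm2 (u t - u t) = 0 := h11
    rw [h13]
    exact mem_of_mem_nhds hs

end

section

universe w

variable {M : Type w} [MetricSpace M] [MeasurableSpace M] [BorelSpace M]
  [SecondCountableTopology M] {m : Measure M}

/-- one-sided bound at one level `ε` with explicit constants -/
theorem up_level {K N : ℝ} (hStd : Std m K N) {p : M} {s₀ C₀ ε D η : ℝ} {D' : ℝ → ℝ}
    {u : ℝ → M →ₘ[m] ℝ} (hs₀ : 0 < s₀) (hC₀ : 0 ≤ C₀) (hε : 0 < ε) (hε1 : ε ≤ 1)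
    (hlev : PA.LevU (sob m) K N ε C₀ D D' u) (hu : ∀ t ∈ Icc (0 : ℝ) 1, u t ∈ (sob m).W)
    (hdw : ∀ t ∈ Icc (0 : ℝ) 1, ∃ v, (sob m).DW u v (Icc 0 1) t ∧
      ∀ᵐ x ∂m, v x = ε / 2 * (sob m).lap (u t) x - (sob m).Γ (u t) (u t) x / 2)
    (hini : ∀ᵐ x ∂m, u 0 x ≤ zr p s₀ C₀ 0 x + η) {s : ℝ} (hs : 0 < s) (hs1 : s ≤ 1) :
    ∀ t ∈ Icc (0 : ℝ) 1, ∀ᵐ x ∂m, u t x ≤ zr p s₀ C₀ t x
      + (η + |D| * s + C₀ / s₀ * s + ε + ε / 2 * (N / s + PA.c1 K ε C₀)) := by
  haveI := hStd.full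
  have hC : IsGamma (sob m) := H599.std_gamma hStd
  have hN := hStd.hN
  have hc1 : 0 ≤ PA.c1 K ε C₀ := by unfold PA.c1; positivity
  have hstl := hStd.rcd.sobolev_to_lipschitz
  have hz : Continuous (zr p s₀ C₀ 0) := H599.zr_continuous p s₀ C₀ 0
  -- continuous representatives
  have hex : ∀ t, ∃ Ut : M → ℝ, t ∈ Icc (0 : ℝ) 1 → Continuous Ut ∧ u t =ᵐ[m] Ut := by
    intro t
    by_cases ht : t ∈ Icc (0 : ℝ) 1
    · obtain ⟨Ut, h1, h2⟩ := exists_lip_rep hstl (hu t ht) (G := |D| + 1) (by positivity) (by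
        filter_upwards [hlev.lip t ht] with x hx
        refine hx.trans ?_
        rw [← sq_abs D]
        have := abs_nonneg D
        gcongr
        linarith)
      exact ⟨Ut, fun _ => ⟨(lipschitz_of_abs_sub_le (by positivity) h1).continuous, h2⟩⟩
    · exact ⟨0, fun h => absurd h ht⟩
  choose U hU using hex
  have h0mem : (0 : ℝ) ∈ Icc (0 : ℝ) 1 := ⟨le_rfl, zero_le_one⟩
  have hsmem : s ∈ Icc (0 : ℝ) 1 := ⟨hs.le, hs1⟩
  -- the initial bound
  have hinit : ∀ y, U 0 y ≤ zr p s₀ C₀ 0 y + η := by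
    intro y
    refine le_of_ae_cont (m := m) (hU 0 h0mem).1 (hz.add continuous_const) ?_ y
    filter_upwards [hini, (hU 0 h0mem).2] with x a1 a2
    rwa [← a2]
  have hsmall : ∀ t ∈ Icc (0 : ℝ) 1, ∀ y, U t y ≤ zr p s₀ C₀ t y + η + |D| * t + C₀ / s₀ * t := by
    intro t ht y
    have h1 : U t y ≤ U 0 y + |D| * t := by
      refine le_of_ae_cont (m := m) (hU t ht).1 ((hU 0 h0mem).1.add continuous_const) ?_ y
      filter_upwards [hlev.time 0 h0mem t ht, (hU t ht).2, (hU 0 h0mem).2] with x a1 a2 a3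
      show U t x ≤ U 0 x + |D| * t
      rw [← a2, ← a3]
      have a4 := (le_abs_self _).trans a1
      rw [sub_zero, abs_of_nonneg ht.1] at a4
      have := mul_le_mul_of_nonneg_right (le_abs_self D) ht.1
      linarith
    have h2 := hinit y
    have h3 := (zr_time p (s₀ := s₀) (C₀ := C₀) (s := 0) (t := t) (by linarith) ht.1 hC₀ y).2
    rw [zero_add, sub_zero] at h3
    linarith
  intro t ht
  rcases le_total t s with hts | hts
  · filter_upwards [(hU t ht).2] with x hx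
    rw [hx]
    have h1 := hsmall t ht x
    have h2 : |D| * t ≤ |D| * s := mul_le_mul_of_nonneg_left hts (abs_nonneg D)
    have h3 : C₀ / s₀ * t ≤ C₀ / s₀ * s := mul_le_mul_of_nonneg_left hts (by positivity)
    have h4 : 0 ≤ ε / 2 * (N / s + PA.c1 K ε C₀) := by positivity
    linarith
  rcases hts.eq_or_lt with hts' | hts'
  · subst hts'
    filter_upwards [(hU s ht).2] with x hx
    rw [hx]
    have h1 := hsmall s ht x
    have h4 : 0 ≤ ε / 2 * (N / s + PA.c1 K ε C₀) := by positivity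
    linarith
  -- the Hopf-Lax bound on `[s,t]`
  choose! v hv using hdw
  have hsub : Icc s t ⊆ Icc (0 : ℝ) 1 := fun r hr => ⟨hs.le.trans hr.1, hr.2.trans ht.2⟩
  set c : ℝ := ε / 2 * (N / s + PA.c1 K ε C₀) with hc
  have hc0 : 0 ≤ c := by positivity
  have hd : HJData (sob m) s t |D| c u v := by
    refine HJData.of_DW hC.toIsDir hts' (abs_nonneg D) (fun r hr => hu r (hsub hr)) ?_ ?_ ?_
    · intro r hr r' hr'
      filter_upwards [hlev.time r' (hsub hr') r (hsub hr)] with x hx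
      refine hx.trans ?_
      exact mul_le_mul_of_nonneg_right (le_abs_self D) (abs_nonneg _)
    · intro r hr
      exact IsDir.DW_mono (hv r (hsub hr)).1 hsub
    · intro r hr
      have hr0 : 0 < r := lt_of_lt_of_le hs hr.1
      filter_upwards [(hv r (hsub hr)).2, hlev.lap r ⟨hr0, (hsub hr).2⟩] with x a1 a2
      rw [a1]
      have a3 : N / r ≤ N / s := div_le_div_of_nonneg_left hN.le hs hr.1
      have a4 : ε / 2 * (sob m).lap (u r) x ≤ ε / 2 * (N / s + PA.c1 K ε C₀) := by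
        have : (sob m).lap (u r) x ≤ N / s + PA.c1 K ε C₀ := by linarith
        have := hε.le
        gcongr
      rw [hc]
      linarith
  have key := hd.hopfLax hStd.hfin hstl hC.toIsDir (U := U) (fun r hr => (hU r (hsub hr)).2)
    (fun r hr => (hU r (hsub hr)).1)
  filter_upwards [(hU t ht).2] with x hx
  rw [hx]
  obtain ⟨y, hy⟩ := exists_hopfLax_lt (isLen hStd) p (s₀ := s₀) (C₀ := C₀) (s := s) (t := t)
    (by linarith) hts' x hε
  have h1 := key x y
  have h2 := hsmall s hsmem y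
  have h3 : c * (t - s) ≤ c := by
    have : t - s ≤ 1 := by linarith [ht.2]
    nlinarith
  linarith

/-- **The field `up` of `PA.ULim`.** -/
theorem ulim_up {K N : ℝ} (hStd : Std m K N) {p : M} {s₀ C₀ D B : ℝ} {D' : ℝ → ℝ}
    {u : ℕ → ℝ → M →ₘ[m] ℝ} (hs₀ : 0 < s₀) (hC₀ : 0 ≤ C₀)
    (hlev : ∀ᶠ n in atTop, PA.LevU (sob m) K N (PA.en n) C₀ D D' (u n))
    (hu : ∀ᶠ n in atTop, ∀ t ∈ Icc (0 : ℝ) 1, u n t ∈ (sob m).W)
    (hdw : ∀ᶠ n in atTop, ∀ t ∈ Icc (0 : ℝ) 1, ∃ v, (sob m).DW (u n) v (Icc 0 1) t ∧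
      ∀ᵐ x ∂m, v x = PA.en n / 2 * (sob m).lap (u n t) x - (sob m).Γ (u n t) (u n t) x / 2)
    (hini : ∀ᶠ n in atTop, ∀ᵐ x ∂m, u n 0 x ≤ zr p s₀ C₀ 0 x + B * PA.en n) :
    ∃ δ : ℕ → ℝ, Tendsto δ atTop (𝓝 0) ∧ ∀ᶠ n in atTop, ∀ t ∈ Icc (0 : ℝ) 1,
      ∀ᵐ x ∂m, u n t x ≤ zr p s₀ C₀ t x + δ n := by
  have hen0 : ∀ n, 0 < PA.en n := fun n => by unfold PA.en; positivity
  have hen1 : ∀ n, PA.en n ≤ 1 := fun n => by
    unfold PA.en
    exact inv_le_one_of_one_le₀ (by linarith [Nat.cast_nonneg (α := ℝ) n])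
  have hen : Tendsto PA.en atTop (𝓝 0) := by
    have h1 := tendsto_one_div_add_atTop_nhds_zero_nat (𝕜 := ℝ)
    refine h1.congr fun n => ?_
    unfold PA.en; rw [one_div]
  have hsq : Tendsto (fun n => √(PA.en n)) atTop (𝓝 0) := by
    have := (Real.continuous_sqrt.tendsto 0).comp hen
    simpa [Function.comp_def] using this
  refine ⟨fun n => B * PA.en n + |D| * √(PA.en n) + C₀ / s₀ * √(PA.en n) + PA.en n
    + PA.en n / 2 * (N / √(PA.en n) + PA.c1 K (PA.en n) C₀), ?_, ?_⟩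
  · have e : ∀ n, PA.en n / 2 * (N / √(PA.en n) + PA.c1 K (PA.en n) C₀)
        = N / 2 * √(PA.en n) + PA.en n / 2 * ((1 + PA.en n * |K|) * |K| * C₀) := by
      intro n
      have h1 : √(PA.en n) ≠ 0 := (Real.sqrt_pos.2 (hen0 n)).ne'
      have h2 : PA.en n = √(PA.en n) * √(PA.en n) := (Real.mul_self_sqrt (hen0 n).le).symm
      have h3 : PA.en n / 2 * (N / √(PA.en n)) = N / 2 * √(PA.en n) := by
        rw [div_mul_div_comm, div_eq_iff (by positivity)]
        nth_rewrite 1 [h2]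
        ring
      rw [mul_add, h3]
      rfl
    simp only [e]
    have l1 := hen.const_mul B
    have l2 := hsq.const_mul |D|
    have l3 := hsq.const_mul (C₀ / s₀)
    have l4 := hsq.const_mul (N / 2)
    have l5 : Tendsto (fun n => PA.en n / 2 * ((1 + PA.en n * |K|) * |K| * C₀)) atTop (𝓝 0) := by
      have hc : Continuous fun e : ℝ => e / 2 * ((1 + e * |K|) * |K| * C₀) := by fun_prop
      have := (hc.tendsto 0).comp hen
      simpa [Function.comp_def] using this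
    have := (((l1.add l2).add l3).add hen).add (l4.add l5)
    simpa using this
  · filter_upwards [hlev, hu, hdw, hini] with n h1 h2 h3 h4
    exact up_level hStd hs₀ hC₀ (hen0 n) (hen1 n) h1 h2 h3 h4 (Real.sqrt_pos.2 (hen0 n))
      (Real.sqrt_le_one.2 (hen1 n))

/-- The field `up` from the facts about `Fam`. -/
theorem ulim_up_fam {K N : ℝ} (hStd : Std m K N) {P : ℝ → (M →ₘ[m] ℝ) → (M →ₘ[m] ℝ)} {p : M}
    {s₀ C₀ D : ℝ} {D' : ℝ → ℝ} {l : ℕ → M →ₘ[m] ℝ} {φ u : ℕ → ℝ → M →ₘ[m] ℝ}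
    (hs₀ : 0 < s₀) (hC₀ : 0 ≤ C₀)
    (hF : ∀ᶠ n in atTop, Fam (sob m) P (PA.en n) (cl m (zr p s₀ C₀ 0)) (l n) (φ n) (u n))
    (hlev : ∀ᶠ n in atTop, PA.LevU (sob m) K N (PA.en n) C₀ D D' (u n))
    (hdw : ∀ᶠ n in atTop, ∀ t ∈ Icc (0 : ℝ) 1, ∃ v, (sob m).DW (u n) v (Icc 0 1) t ∧
      ∀ᵐ x ∂m, v x = PA.en n / 2 * (sob m).lap (u n t) x - (sob m).Γ (u n t) (u n t) x / 2) :
    ∃ δ : ℕ → ℝ, Tendsto δ atTop (𝓝 0) ∧ ∀ᶠ n in atTop, ∀ t ∈ Icc (0 : ℝ) 1,
      ∀ᵐ x ∂m, u n t x ≤ zr p s₀ C₀ t x + δ n := by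
  have hC : IsGamma (sob m) := H599.std_gamma hStd
  have hen0 : ∀ n, 0 < PA.en n := fun n => by unfold PA.en; positivity
  have hen : Tendsto PA.en atTop (𝓝 0) := by
    have h1 := tendsto_one_div_add_atTop_nhds_zero_nat (𝕜 := ℝ)
    refine h1.congr fun n => ?_
    unfold PA.en; rw [one_div]
  have h0 : (0 : ℝ) < 0 + s₀ := by linarith
  have ha := H599.zr_memA (m := m) (p := p) (s₀ := s₀) (C₀ := C₀) (t := 0) hStd.hfin h0 hC₀
  set L : ℝ := √(2 * C₀ / s₀) + 1 with hL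
  have hLpos : 0 < L := by positivity
  have hG : ∀ᵐ x ∂m, (sob m).Γ (cl m (zr p s₀ C₀ 0)) (cl m (zr p s₀ C₀ 0)) x ≤ L ^ 2 := by
    filter_upwards [H599.zr_Γ_le (m := m) (p := p) (s₀ := s₀) (C₀ := C₀) (t := 0) hStd.hfin h0
      hC₀] with x hx
    refine hx.trans ((H599.Gz_le hs₀ le_rfl hC₀ x).trans ?_)
    have h1 : 2 * C₀ / s₀ = √(2 * C₀ / s₀) ^ 2 := (Real.sq_sqrt (by positivity)).symm
    rw [h1, hL]
    have := Real.sqrt_nonneg (2 * C₀ / s₀)
    gcongr
    linarith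
  have hsmall : ∀ᶠ n in atTop, 2 * PA.en n ^ 2 * |K| ≤ 1 := by
    have hc : Continuous fun e : ℝ => 2 * e ^ 2 * |K| := by fun_prop
    have h1 := (hc.tendsto 0).comp hen
    simp only [Function.comp_def, ne_eq, OfNat.ofNat_ne_zero, not_false_eq_true, zero_pow,
      mul_zero, zero_mul] at h1
    filter_upwards [h1.eventually_le_const one_pos] with n hn
    exact hn
  refine ulim_up hStd (B := 6 * √N * L) hs₀ hC₀ hlev ?_ hdw ?_
  · filter_upwards [hF] with n hn t ht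
    exact (hC.test_A (hn.pair.u_mem t ht).1).1
  · filter_upwards [hF, hsmall] with n hn hs
    filter_upwards [H599.ini_close hStd ha hLpos hG (hen0 n) hs,
      H599.zr_cl_ae (m := m) p s₀ C₀ 0] with x a1 a2
    rw [hn.init]
    have := (le_abs_self _).trans a1
    rw [a2] at this
    linarith

end

end Vale.Agent.P233.H790
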