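import Vale.Agent.P233.Gig.Defs
import Vale.Agent.P233.H992.Proper

/-! P233, block A5v: consequences of the Sobolev-to-Lipschitz property. A space with this property
is a length space; the Hopf-Lax formula of the radial potential. -/

set_option linter.all false

open MeasureTheory Filter Topology Set
open scoped ENNReal NNReal

namespace Vale.Agent.P233.H790

section stl

variable {M : Type*} [MetricSpace M] [MeasurableSpace M] [BorelSpace M] {m : Measure M}

/-- A Lipschitz function with bounded support which is `1`-Lipschitz at a small scale is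
`1`-Lipschitz. -/
theorem lip_of_small [m.IsOpenPosMeasure] (hfin : ∀ (x : M) (r : ℝ), m (Metric.ball x r) < ∞)
    (hs : ∀ f ∈ (sob m).W, slope f ≤ 1 → ∃ u : M → ℝ, LipschitzWith 1 u ∧ f =ᵐ[m] u)
    {v : M → ℝ} {K : ℝ≥0} (hv : LipschitzWith K v) {x₀ : M} {R : ℝ}
    (hsupp : ∀ x, x ∉ Metric.ball x₀ R → v x = 0) {ε : ℝ} (hε : 0 < ε)
    (h : ∀ y z, dist y z ≤ ε → |v y - v z| ≤ dist y z) (y z : M) : |v y - v z| ≤ dist y z := by
  have hg := Met.good_of_bounded_support hfin hv hsupp
  have hg1 : Met.Good m v ((Metric.ball x₀ (R + 1)).indicator fun _ => (1 : ℝ)) := by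
    refine Met.Good.mk' hg.1 hg.2.1 ?_ ?_
    · exact memLp_indicator_const 2 Metric.isOpen_ball.measurableSet 1
        (Or.inr (hfin x₀ (R + 1)).ne)
    · filter_upwards with x
      by_cases hx : x ∈ Metric.ball x₀ (R + 1)
      · rw [indicator_of_mem hx]
        refine ⟨zero_le_one, fun c hc => ?_⟩
        filter_upwards [Metric.closedBall_mem_nhds x hε] with w hw
        refine (h w x (Metric.mem_closedBall.1 hw)).trans ?_
        have := dist_nonneg (x := w) (y := x)
        nlinarith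
      · rw [indicator_of_notMem hx]
        refine ⟨le_rfl, Met.lipBd_zero_of_eventually ?_⟩
        have hx2 : R < dist x x₀ := by
          rw [Metric.mem_ball, not_lt] at hx; linarith
        have h1 : ∀ᶠ y in 𝓝 x, R < dist y x₀ :=
          (continuous_id.dist continuous_const).continuousAt.eventually_const_lt hx2
        filter_upwards [h1] with y hy
        rw [hsupp y (by rw [Metric.mem_ball, not_lt]; exact hy.le),
          hsupp x (by rw [Metric.mem_ball, not_lt]; exact hx2.le)]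
  have hW : Met.W12 m v := ⟨_, hg1.rSlope⟩
  obtain ⟨f, hf, hfv⟩ := exists_class hW
  obtain ⟨u, hu1, hu2⟩ := exists_lip_rep hs hf (G := 1) one_pos (by
    filter_upwards [sob_Γ_self_ae hf, Met.mslope_congr hfv (mem_sob_iff.1 hf),
      hg1.rSlope.mslope_le, hW.mslope_nonneg] with x a1 a2 a3 a4
    rw [a1, a2]
    have a5 : Met.mslope m v x ≤ 1 :=
      a3.trans (Set.indicator_apply_le' (fun _ => le_rfl) (fun _ => zero_le_one))
    gcongr)
  have huv : u = v := by
    refine (Continuous.ae_eq_iff_eq m (lipschitz_of_abs_sub_le zero_le_one hu1).continuous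
      hv.continuous).1 ?_
    exact hu2.symm.trans hfv
  have := hu1 y z
  rwa [huv, one_mul] at this

/-- A chain with steps `≤ ε` and of length `≤ l` from `x` to `y`. -/
def Ch (ε : ℝ) (x y : M) (l : ℝ) : Prop :=
  ∃ (k : ℕ) (z : ℕ → M), z 0 = x ∧ z k = y ∧ (∀ i < k, dist (z i) (z (i + 1)) ≤ ε) ∧
    ∑ i ∈ Finset.range k, dist (z i) (z (i + 1)) ≤ l

omit [MeasurableSpace M] [BorelSpace M] in
theorem Ch.nonneg {ε : ℝ} {x y : M} {l : ℝ} (h : Ch ε x y l) : 0 ≤ l := by
  obtain ⟨k, z, -, -, -, h⟩ := h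
  exact (Finset.sum_nonneg fun i _ => dist_nonneg).trans h

omit [MeasurableSpace M] [BorelSpace M] in
theorem Ch.refl (ε : ℝ) (x : M) : Ch ε x x 0 :=
  ⟨0, fun _ => x, rfl, rfl, fun i hi => absurd hi (Nat.not_lt_zero i), by simp⟩

omit [MeasurableSpace M] [BorelSpace M] in
theorem Ch.step {ε : ℝ} {x y w : M} {l : ℝ} (h : Ch ε x y l) (hw : dist y w ≤ ε) :
    Ch ε x w (l + dist y w) := by
  obtain ⟨k, z, h0, hk, hstep, hsum⟩ := h
  refine ⟨k + 1, fun i => if i ≤ k then z i else w, by simp [h0], by simp, ?_, ?_⟩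
  · intro i hi
    rcases Nat.lt_succ_iff_lt_or_eq.1 hi with h1 | h1
    · simp only [h1.le, if_true, Nat.succ_le_of_lt h1]
      exact hstep i h1
    · subst h1
      simp only [le_refl, if_true, Nat.not_succ_le_self, if_false]
      rw [hk]; exact hw
  · rw [Finset.sum_range_succ]
    have h1 : ∑ i ∈ Finset.range k, dist (if i ≤ k then z i else w)
        (if i + 1 ≤ k then z (i + 1) else w) = ∑ i ∈ Finset.range k, dist (z i) (z (i + 1)) := by
      refine Finset.sum_congr rfl fun i hi => ?_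
      have h1 := Finset.mem_range.1 hi
      simp only [h1.le, if_true, Nat.succ_le_of_lt h1]
    rw [h1]
    simp only [le_refl, if_true, Nat.not_succ_le_self, if_false]
    rw [hk]
    linarith

/-- the truncated chain distance -/
noncomputable def cd (ε C : ℝ) (x y : M) : ℝ := sInf (insert C {l | Ch ε x y l})

omit [MeasurableSpace M] [BorelSpace M] in
theorem cd_bdd {ε C : ℝ} (hC : 0 ≤ C) (x y : M) : BddBelow (insert C {l | Ch ε x y l}) :=
  ⟨0, by rintro l (h | h); · rw [h]; exact hC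
         · exact Ch.nonneg h⟩

omit [MeasurableSpace M] [BorelSpace M] in
theorem cd_nonneg {ε C : ℝ} (hC : 0 ≤ C) (x y : M) : 0 ≤ cd ε C x y := by
  refine le_csInf ⟨C, mem_insert _ _⟩ ?_
  rintro l (h | h)
  · rw [h]; exact hC
  · exact Ch.nonneg h

omit [MeasurableSpace M] [BorelSpace M] in
theorem cd_le {ε C : ℝ} (hC : 0 ≤ C) (x y : M) : cd ε C x y ≤ C :=
  csInf_le (cd_bdd hC x y) (mem_insert _ _)

omit [MeasurableSpace M] [BorelSpace M] in
theorem cd_self {ε C : ℝ} (hC : 0 ≤ C) (x : M) : cd ε C x x = 0 :=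
  le_antisymm (csInf_le (cd_bdd hC x x) (mem_insert_of_mem _ (Ch.refl ε x))) (cd_nonneg hC x x)

omit [MeasurableSpace M] [BorelSpace M] in
theorem cd_step {ε C : ℝ} (hC : 0 ≤ C) (x : M) {y w : M} (h : dist y w ≤ ε) :
    cd ε C x w ≤ cd ε C x y + dist y w := by
  have h1 : cd ε C x w - dist y w ≤ cd ε C x y := by
    refine le_csInf ⟨C, mem_insert _ _⟩ ?_
    rintro l (h2 | h2)
    · rw [h2]
      have := cd_le (ε := ε) hC x w
      have := dist_nonneg (x := y) (y := w)
      linarith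
    · have := csInf_le (cd_bdd hC x w) (mem_insert_of_mem _ (Ch.step h2 h))
      have h3 : cd ε C x w ≤ l + dist y w := this
      linarith
  linarith

omit [MeasurableSpace M] [BorelSpace M] in
theorem cd_small {ε C : ℝ} (hC : 0 ≤ C) (x : M) {y w : M} (h : dist y w ≤ ε) :
    |cd ε C x y - cd ε C x w| ≤ dist y w := by
  have h1 := cd_step hC x h
  have h2 := cd_step hC x (ε := ε) (y := w) (w := y) (by rwa [dist_comm])
  rw [dist_comm w y] at h2
  rw [abs_le]; constructor <;> linarith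

/-- A space with the Sobolev-to-Lipschitz property is a length space. -/
theorem isChain_of_stl [m.IsOpenPosMeasure] (hfin : ∀ (x : M) (r : ℝ), m (Metric.ball x r) < ∞)
    (hs : ∀ f ∈ (sob m).W, slope f ≤ 1 → ∃ u : M → ℝ, LipschitzWith 1 u ∧ f =ᵐ[m] u) :
    H992.IsChain M := by
  intro x y ε hε
  set C : ℝ := dist x y + 1 with hCdef
  have hC : 0 ≤ C := by positivity
  have hC0 : 0 < C := by positivity
  set T : ℝ := C + dist x y + 1 with hT
  set v : M → ℝ := fun z => min (cd ε C x z) (max (T - dist z x) 0) with hv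
  have hmax : ∀ a b : M, |max (T - dist a x) 0 - max (T - dist b x) 0| ≤ dist a b := by
    intro a b
    refine (abs_max_sub_max_le_abs _ _ _).trans ?_
    have e2 : T - dist a x - (T - dist b x) = dist b x - dist a x := by ring
    rw [e2, dist_comm a b]
    exact abs_dist_sub_le b a x
  have hmin : ∀ a b c d e : ℝ, |a - c| ≤ e → |b - d| ≤ e → |min a b - min c d| ≤ e :=
    fun a b c d e h1 h2 => (abs_min_sub_min_le_max a b c d).trans (max_le h1 h2)
  have hsmall : ∀ a b, dist a b ≤ ε → |v a - v b| ≤ dist a b := fun a b hab =>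
    hmin _ _ _ _ _ (cd_small hC x hab) (hmax a b)
  have hlip : ∀ a b, |v a - v b| ≤ max 1 (C / ε) * dist a b := by
    intro a b
    have hd : 0 ≤ dist a b := dist_nonneg
    have h1 : 1 * dist a b ≤ max 1 (C / ε) * dist a b :=
      mul_le_mul_of_nonneg_right (le_max_left _ _) hd
    rw [one_mul] at h1
    rcases le_total (dist a b) ε with h2 | h2
    · exact (hsmall a b h2).trans h1
    · refine hmin _ _ _ _ _ ?_ ((hmax a b).trans h1)
      have h3 : |cd ε C x a - cd ε C x b| ≤ C := by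
        rw [abs_le]
        have := cd_nonneg (ε := ε) hC x a
        have := cd_nonneg (ε := ε) hC x b
        have := cd_le (ε := ε) hC x a
        have := cd_le (ε := ε) hC x b
        constructor <;> linarith
      refine h3.trans ?_
      calc C = C / ε * ε := by field_simp
        _ ≤ C / ε * dist a b := by gcongr
        _ ≤ _ := by gcongr; exact le_max_right _ _
  have hsupp : ∀ z, z ∉ Metric.ball x T → v z = 0 := by
    intro z hz
    rw [Metric.mem_ball, not_lt] at hz
    simp only [hv]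
    rw [max_eq_right (by linarith)]
    exact min_eq_right (cd_nonneg hC x z)
  have key := lip_of_small hfin hs (lipschitz_of_abs_sub_le (by positivity) hlip) hsupp hε hsmall
    y x
  have hvx : v x = 0 := by
    simp only [hv]
    rw [cd_self hC x]
    exact min_eq_left (le_max_right _ _)
  have hvy : v y = cd ε C x y := by
    simp only [hv]
    refine min_eq_left ((cd_le hC x y).trans ?_)
    refine le_max_of_le_left ?_
    rw [dist_comm y x]; linarith
  rw [hvx, hvy, sub_zero, dist_comm] at key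
  have h1 : cd ε C x y < dist x y + min ε 1 := by
    have := le_abs_self (cd ε C x y)
    have := lt_min hε one_pos
    linarith
  obtain ⟨l, hl, hlt⟩ := exists_lt_of_csInf_lt ⟨C, mem_insert _ _⟩ h1
  have hm1 := min_le_left ε 1
  have hm2 := min_le_right ε 1
  rcases hl with hl | ⟨k, z, h2, h3, h4, h5⟩
  · rw [hl] at hlt; linarith
  · exact ⟨k, z, h2, h3, h4, by linarith⟩

end stl

/-! ### the radial potential -/

section radial

variable {M : Type*} [MetricSpace M]

theorem zr_nonpos (p : M) (s₀ C₀ t : ℝ) (x : M) : zr p s₀ C₀ t x ≤ 0 := min_le_right _ _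

theorem zr_ge (p : M) {s₀ C₀ t : ℝ} (ht : 0 < t + s₀) (hC : 0 ≤ C₀) (x : M) :
    -C₀ ≤ zr p s₀ C₀ t x := by
  unfold zr
  refine le_min ?_ (by linarith)
  have : 0 ≤ dist p x ^ 2 / (2 * (t + s₀)) := by positivity
  linarith

theorem zr_eq_zero (p : M) {s₀ C₀ t : ℝ} (ht : 0 < t + s₀) {x : M}
    (hx : √(2 * C₀ * (t + s₀)) ≤ dist p x) : zr p s₀ C₀ t x = 0 := by
  unfold zr
  refine min_eq_right ?_
  have h1 : 2 * C₀ * (t + s₀) ≤ dist p x ^ 2 := by
    rw [← Real.sqrt_le_left dist_nonneg]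
    exact hx
  rw [sub_nonneg, le_div_iff₀ (by positivity)]
  linarith

theorem zr_eq_zero_of_notMem (p : M) {s₀ C₀ t : ℝ} (ht : 0 < t + s₀) {x : M}
    (hx : x ∉ Metric.ball p (√(2 * C₀ * (t + s₀)))) : zr p s₀ C₀ t x = 0 := by
  rw [Metric.mem_ball, not_lt, dist_comm] at hx
  exact zr_eq_zero p ht hx

/-- one-dimensional form of the Lipschitz bound -/
theorem zr_lip_aux {T C₀ r r' : ℝ} (hT : 0 < T) (hC : 0 ≤ C₀) (hr : 0 ≤ r) (hrr : r ≤ r') :
    |min (r ^ 2 / (2 * T) - C₀) 0 - min (r' ^ 2 / (2 * T) - C₀) 0| ≤ √(2 * C₀ / T) * (r' - r) := by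
  set ρ : ℝ := √(2 * C₀ * T) with hρ
  have hρ0 : 0 ≤ ρ := Real.sqrt_nonneg _
  have hρ2 : ρ ^ 2 = 2 * C₀ * T := Real.sq_sqrt (by positivity)
  have hq : √(2 * C₀ / T) = ρ / T := by
    rw [hρ]
    have h1 : 2 * C₀ / T = 2 * C₀ * T / T ^ 2 := by field_simp
    rw [h1, Real.sqrt_div' _ (sq_nonneg T), Real.sqrt_sq hT.le]
  rw [hq]
  have hmono : min (r ^ 2 / (2 * T) - C₀) 0 ≤ min (r' ^ 2 / (2 * T) - C₀) 0 := by
    refine min_le_min_right _ ?_
    have : r ^ 2 / (2 * T) ≤ r' ^ 2 / (2 * T) := by gcongr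
    linarith
  rw [abs_sub_comm, abs_of_nonneg (by linarith)]
  have hd : 0 ≤ r' - r := by linarith
  rcases le_total ρ r with h1 | h1
  · have e1 : min (r ^ 2 / (2 * T) - C₀) 0 = 0 := by
      refine min_eq_right ?_
      rw [sub_nonneg, le_div_iff₀ (by positivity)]
      nlinarith
    rw [e1]
    have := min_le_right (r' ^ 2 / (2 * T) - C₀) 0
    have : 0 ≤ ρ / T * (r' - r) := by positivity
    linarith
  · have e1 : min (r ^ 2 / (2 * T) - C₀) 0 = r ^ 2 / (2 * T) - C₀ := by
      refine min_eq_left ?_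
      rw [sub_nonpos, div_le_iff₀ (by positivity)]
      nlinarith
    rw [e1]
    rcases le_total r' ρ with h2 | h2
    · have h3 := min_le_left (r' ^ 2 / (2 * T) - C₀) 0
      have h4 : r' ^ 2 / (2 * T) - r ^ 2 / (2 * T) = (r' + r) / (2 * T) * (r' - r) := by
        field_simp; ring
      have h5 : (r' + r) / (2 * T) ≤ ρ / T := by
        rw [div_le_div_iff₀ (by positivity) hT]
        nlinarith
      have h6 := mul_le_mul_of_nonneg_right h5 hd
      linarith
    · have h3 := min_le_right (r' ^ 2 / (2 * T) - C₀) 0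
      have h4 : C₀ - r ^ 2 / (2 * T) = (ρ + r) / (2 * T) * (ρ - r) := by
        have : C₀ = ρ ^ 2 / (2 * T) := by rw [hρ2]; field_simp
        rw [this]; field_simp; ring
      have h5 : (ρ + r) / (2 * T) ≤ ρ / T := by
        rw [div_le_div_iff₀ (by positivity) hT]
        nlinarith
      have h6 := mul_le_mul_of_nonneg_right h5 (by linarith : 0 ≤ ρ - r)
      have h7 : ρ / T * (ρ - r) ≤ ρ / T * (r' - r) := by gcongr
      linarith

/-- `zr` is Lipschitz in `x`, with the constant `√(2 C₀/(t+s₀))`. -/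
theorem zr_lip (p : M) {s₀ C₀ t : ℝ} (ht : 0 < t + s₀) (hC : 0 ≤ C₀) (x y : M) :
    |zr p s₀ C₀ t x - zr p s₀ C₀ t y| ≤ √(2 * C₀ / (t + s₀)) * dist x y := by
  have h0 : 0 ≤ √(2 * C₀ / (t + s₀)) := Real.sqrt_nonneg _
  have h3 : |dist p x - dist p y| ≤ dist x y := by
    rw [dist_comm p x, dist_comm p y]; exact abs_dist_sub_le x y p
  unfold zr
  rcases le_total (dist p x) (dist p y) with h | h
  · refine (zr_lip_aux ht hC dist_nonneg h).trans ?_
    gcongr
    exact (le_abs_self _).trans (by rwa [abs_sub_comm])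
  · rw [abs_sub_comm]
    refine (zr_lip_aux ht hC dist_nonneg h).trans ?_
    gcongr
    exact (le_abs_self _).trans h3

/-- `zr` is nonincreasing and Lipschitz in `t`. -/
theorem zr_time (p : M) {s₀ C₀ s t : ℝ} (hs : 0 < s + s₀) (hst : s ≤ t) (hC : 0 ≤ C₀) (x : M) :
    0 ≤ zr p s₀ C₀ s x - zr p s₀ C₀ t x ∧
      zr p s₀ C₀ s x - zr p s₀ C₀ t x ≤ C₀ / (s + s₀) * (t - s) := by
  have ht : 0 < t + s₀ := by linarith
  set r := dist p x with hr
  have hr0 : 0 ≤ r := dist_nonneg
  have hle : r ^ 2 / (2 * (t + s₀)) ≤ r ^ 2 / (2 * (s + s₀)) := by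
    gcongr
  unfold zr
  rw [← hr]
  constructor
  · have : min (r ^ 2 / (2 * (t + s₀)) - C₀) 0 ≤ min (r ^ 2 / (2 * (s + s₀)) - C₀) 0 :=
      min_le_min_right _ (by linarith)
    linarith
  · have hnn : 0 ≤ C₀ / (s + s₀) * (t - s) := mul_nonneg (by positivity) (by linarith)
    rcases le_total 0 (r ^ 2 / (2 * (t + s₀)) - C₀) with h1 | h1
    · rw [min_eq_right h1]
      have := min_le_right (r ^ 2 / (2 * (s + s₀)) - C₀) 0
      linarith
    · rw [min_eq_left h1]
      have h2 := min_le_left (r ^ 2 / (2 * (s + s₀)) - C₀) 0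
      have h3 : r ^ 2 ≤ 2 * (t + s₀) * C₀ := by
        rw [sub_nonpos, div_le_iff₀ (by positivity)] at h1
        linarith
      have h4 : r ^ 2 / (2 * (s + s₀)) - r ^ 2 / (2 * (t + s₀))
          = r ^ 2 / (2 * (t + s₀)) / (s + s₀) * (t - s) := by
        field_simp
        ring
      have h5 : r ^ 2 / (2 * (t + s₀)) ≤ C₀ := by linarith
      have h6 : r ^ 2 / (2 * (t + s₀)) / (s + s₀) * (t - s) ≤ C₀ / (s + s₀) * (t - s) := by
        have : 0 ≤ t - s := by linarith
        gcongr
      linarith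

/-- Hopf-Lax formula, first half: `z_t ≤ Q_(t-s) z_s`. -/
theorem zr_le_hopfLax (p : M) {s₀ C₀ s t : ℝ} (hs : 0 < s + s₀) (hst : s < t) (x y : M) :
    zr p s₀ C₀ t x ≤ zr p s₀ C₀ s y + dist x y ^ 2 / (2 * (t - s)) := by
  have ht : 0 < t + s₀ := by linarith
  have hts : 0 < t - s := by linarith
  have h0 : 0 ≤ dist x y ^ 2 / (2 * (t - s)) := by positivity
  unfold zr
  rcases le_total 0 (dist p y ^ 2 / (2 * (s + s₀)) - C₀) with h1 | h1
  · rw [min_eq_right h1]
    have := min_le_right (dist p x ^ 2 / (2 * (t + s₀)) - C₀) 0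
    linarith
  · rw [min_eq_left h1]
    refine (min_le_left _ _).trans ?_
    have h2 : dist p x ≤ dist p y + dist x y := by
      rw [dist_comm x y]; exact dist_triangle p y x
    have h3 : dist p x ^ 2 / (2 * (t + s₀)) ≤ (dist p y + dist x y) ^ 2 / (2 * (t + s₀)) := by
      gcongr
    have h4 : (dist p y + dist x y) ^ 2 / (2 * (t + s₀))
        ≤ dist p y ^ 2 / (2 * (s + s₀)) + dist x y ^ 2 / (2 * (t - s)) := by
      have h5 : dist p y ^ 2 / (2 * (s + s₀)) + dist x y ^ 2 / (2 * (t - s))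
          - (dist p y + dist x y) ^ 2 / (2 * (t + s₀))
          = (dist p y * (t - s) - dist x y * (s + s₀)) ^ 2
            / (2 * (s + s₀) * (t - s) * (t + s₀)) := by
        field_simp
        ring
      have h6 : 0 ≤ (dist p y * (t - s) - dist x y * (s + s₀)) ^ 2
            / (2 * (s + s₀) * (t - s) * (t + s₀)) := by positivity
      linarith
    linarith

/-- Hopf-Lax formula, second half, in a length space. -/
theorem exists_hopfLax_lt (hM : H992.IsLen M) (p : M) {s₀ C₀ s t : ℝ} (hs : 0 < s + s₀)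
    (hst : s < t) (x : M) {η : ℝ} (hη : 0 < η) :
    ∃ y, zr p s₀ C₀ s y + dist x y ^ 2 / (2 * (t - s)) < zr p s₀ C₀ t x + η := by
  have ht : 0 < t + s₀ := by linarith
  have hts : 0 < t - s := by linarith
  rcases le_total 0 (dist p x ^ 2 / (2 * (t + s₀)) - C₀) with h1 | h1
  · refine ⟨x, ?_⟩
    have h2 : zr p s₀ C₀ t x = 0 := min_eq_right h1
    have h3 := zr_nonpos p s₀ C₀ s x
    rw [h2, dist_self]
    norm_num
    linarith
  · set D := dist p x with hD
    have hD0 : 0 ≤ D := dist_nonneg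
    set a := D * (s + s₀) / (t + s₀) with ha
    set b := D * (t - s) / (t + s₀) with hb
    have ha0 : 0 ≤ a := by positivity
    have hb0 : 0 ≤ b := by positivity
    have hab : a + b = dist p x := by
      rw [ha, hb, ← hD]; field_simp; ring
    have h2 : zr p s₀ C₀ t x = D ^ 2 / (2 * (t + s₀)) - C₀ := min_eq_left h1
    have hcont : Continuous fun δ : ℝ =>
        (a + δ) ^ 2 / (2 * (s + s₀)) - C₀ + (b + δ) ^ 2 / (2 * (t - s)) := by fun_prop
    have h0 : (a + 0) ^ 2 / (2 * (s + s₀)) - C₀ + (b + 0) ^ 2 / (2 * (t - s))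
        = D ^ 2 / (2 * (t + s₀)) - C₀ := by
      rw [add_zero, add_zero, ha, hb]
      field_simp
      ring
    have hev : ∀ᶠ δ in 𝓝 (0 : ℝ), (a + δ) ^ 2 / (2 * (s + s₀)) - C₀ + (b + δ) ^ 2 / (2 * (t - s))
        < D ^ 2 / (2 * (t + s₀)) - C₀ + η := by
      refine hcont.continuousAt.eventually_lt_const ?_
      show (a + 0) ^ 2 / (2 * (s + s₀)) - C₀ + (b + 0) ^ 2 / (2 * (t - s)) < _
      rw [h0]; linarith
    obtain ⟨δ, hδ0, hδ⟩ : ∃ δ : ℝ, 0 < δ ∧
        (a + δ) ^ 2 / (2 * (s + s₀)) - C₀ + (b + δ) ^ 2 / (2 * (t - s))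
        < D ^ 2 / (2 * (t + s₀)) - C₀ + η := by
      have h3 := (hev.filter_mono (nhdsWithin_le_nhds (s := Ioi 0))).and self_mem_nhdsWithin
      obtain ⟨δ, h4, h5⟩ := h3.exists
      exact ⟨δ, h5, h4⟩
    obtain ⟨w, hw1, hw2⟩ := hM p x a b ha0 hb0 hab δ hδ0
    refine ⟨w, ?_⟩
    rw [h2]
    refine lt_of_le_of_lt ?_ hδ
    refine add_le_add ?_ ?_
    · refine (min_le_left _ _).trans ?_
      have : dist p w ^ 2 / (2 * (s + s₀)) ≤ (a + δ) ^ 2 / (2 * (s + s₀)) := by gcongr
      linarith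
    · rw [dist_comm x w]
      gcongr

end radial

section std

universe u

variable {M : Type u} [MetricSpace M] [MeasurableSpace M] [BorelSpace M] {m : Measure M}

theorem isChain {K N : ℝ} (h : Std m K N) : H992.IsChain M := by
  haveI := h.full
  exact isChain_of_stl h.hfin h.rcd.sobolev_to_lipschitz

theorem isLen {K N : ℝ} (h : Std m K N) : H992.IsLen M := (isChain h).isLen

end std

end Vale.Agent.P233.H790
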