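import Vale.Agent.P233.H790.Up
import Vale.Agent.P233.H748.PairT

/-! # The field `ULim.up`, all inputs discharged (the `W`-derivative of `u` is `Pair.DW_u`) -/

set_option linter.all false

open MeasureTheory Filter Topology Set
open scoped ENNReal NNReal

universe u

namespace Vale.Agent.P233.H790

open Vale.Agent.P233 Vale.Agent.P233.Met

section

variable {M : Type u} [MetricSpace M] [SecondCountableTopology M] [CompleteSpace M]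
  [MeasurableSpace M] [BorelSpace M] {m : Measure M}

/-- pointwise form of `Pair.DW_u` -/
theorem pair_dw {K N : ℝ} (hStd : Std m K N) {P : ℝ → (M →ₘ[m] ℝ) → (M →ₘ[m] ℝ)}
    (hP : Heat (sob m) K P) {ε a b : ℝ} {φ u : ℝ → M →ₘ[m] ℝ} (hp : Pair (sob m) P ε a b φ u)
    {t : ℝ} (ht : t ∈ Icc a b) : ∃ v, (sob m).DW u v (Icc a b) t ∧
      ∀ᵐ x ∂m, v x = ε / 2 * (sob m).lap (u t) x - (sob m).Γ (u t) (u t) x / 2 := by
  have hC : IsGamma (sob m) := H599.std_gamma hStd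
  have hB : (sob m).BEi K := hC.bei hStd.hN hStd.rcd.bochner
  refine ⟨_, hp.DW_u hP hC hB ht, ?_⟩
  filter_upwards [AEEqFun.coeFn_sub ((ε / 2) • (sob m).lap (u t))
      ((2 : ℝ)⁻¹ • (sob m).Γ (u t) (u t)), AEEqFun.coeFn_smul (ε / 2) ((sob m).lap (u t)),
    AEEqFun.coeFn_smul (2 : ℝ)⁻¹ ((sob m).Γ (u t) (u t))] with x e1 e2 e3
  rw [e1, Pi.sub_apply, e2, e3, Pi.smul_apply, Pi.smul_apply, smul_eq_mul, smul_eq_mul]
  ring

/-- **the field `ULim.up`**: `u n t ≤ z_t + δ n` a.e., from `Std`, `Heat`, `Fam` and `LevU`. -/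
theorem ulim_up_final {K N : ℝ} (hStd : Std m K N) {P : ℝ → (M →ₘ[m] ℝ) → (M →ₘ[m] ℝ)}
    (hP : Heat (sob m) K P) {p : M} {s₀ C₀ D : ℝ} {D' : ℝ → ℝ} {l : ℕ → M →ₘ[m] ℝ}
    {φ u : ℕ → ℝ → M →ₘ[m] ℝ} (hs₀ : 0 < s₀) (hC₀ : 0 ≤ C₀)
    (hF : ∀ᶠ n in atTop, Fam (sob m) P (PA.en n) (cl m (zr p s₀ C₀ 0)) (l n) (φ n) (u n))
    (hlev : ∀ᶠ n in atTop, PA.LevU (sob m) K N (PA.en n) C₀ D D' (u n)) :
    ∃ δ : ℕ → ℝ, Tendsto δ atTop (𝓝 0) ∧ ∀ᶠ n in atTop, ∀ t ∈ Icc (0 : ℝ) 1,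
      ∀ᵐ x ∂m, u n t x ≤ zr p s₀ C₀ t x + δ n :=
  ulim_up_fam hStd hs₀ hC₀ hF hlev (by
    filter_upwards [hF] with n hn t ht
    exact pair_dw hStd hP hn.pair ht)

end

end Vale.Agent.P233.H790
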