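import Vale.Agent.P233.H790.RL4

/-!
P233, stage 3, block (M7): the Sobolev-to-Lipschitz property from one-step contraction plans.
Part 1: the function `lipE` (difference quotients at scale `η`) and one step of the chain.
(helper790)
-/

set_option linter.all false

open MeasureTheory Filter Topology Set Metric
open scoped ENNReal NNReal MeasureTheory

universe u

namespace Vale.Agent.P233.H790.SD

section lipE

variable {M : Type u} [MetricSpace M]

/-- sup of the difference quotients at distance `< η` -/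
noncomputable def lipE (h : M → ℝ) (η : ℝ) (x : M) : ℝ≥0∞ :=
  ⨆ y : M, ⨆ (_ : 0 < dist y x ∧ dist y x < η), ENNReal.ofReal (|h y - h x| / dist y x)

theorem le_lipE {h : M → ℝ} {η : ℝ} {x y : M} (h0 : 0 < dist y x) (h1 : dist y x < η) :
    ENNReal.ofReal (|h y - h x| / dist y x) ≤ lipE h η x :=
  le_iSup₂_of_le y ⟨h0, h1⟩ le_rfl

theorem lipE_mono {h : M → ℝ} {η η' : ℝ} (hη : η ≤ η') (x : M) : lipE h η x ≤ lipE h η' x :=
  iSup₂_le fun y hy => le_lipE hy.1 (hy.2.trans_le hη)

theorem lipE_le {h : M → ℝ} {L : ℝ≥0} (hL : LipschitzWith L h) (η : ℝ) (x : M) :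
    lipE h η x ≤ L := by
  refine iSup₂_le fun y hy => ?_
  have h1 : |h y - h x| ≤ L * dist y x := by
    have := hL.dist_le_mul y x
    rwa [Real.dist_eq] at this
  have h2 : |h y - h x| / dist y x ≤ L := by
    rw [div_le_iff₀ hy.1]
    exact h1
  calc ENNReal.ofReal (|h y - h x| / dist y x) ≤ ENNReal.ofReal L := ENNReal.ofReal_le_ofReal h2
    _ = L := ENNReal.ofReal_coe_nnreal

theorem lipE_lsc {h : M → ℝ} (hc : Continuous h) (η : ℝ) : LowerSemicontinuous (lipE h η) := by
  refine lowerSemicontinuous_iSup fun y => ?_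
  intro x a ha
  by_cases hx : 0 < dist y x ∧ dist y x < η
  · have hopen : IsOpen {x : M | 0 < dist y x ∧ dist y x < η} :=
      (isOpen_lt continuous_const (continuous_const.dist continuous_id)).inter
        (isOpen_lt (continuous_const.dist continuous_id) continuous_const)
    have hca : ContinuousAt (fun z => ENNReal.ofReal (|h y - h z| / dist y z)) x := by
      refine ENNReal.continuous_ofReal.continuousAt.comp ?_
      refine ContinuousAt.div ?_ ?_ hx.1.ne'
      · exact (continuous_const.sub hc).abs.continuousAt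
      · exact (continuous_const.dist continuous_id).continuousAt
    have ha' : a < ENNReal.ofReal (|h y - h x| / dist y x) := by
      simpa only [hx, iSup_pos, and_self] using ha
    filter_upwards [hopen.mem_nhds hx, hca.eventually (lt_mem_nhds ha')] with z hz1 hz2
    have hz1' : 0 < dist y z ∧ dist y z < η := hz1
    simpa only [hz1', iSup_pos, and_self] using hz2
  · have h0 : (⨆ (_ : 0 < dist y x ∧ dist y x < η), ENNReal.ofReal (|h y - h x| / dist y x)) = 0 := by
      rw [iSup_neg hx]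
      rfl
    have ha2 : a < ⨆ (_ : 0 < dist y x ∧ dist y x < η), ENNReal.ofReal (|h y - h x| / dist y x) := ha
    rw [h0] at ha2
    exact absurd ha2 not_lt_zero'

theorem lipE_measurable [MeasurableSpace M] [BorelSpace M] {h : M → ℝ} (hc : Continuous h)
    (η : ℝ) : Measurable (lipE h η) :=
  (lipE_lsc hc η).measurable

/-- the difference quotients at scale `1/(j+1)` decrease to the local Lipschitz constant -/
theorem tendsto_lipE {h : M → ℝ} (x : M) :
    Tendsto (fun j : ℕ => lipE h (1 / ((j : ℝ) + 1)) x) atTop (𝓝 (lipAt h x)) := by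
  have hb : (𝓝[≠] x).HasBasis (fun r : ℝ => 0 < r) fun r => ball x r ∩ {x}ᶜ :=
    nhdsWithin_hasBasis nhds_basis_ball _
  have h1 : lipAt h x = ⨅ r : ℝ, ⨅ (_ : 0 < r), ⨆ y ∈ ball x r ∩ {x}ᶜ,
      ENNReal.ofReal (|h y - h x| / dist y x) := by
    unfold lipAt
    rw [hb.limsup_eq_iInf_iSup]
  have h2 : ∀ r : ℝ, (⨆ y ∈ ball x r ∩ {x}ᶜ, ENNReal.ofReal (|h y - h x| / dist y x)) =
      lipE h r x := by
    intro r
    refine le_antisymm (iSup₂_le fun y hy => ?_) (iSup₂_le fun y hy => ?_)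
    · exact le_lipE (dist_pos.2 hy.2) hy.1
    · exact le_iSup₂_of_le y ⟨hy.2, dist_pos.1 hy.1⟩ le_rfl
  have h3 : lipAt h x = ⨅ j : ℕ, lipE h (1 / ((j : ℝ) + 1)) x := by
    rw [h1]
    refine le_antisymm (le_iInf fun j => ?_) (le_iInf₂ fun r hr => ?_)
    · have hj : (0 : ℝ) < 1 / ((j : ℝ) + 1) := by positivity
      refine (iInf₂_le _ hj).trans ?_
      rw [h2]
    · obtain ⟨j, hj⟩ := exists_nat_one_div_lt hr
      refine (iInf_le _ j).trans ?_
      rw [h2]
      exact lipE_mono hj.le x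
  rw [h3]
  refine tendsto_atTop_iInf fun i j hij => lipE_mono ?_ x
  have : (i : ℝ) ≤ j := by exact_mod_cast hij
  gcongr

theorem sub_le_lipE {h : M → ℝ} {L : ℝ≥0} (hL : LipschitzWith L h) {η : ℝ} {x y : M}
    (h1 : dist y x < η) :
    h x - h y ≤ dist y x + (lipE h η x - 1).toReal * dist y x := by
  rcases eq_or_lt_of_le (dist_nonneg : 0 ≤ dist y x) with h0 | h0
  · have : y = x := dist_eq_zero.1 h0.symm
    subst this
    simp
  · have h2 := le_lipE (h := h) h0 h1
    have hfin : lipE h η x ≠ ∞ := ne_top_of_le_ne_top ENNReal.coe_ne_top (lipE_le hL η x)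
    have h3 : |h y - h x| / dist y x ≤ (lipE h η x).toReal :=
      (ENNReal.ofReal_le_iff_le_toReal hfin).1 h2
    have h4 : (lipE h η x).toReal ≤ 1 + (lipE h η x - 1).toReal := by
      have h5 : lipE h η x ≤ 1 + (lipE h η x - 1) := le_add_tsub
      have h6 : lipE h η x - 1 ≠ ∞ := ne_top_of_le_ne_top hfin tsub_le_self
      have h7 := ENNReal.toReal_mono (ENNReal.add_ne_top.2 ⟨ENNReal.one_ne_top, h6⟩) h5
      rwa [ENNReal.toReal_add ENNReal.one_ne_top h6, ENNReal.toReal_one] at h7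
    rw [div_le_iff₀ h0] at h3
    have h8 := neg_abs_le (h y - h x)
    have h9 : (lipE h η x).toReal * dist y x ≤ (1 + (lipE h η x - 1).toReal) * dist y x :=
      mul_le_mul_of_nonneg_right h4 h0.le
    linarith

end lipE

variable {M : Type u} [MetricSpace M] [MeasurableSpace M] [BorelSpace M]

/-- one-step contraction towards `p` by the factor `1 - t`, with the density factor `a` -/
def Step (μ : Measure M) (p : M) (t : ℝ) (a : ℝ≥0∞) : Prop :=
  ∀ (ν : Measure M) (c : ℝ≥0∞) (R : ℝ), c ≠ ∞ → ν ≤ c • μ → ν (closedBall p R)ᶜ = 0 →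
    ∃ π : Measure (M × M), π.map Prod.fst = ν ∧
      (∀ᵐ q ∂π, dist q.1 q.2 = t * dist q.1 p ∧ dist q.2 p = (1 - t) * dist q.1 p) ∧
      π.map Prod.snd ≤ (c * a) • μ

theorem lintegral_le_of_le {μ ν : Measure M} {c : ℝ≥0∞} {p : M} {R : ℝ} (hν : ν ≤ c • μ)
    (hνR : ν (closedBall p R)ᶜ = 0) (φ : M → ℝ≥0∞) :
    ∫⁻ x, φ x ∂ν ≤ c * ∫⁻ x in closedBall p R, φ x ∂μ := by
  have hr : ν = ν.restrict (closedBall p R) := by
    refine (Measure.restrict_eq_self_of_ae_mem ?_).symm
    exact mem_ae_iff.2 hνR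
  calc ∫⁻ x, φ x ∂ν = ∫⁻ x in closedBall p R, φ x ∂ν := by rw [← hr]
    _ ≤ ∫⁻ x in closedBall p R, φ x ∂(c • μ) := lintegral_mono' (Measure.restrict_mono le_rfl hν) le_rfl
    _ = c * ∫⁻ x in closedBall p R, φ x ∂μ := by
        rw [Measure.restrict_smul, lintegral_smul_measure, smul_eq_mul]

theorem univ_lt_top {μ ν : Measure M} {c : ℝ≥0∞} {p : M} {R : ℝ} (hc : c ≠ ∞)
    (hμ : μ (closedBall p R) < ∞) (hν : ν ≤ c • μ)
    (hνR : ν (closedBall p R)ᶜ = 0) : ν univ < ∞ := by
  have h1 := lintegral_le_of_le hν hνR (fun _ => 1)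
  rw [lintegral_one, setLIntegral_one] at h1
  exact h1.trans_lt (ENNReal.mul_lt_top hc.lt_top hμ)

theorem integrable_of_lip {ν : Measure M} [IsFiniteMeasure ν] {p : M} {R : ℝ}
    (hνR : ν (closedBall p R)ᶜ = 0) {L : ℝ≥0} {u : M → ℝ} (hu : LipschitzWith L u)
    [SecondCountableTopology M] : Integrable u ν := by
  refine Integrable.of_bound (C := |u p| + L * R) hu.continuous.aestronglyMeasurable ?_
  have h1 : ∀ᵐ x ∂ν, x ∈ closedBall p R := mem_ae_iff.2 hνR
  filter_upwards [h1] with x hx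
  have h2 := hu.dist_le_mul x p
  rw [Real.dist_eq] at h2
  have h3 : (L : ℝ) * dist x p ≤ L * R := by
    gcongr
    exact mem_closedBall.1 hx
  rw [Real.norm_eq_abs]
  have h4 : |u x| ≤ |u x - u p| + |u p| := by
    have := abs_add_le (u x - u p) (u p)
    simpa using this
  linarith

/-- One step of the chain. -/
theorem one_step [SecondCountableTopology M] {μ : Measure M} {p : M} {t R η : ℝ} {a c : ℝ≥0∞}
    (hμ : μ (closedBall p R) < ∞) (ht0 : 0 < t) (ht1 : t < 1)
    (hstep : Step μ p t a) {u : M → ℝ} {L : ℝ≥0} (hu : LipschitzWith L u) (hη : t * R < η)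
    (hR : 0 ≤ R) (hc : c ≠ ∞) {ν : Measure M} (hν : ν ≤ c • μ)
    (hνR : ν (closedBall p R)ᶜ = 0) :
    ∃ ν' : Measure M, ν' ≤ (c * a) • μ ∧ ν' (closedBall p ((1 - t) * R))ᶜ = 0 ∧
      ν' univ = ν univ ∧
      ∫ x, u x ∂ν - ∫ x, u x ∂ν' ≤ ∫ x, dist x p ∂ν - ∫ x, dist x p ∂ν' +
        t * R * (c * ∫⁻ x in closedBall p R, (lipE u η x - 1) ∂μ).toReal := by
  obtain ⟨π, h1, h2, h3⟩ := hstep ν c R hc hν hνR
  have hνfin : ν univ < ∞ := univ_lt_top hc hμ hν hνR
  haveI : IsFiniteMeasure ν := ⟨hνfin⟩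
  have hπu : π univ = ν univ := by
    rw [← h1, Measure.map_apply measurable_fst MeasurableSet.univ, preimage_univ]
  haveI : IsFiniteMeasure π := ⟨by rw [hπu]; exact hνfin⟩
  have hfst : ∀ᵐ q ∂π, q.1 ∈ closedBall p R := by
    have h4 : ∀ᵐ x ∂(π.map Prod.fst), x ∈ closedBall p R := by
      rw [h1]
      exact mem_ae_iff.2 hνR
    exact ae_of_ae_map measurable_fst.aemeasurable h4
  have h1t : 0 < 1 - t := by linarith
  have hsnd : ∀ᵐ q ∂π, q.2 ∈ closedBall p ((1 - t) * R) := by
    filter_upwards [hfst, h2] with q hq1 hq2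
    rw [mem_closedBall, hq2.2]
    exact mul_le_mul_of_nonneg_left (mem_closedBall.1 hq1) h1t.le
  set ν' := π.map Prod.snd with hν'
  have hν'u : ν' univ = ν univ := by
    rw [hν', Measure.map_apply measurable_snd MeasurableSet.univ, preimage_univ, hπu]
  haveI : IsFiniteMeasure ν' := ⟨by rw [hν'u]; exact hνfin⟩
  have hν'R : ν' (closedBall p ((1 - t) * R))ᶜ = 0 := by
    rw [hν', Measure.map_apply measurable_snd isClosed_closedBall.measurableSet.compl]
    have := ae_iff.1 hsnd
    exact this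
  refine ⟨ν', h3, hν'R, hν'u, ?_⟩
  have hlipd : LipschitzWith 1 fun x : M => dist x p := LipschitzWith.dist_left p
  have i1 : Integrable u ν := integrable_of_lip hνR hu
  have i2 : Integrable u ν' := integrable_of_lip hν'R hu
  have i3 : Integrable (fun x : M => dist x p) ν := integrable_of_lip hνR hlipd
  have i4 : Integrable (fun x : M => dist x p) ν' := integrable_of_lip hν'R hlipd
  set φ : M → ℝ≥0∞ := fun x => lipE u η x - 1 with hφ
  have hφm : Measurable φ := (lipE_measurable hu.continuous η).sub_const 1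
  have hφL : ∀ x, φ x ≤ L := fun x => tsub_le_self.trans (lipE_le hu η x)
  have hφfin : ∀ x, φ x < ∞ := fun x => (hφL x).trans_lt ENNReal.coe_lt_top
  have i5 : Integrable (fun x => (φ x).toReal) ν := by
    refine Integrable.of_bound (C := L) hφm.ennreal_toReal.aestronglyMeasurable
      (ae_of_all _ fun x => ?_)
    rw [Real.norm_eq_abs, abs_of_nonneg ENNReal.toReal_nonneg]
    have := ENNReal.toReal_mono ENNReal.coe_ne_top (hφL x)
    simpa using this
  have hmf : AEMeasurable (Prod.fst : M × M → M) π := measurable_fst.aemeasurable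
  have hms : AEMeasurable (Prod.snd : M × M → M) π := measurable_snd.aemeasurable
  have e1 : ∫ x, u x ∂ν = ∫ q, u q.1 ∂π := by
    rw [← h1, integral_map hmf hu.continuous.aestronglyMeasurable]
  have e2 : ∫ x, u x ∂ν' = ∫ q, u q.2 ∂π := by
    rw [hν', integral_map hms hu.continuous.aestronglyMeasurable]
  have e3 : ∫ x, dist x p ∂ν = ∫ q, dist q.1 p ∂π := by
    rw [← h1, integral_map hmf hlipd.continuous.aestronglyMeasurable]
  have e4 : ∫ x, dist x p ∂ν' = ∫ q, dist q.2 p ∂π := by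
    rw [hν', integral_map hms hlipd.continuous.aestronglyMeasurable]
  have e5 : ∫ x, (φ x).toReal ∂ν = ∫ q, (φ q.1).toReal ∂π := by
    rw [← h1, integral_map hmf hφm.ennreal_toReal.aestronglyMeasurable]
  have j1 : Integrable (fun q : M × M => u q.1) π :=
    (integrable_map_measure hu.continuous.aestronglyMeasurable hmf).1 (by rw [h1]; exact i1)
  have j2 : Integrable (fun q : M × M => u q.2) π :=
    (integrable_map_measure hu.continuous.aestronglyMeasurable hms).1 i2
  have j3 : Integrable (fun q : M × M => dist q.1 p) π :=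
    (integrable_map_measure hlipd.continuous.aestronglyMeasurable hmf).1 (by rw [h1]; exact i3)
  have j4 : Integrable (fun q : M × M => dist q.2 p) π :=
    (integrable_map_measure hlipd.continuous.aestronglyMeasurable hms).1 i4
  have j5 : Integrable (fun q : M × M => (φ q.1).toReal) π :=
    (integrable_map_measure hφm.ennreal_toReal.aestronglyMeasurable hmf).1 (by rw [h1]; exact i5)
  have hk : ∫ q, (u q.1 - u q.2) ∂π ≤
      ∫ q, ((dist q.1 p - dist q.2 p) + t * R * (φ q.1).toReal) ∂π := by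
    refine integral_mono_ae (j1.sub j2) ((j3.sub j4).add (j5.const_mul _)) ?_
    filter_upwards [hfst, h2] with q hq1 hq2
    have hd1 : dist q.1 p ≤ R := mem_closedBall.1 hq1
    have hd : dist q.2 q.1 = t * dist q.1 p := by rw [dist_comm]; exact hq2.1
    have hlt : dist q.2 q.1 < η := by
      rw [hd]
      exact (mul_le_mul_of_nonneg_left hd1 ht0.le).trans_lt hη
    have h5 := sub_le_lipE hu hlt
    have h6 : (φ q.1).toReal * dist q.2 q.1 ≤ t * R * (φ q.1).toReal := by
      rw [hd]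
      calc (φ q.1).toReal * (t * dist q.1 p) ≤ (φ q.1).toReal * (t * R) := by gcongr
        _ = _ := by ring
    have h7 : dist q.1 p - dist q.2 p = dist q.2 q.1 := by
      rw [hd, hq2.2]
      ring
    rw [h7]
    linarith
  have hk1 : ∫ q, ((dist q.1 p - dist q.2 p) + t * R * (φ q.1).toReal) ∂π =
      (∫ q, dist q.1 p ∂π - ∫ q, dist q.2 p ∂π) + t * R * ∫ q, (φ q.1).toReal ∂π := by
    have k1 : ∫ q, ((dist q.1 p - dist q.2 p) + t * R * (φ q.1).toReal) ∂π =
        ∫ q, (dist q.1 p - dist q.2 p) ∂π + ∫ q, t * R * (φ q.1).toReal ∂π :=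
      integral_add (j3.sub j4) (j5.const_mul _)
    rw [k1, integral_sub j3 j4, integral_const_mul]
  rw [integral_sub j1 j2, hk1] at hk
  have hφi : ∫ x, (φ x).toReal ∂ν ≤ (c * ∫⁻ x in closedBall p R, φ x ∂μ).toReal := by
    rw [integral_toReal hφm.aemeasurable (ae_of_all _ hφfin)]
    refine ENNReal.toReal_mono ?_ (lintegral_le_of_le hν hνR φ)
    refine ENNReal.mul_ne_top hc ?_
    refine ne_top_of_le_ne_top (ENNReal.mul_ne_top (ENNReal.coe_ne_top (r := L)) hμ.ne) ?_
    calc ∫⁻ x in closedBall p R, φ x ∂μ ≤ ∫⁻ x in closedBall p R, L ∂μ :=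
          lintegral_mono fun x => hφL x
      _ = L * μ (closedBall p R) := by rw [setLIntegral_const]
  rw [e1, e2, e3, e4]
  have h8 : t * R * ∫ x, (φ x).toReal ∂ν ≤ t * R * (c * ∫⁻ x in closedBall p R, φ x ∂μ).toReal :=
    mul_le_mul_of_nonneg_left hφi (by positivity)
  rw [e5] at h8
  linarith

/-- The chain of `N` steps. -/
theorem chain [SecondCountableTopology M] {μ : Measure M} {p : M} {t R η : ℝ} {a c : ℝ≥0∞}
    (hμ : μ (closedBall p R) < ∞) (ht0 : 0 < t) (ht1 : t < 1) (ha1 : 1 ≤ a) (ha : a ≠ ∞)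
    (hstep : Step μ p t a) {u : M → ℝ} {L : ℝ≥0} (hu : LipschitzWith L u) (hη : t * R < η)
    (hR : 0 ≤ R) (hc : c ≠ ∞) {ν : Measure M} (hν : ν ≤ c • μ)
    (hνR : ν (closedBall p R)ᶜ = 0) (N : ℕ) :
    ∃ ν' : Measure M, ν' ≤ (c * a ^ N) • μ ∧ ν' (closedBall p ((1 - t) ^ N * R))ᶜ = 0 ∧
      ν' univ = ν univ ∧
      ∫ x, u x ∂ν - ∫ x, u x ∂ν' ≤ ∫ x, dist x p ∂ν - ∫ x, dist x p ∂ν' +
        N * (t * R * (c * a ^ N * ∫⁻ x in closedBall p R, (lipE u η x - 1) ∂μ).toReal) := by
  have h1t : 0 < 1 - t := by linarith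
  have hEfin : ∫⁻ x in closedBall p R, (lipE u η x - 1) ∂μ ≠ ∞ := by
    refine ne_top_of_le_ne_top (ENNReal.mul_ne_top (ENNReal.coe_ne_top (r := L)) hμ.ne) ?_
    calc ∫⁻ x in closedBall p R, (lipE u η x - 1) ∂μ ≤ ∫⁻ x in closedBall p R, L ∂μ :=
          lintegral_mono fun x => tsub_le_self.trans (lipE_le hu η x)
      _ = L * μ (closedBall p R) := by rw [setLIntegral_const]
  induction N with
  | zero => exact ⟨ν, by simpa using hν, by simpa using hνR, rfl, by simp⟩
  | succ N ih =>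
    obtain ⟨ν₁, h1, h2, h3, h4⟩ := ih
    set R₁ := (1 - t) ^ N * R with hR₁
    have hpow : (1 - t) ^ N ≤ 1 := pow_le_one₀ h1t.le (by linarith)
    have hR₁0 : 0 ≤ R₁ := by positivity
    have hR₁R : R₁ ≤ R := by
      calc (1 - t) ^ N * R ≤ 1 * R := by gcongr
        _ = R := one_mul R
    have hsub : closedBall p R₁ ⊆ closedBall p R := closedBall_subset_closedBall hR₁R
    have hη₁ : t * R₁ < η := (mul_le_mul_of_nonneg_left hR₁R ht0.le).trans_lt hη
    have hcN : c * a ^ N ≠ ∞ := ENNReal.mul_ne_top hc (ENNReal.pow_ne_top ha)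
    obtain ⟨ν₂, g1, g2, g3, g4⟩ := one_step (η := η) ((measure_mono hsub).trans_lt hμ) ht0 ht1
      hstep hu hη₁ hR₁0 hcN h1 h2
    refine ⟨ν₂, ?_, ?_, g3.trans h3, ?_⟩
    · rw [pow_succ, ← mul_assoc]
      exact g1
    · have e : (1 - t) ^ (N + 1) * R = (1 - t) * R₁ := by rw [hR₁, pow_succ]; ring
      rw [e]
      exact g2
    · set E := ∫⁻ x in closedBall p R, (lipE u η x - 1) ∂μ with hE
      have hE1 : ∫⁻ x in closedBall p R₁, (lipE u η x - 1) ∂μ ≤ E := lintegral_mono_set hsub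
      have hpa : c * a ^ N * E ≤ c * a ^ (N + 1) * E := by
        gcongr
        exact Nat.le_succ N
      have hcN1 : c * a ^ (N + 1) ≠ ∞ := ENNReal.mul_ne_top hc (ENNReal.pow_ne_top ha)
      have f1 : (c * a ^ N * ∫⁻ x in closedBall p R₁, (lipE u η x - 1) ∂μ).toReal ≤
          (c * a ^ (N + 1) * E).toReal :=
        ENNReal.toReal_mono (ENNReal.mul_ne_top hcN1 hEfin) ((by gcongr : _ ≤ c * a ^ N * E).trans hpa)
      have f2 : (c * a ^ N * E).toReal ≤ (c * a ^ (N + 1) * E).toReal :=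
        ENNReal.toReal_mono (ENNReal.mul_ne_top hcN1 hEfin) hpa
      have f3 : t * R₁ * (c * a ^ N * ∫⁻ x in closedBall p R₁, (lipE u η x - 1) ∂μ).toReal ≤
          t * R * (c * a ^ (N + 1) * E).toReal := by gcongr
      have f4 : (N : ℝ) * (t * R * (c * a ^ N * E).toReal) ≤
          N * (t * R * (c * a ^ (N + 1) * E).toReal) := by gcongr
      have f5 : ((N + 1 : ℕ) : ℝ) * (t * R * (c * a ^ (N + 1) * E).toReal) =
          N * (t * R * (c * a ^ (N + 1) * E).toReal) + t * R * (c * a ^ (N + 1) * E).toReal := by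
        push_cast
        ring
      rw [f5]
      linarith

end Vale.Agent.P233.H790.SD
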