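import Vale.Agent.P233.H790.WInt

set_option linter.all false

open MeasureTheory Filter Topology Set
open scoped ENNReal NNReal InnerProductSpace

namespace Vale.Agent.P233.H790

/-- A smooth step function. -/
structure Step (χ χ' : ℝ → ℝ) (K η : ℝ) : Prop where
  K0 : 0 ≤ K
  deriv : ∀ s, HasDerivAt χ (χ' s) s
  cont' : Continuous χ'
  nonneg' : ∀ s, 0 ≤ χ' s
  le' : ∀ s, χ' s ≤ K
  lip' : ∀ s t, |χ' s - χ' t| ≤ K * |s - t|
  nonneg : ∀ s, 0 ≤ χ s
  le_one : ∀ s, χ s ≤ 1
  zero : ∀ s, s ≤ 0 → χ s = 0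
  one : ∀ s, η ≤ s → χ s = 1

theorem exists_step {η : ℝ} (hη : 0 < η) : ∃ χ χ' : ℝ → ℝ, ∃ K, Step χ χ' K η := by
  -- the unscaled function
  set ρ : ℝ → ℝ := fun s => 6 * max 0 (s * (1 - s)) with hρ
  have hρc : Continuous ρ := by fun_prop
  have hρ0 : ∀ s, 0 ≤ ρ s := fun s => by
    have := le_max_left 0 (s * (1 - s)); simp only [hρ]; linarith
  have hρneg : ∀ s, s ≤ 0 → ρ s = 0 := fun s hs => by
    simp only [hρ]; rw [max_eq_left (by nlinarith), mul_zero]
  have hρbig : ∀ s, 1 ≤ s → ρ s = 0 := fun s hs => by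
    simp only [hρ]; rw [max_eq_left (by nlinarith), mul_zero]
  have hρle : ∀ s, ρ s ≤ 6 := fun s => by
    have : max 0 (s * (1 - s)) ≤ 1 := max_le zero_le_one (by nlinarith [sq_nonneg (s - 1 / 2)])
    simp only [hρ]; linarith
  have hρlip : ∀ s t, |ρ s - ρ t| ≤ 6 * |s - t| := by
    have hcl : ∀ s, ρ s = 6 * ((max 0 (min s 1)) * (1 - max 0 (min s 1))) := by
      intro s
      rcases le_total s 0 with h | h
      · rw [hρneg s h, max_eq_left ((min_le_left _ _).trans h)]; ring
      · rcases le_total 1 s with h1 | h1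
        · rw [hρbig s h1, min_eq_right h1, max_eq_right zero_le_one]; ring
        · rw [min_eq_left h1, max_eq_right h]
          simp only [hρ]
          rw [max_eq_right (by nlinarith)]
    intro s t
    rw [hcl s, hcl t]
    set p := max 0 (min s 1) with hp
    set q := max 0 (min t 1) with hq
    have hp0 : 0 ≤ p := le_max_left _ _
    have hq0 : 0 ≤ q := le_max_left _ _
    have hp1 : p ≤ 1 := max_le zero_le_one (min_le_right _ _)
    have hq1 : q ≤ 1 := max_le zero_le_one (min_le_right _ _)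
    have hpq : |p - q| ≤ |s - t| := by
      refine (abs_max_sub_max_le_max _ _ _ _).trans (max_le ?_ ?_)
      · simp
      · refine (abs_min_sub_min_le_max _ _ _ _).trans (max_le le_rfl ?_)
        simp
    have e : 6 * (p * (1 - p)) - 6 * (q * (1 - q)) = 6 * ((p - q) * (1 - p - q)) := by ring
    rw [e, abs_mul, abs_mul, abs_of_pos (by norm_num : (0:ℝ) < 6)]
    have h1 : |1 - p - q| ≤ 1 := by rw [abs_le]; constructor <;> linarith
    have h2 : |p - q| * |1 - p - q| ≤ |p - q| * 1 :=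
      mul_le_mul_of_nonneg_left h1 (abs_nonneg _)
    linarith
  set X : ℝ → ℝ := fun s => ∫ r in (0:ℝ)..s, ρ r with hX
  have hXd : ∀ s, HasDerivAt X (ρ s) s := fun s =>
    intervalIntegral.integral_hasDerivAt_right (hρc.intervalIntegrable _ _)
      (hρc.stronglyMeasurableAtFilter _ _) hρc.continuousAt
  have hXmono : Monotone X := by
    refine monotone_of_deriv_nonneg (fun s => (hXd s).differentiableAt) fun s => ?_
    rw [(hXd s).deriv]; exact hρ0 s
  have hX0 : X 0 = 0 := by simp [hX]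
  have hX1 : X 1 = 1 := by
    have h1 : X 1 = ∫ r in (0:ℝ)..1, (6 * r - 6 * r ^ 2) := by
      simp only [hX]
      refine intervalIntegral.integral_congr fun r hr => ?_
      rw [uIcc_of_le zero_le_one] at hr
      simp only [hρ]
      rw [max_eq_right (by nlinarith [hr.1, hr.2])]; ring
    have c1 : Continuous fun r : ℝ => 6 * r := by fun_prop
    have c2 : Continuous fun r : ℝ => 6 * r ^ 2 := by fun_prop
    rw [h1, intervalIntegral.integral_sub (c1.intervalIntegrable _ _) (c2.intervalIntegrable _ _)]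
    have e1 : ∫ r in (0:ℝ)..1, 6 * r = 3 := by
      rw [intervalIntegral.integral_const_mul, integral_id]; norm_num
    have e2 : ∫ r in (0:ℝ)..1, 6 * r ^ 2 = 2 := by
      rw [intervalIntegral.integral_const_mul, integral_pow]; norm_num
    rw [e1, e2]; norm_num
  have hXneg : ∀ s, s ≤ 0 → X s = 0 := fun s hs => by
    simp only [hX]
    rw [intervalIntegral.integral_congr (g := fun _ => (0:ℝ)) fun r hr => ?_]
    · simp
    · rw [uIcc_of_ge hs] at hr
      exact hρneg r hr.2
  have hXbig : ∀ s, 1 ≤ s → X s = 1 := fun s hs => by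
    have h1 : X s = X 1 + ∫ r in (1:ℝ)..s, ρ r := by
      simp only [hX]
      rw [intervalIntegral.integral_add_adjacent_intervals] <;> exact hρc.intervalIntegrable _ _
    have h2 : ∫ r in (1:ℝ)..s, ρ r = 0 := by
      rw [intervalIntegral.integral_congr (g := fun _ => (0:ℝ)) fun r hr => ?_]
      · simp
      · rw [uIcc_of_le hs] at hr
        exact hρbig r hr.1
    rw [h1, h2, hX1, add_zero]
  have hXle : ∀ s, X s ≤ 1 := fun s => by
    rcases le_total 1 s with h | h
    · rw [hXbig s h]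
    · exact (hXmono h).trans hX1.le
  have hXnn : ∀ s, 0 ≤ X s := fun s => by
    rcases le_total s 0 with h | h
    · rw [hXneg s h]
    · rw [← hX0]; exact hXmono h
  refine ⟨fun s => X (s / η), fun s => ρ (s / η) / η, max (6 / η) (6 / η ^ 2), ?_, ?_, ?_, ?_, ?_,
    ?_, ?_, ?_, ?_, ?_⟩
  · positivity
  · intro s
    have h1 := (hXd (s / η)).comp s ((hasDerivAt_id s).div_const η)
    have e : ρ (s / η) * (1 / η) = ρ (s / η) / η := by ring
    rw [e] at h1
    exact h1
  · exact (hρc.comp (continuous_id.div_const η)).div_const η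
  · intro s; exact div_nonneg (hρ0 _) hη.le
  · intro s
    refine le_trans ?_ (le_max_left _ _)
    exact div_le_div_of_nonneg_right (hρle _) hη.le
  · intro s t
    have h1 := hρlip (s / η) (t / η)
    have e1 : ρ (s / η) / η - ρ (t / η) / η = (ρ (s / η) - ρ (t / η)) / η := by ring
    have e2 : s / η - t / η = (s - t) / η := by ring
    rw [e2, abs_div, abs_of_pos hη] at h1
    rw [e1, abs_div, abs_of_pos hη, div_le_iff₀ hη]
    refine h1.trans ?_
    have h2 : 6 / η ^ 2 ≤ max (6 / η) (6 / η ^ 2) := le_max_right _ _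
    have h3 : 6 * (|s - t| / η) = 6 / η ^ 2 * |s - t| * η := by field_simp
    rw [h3]
    have := abs_nonneg (s - t)
    gcongr
  · intro s; exact hXnn _
  · intro s; exact hXle _
  · intro s hs; exact hXneg _ (div_nonpos_of_nonpos_of_nonneg hs hη.le)
  · intro s hs; exact hXbig _ (by rw [le_div_iff₀ hη]; linarith)

/-- Taylor formula -/
theorem Step.taylor {χ χ' : ℝ → ℝ} {K η : ℝ} (h : Step χ χ' K η) (s t : ℝ) :
    |χ t - χ s - χ' s * (t - s)| ≤ K * (t - s) ^ 2 := by
  have key : ∀ s t, s < t → ∃ ξ, ξ ∈ Ioo s t ∧ χ' ξ * (t - s) = χ t - χ s := by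
    intro s t hst
    obtain ⟨ξ, h1, h2⟩ := exists_hasDerivAt_eq_slope χ χ' hst
      (fun x _ => (h.deriv x).continuousAt.continuousWithinAt) fun x _ => h.deriv x
    refine ⟨ξ, h1, ?_⟩
    rw [h2]; field_simp [(sub_pos.2 hst).ne']
  have hlip : ∀ ξ, |ξ - s| ≤ |t - s| → |χ' ξ * (t - s) - χ' s * (t - s)| ≤ K * (t - s) ^ 2 := by
    intro ξ hξ
    rw [← sub_mul, abs_mul]
    have h1 := h.lip' ξ s
    calc |χ' ξ - χ' s| * |t - s| ≤ (K * |ξ - s|) * |t - s| := by gcongr
      _ ≤ (K * |t - s|) * |t - s| := by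
        have := h.K0
        gcongr
      _ = K * (t - s) ^ 2 := by rw [mul_assoc, ← sq, sq_abs]
  rcases lt_trichotomy s t with hst | hst | hst
  · obtain ⟨ξ, h1, h2⟩ := key s t hst
    rw [← h2]
    refine hlip ξ ?_
    rw [abs_of_pos (by linarith [h1.1]), abs_of_pos (by linarith)]
    linarith [h1.2]
  · subst hst; simp
  · obtain ⟨ξ, h1, h2⟩ := key t s hst
    have e : χ t - χ s = χ' ξ * (t - s) := by linarith
    rw [e]
    refine hlip ξ ?_
    rw [abs_of_neg (by linarith [h1.2]), abs_of_neg (by linarith)]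
    linarith [h1.1]


theorem Step.lip {χ χ' : ℝ → ℝ} {K η : ℝ} (h : Step χ χ' K η) (s t : ℝ) :
    |χ s - χ t| ≤ K * |s - t| := by
  have h1 := Convex.norm_image_sub_le_of_norm_hasDerivWithin_le (f := χ) (f' := χ') (C := K)
    (s := univ) (fun x _ => (h.deriv x).hasDerivWithinAt) (fun x _ => by
      rw [Real.norm_eq_abs, abs_of_nonneg (h.nonneg' x)]; exact h.le' x) convex_univ
    (mem_univ t) (mem_univ s)
  simpa [Real.norm_eq_abs] using h1

theorem Step.cont {χ χ' : ℝ → ℝ} {K η : ℝ} (h : Step χ χ' K η) : Continuous χ :=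
  continuous_iff_continuousAt.2 fun s => (h.deriv s).continuousAt

/-- the composed function -/
def tht (χ : ℝ → ℝ) (κ c₀ t y : ℝ) : ℝ := χ (y - κ * t - c₀) - χ (-(κ * t) - c₀)

def tht' (χ' : ℝ → ℝ) (κ c₀ t y : ℝ) : ℝ := χ' (y - κ * t - c₀)

section

variable {χ χ' : ℝ → ℝ} {K η : ℝ} (h : Step χ χ' K η) (κ c₀ : ℝ)
include h

theorem tht_cont (t : ℝ) : Continuous (tht χ κ c₀ t) := by
  have := h.cont
  unfold tht; fun_prop

theorem tht'_cont (t : ℝ) : Continuous (tht' χ' κ c₀ t) := by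
  have := h.cont'
  unfold tht'; fun_prop

theorem tht_deriv (t y : ℝ) : HasDerivAt (tht χ κ c₀ t) (tht' χ' κ c₀ t y) y := by
  have h1 : HasDerivAt (fun y : ℝ => y - κ * t - c₀) 1 y :=
    ((hasDerivAt_id y).sub_const _).sub_const _
  have h2 := (h.deriv (y - κ * t - c₀)).comp y h1
  rw [mul_one] at h2
  exact h2.sub_const _

theorem tht_zero (t : ℝ) : tht χ κ c₀ t 0 = 0 := by
  unfold tht; rw [zero_sub, sub_self]

theorem tht_lip (t y z : ℝ) : |tht χ κ c₀ t y - tht χ κ c₀ t z| ≤ K * |y - z| := by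
  unfold tht
  have h1 := h.lip (y - κ * t - c₀) (z - κ * t - c₀)
  have e : y - κ * t - c₀ - (z - κ * t - c₀) = y - z := by ring
  rw [e] at h1
  simpa using h1

theorem tht'_lip (s t y z : ℝ) :
    |tht' χ' κ c₀ s y - tht' χ' κ c₀ t z| ≤ K * (|y - z| + |κ| * |s - t|) := by
  unfold tht'
  refine (h.lip' _ _).trans ?_
  have e : y - κ * s - c₀ - (z - κ * t - c₀) = (y - z) + (-κ) * (s - t) := by ring
  rw [e]
  have h1 := abs_add_le (y - z) (-κ * (s - t))
  rw [abs_mul, abs_neg] at h1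
  exact mul_le_mul_of_nonneg_left h1 h.K0

theorem tht_time (s t y : ℝ) :
    |tht χ κ c₀ s y - tht χ κ c₀ t y| ≤ K * |κ| * |s - t| * |y| := by
  have h1 := Convex.norm_image_sub_le_of_norm_hasDerivWithin_le
    (f := fun y => tht χ κ c₀ s y - tht χ κ c₀ t y)
    (f' := fun y => tht' χ' κ c₀ s y - tht' χ' κ c₀ t y) (C := K * |κ| * |s - t|)
    (s := univ) (fun x _ => ((tht_deriv h κ c₀ s x).sub (tht_deriv h κ c₀ t x)).hasDerivWithinAt)
    (fun x _ => by
      rw [Real.norm_eq_abs]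
      refine (tht'_lip h κ c₀ s t x x).trans ?_
      rw [sub_self, abs_zero, zero_add, mul_assoc]) convex_univ
    (mem_univ 0) (mem_univ y)
  simpa [Real.norm_eq_abs, tht_zero h] using h1

theorem tht_both (s t y z : ℝ) :
    |tht χ κ c₀ s y - tht χ κ c₀ t z| ≤ K * |y - z| + K * |κ| * |s - t| * |z| := by
  have e : tht χ κ c₀ s y - tht χ κ c₀ t z = (tht χ κ c₀ s y - tht χ κ c₀ s z)
    + (tht χ κ c₀ s z - tht χ κ c₀ t z) := by ring
  rw [e]
  exact (abs_add_le _ _).trans (add_le_add (tht_lip h κ c₀ s y z) (tht_time h κ c₀ s t z))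

end

end Vale.Agent.P233.H790
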