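import Vale.Agent.P233.H790.Step

/-! P233, block A5iii: the slope bound for the time integral of a function of a viscous subsolution
of the Hamilton-Jacobi equation (abstract calculus). -/

set_option linter.all false

open MeasureTheory Filter Topology Set
open scoped ENNReal NNReal InnerProductSpace

namespace Vale.Agent.P233.H790

variable {M : Type*} [MeasurableSpace M] {m : Measure M} {C : Calc m}

/-- `u` is a curve in `W`, Lipschitz in time, with the `L²`-derivative `D`, and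
`D + |∇u|²/2 ≤ c`. -/
structure HJData (C : Calc m) (a b L c : ℝ) (u D : ℝ → M →ₘ[m] ℝ) : Prop where
  hab : a < b
  L0 : 0 ≤ L
  memW : ∀ t ∈ Icc a b, u t ∈ C.W
  cont : ∀ t ∈ Icc a b, Tendsto (fun s => C.nrm2 (u s - u t)) (𝓝[Icc a b] t) (𝓝 0)
  lipt : ∀ s ∈ Icc a b, ∀ t ∈ Icc a b, ∀ᵐ x ∂m, |u s x - u t x| ≤ L * |s - t|
  memD : ∀ t ∈ Icc a b, MemLp (D t) 2 m
  deriv : ∀ t ∈ Icc a b, Tendsto (fun s => I (((s - t)⁻¹ • (u s - u t) - D t) ^ 2))
    (𝓝[Icc a b \ {t}] t) (𝓝 0)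
  ineq : ∀ t ∈ Icc a b, ∀ᵐ x ∂m, D t x + C.Γ (u t) (u t) x / 2 ≤ c

section

variable {χ χ' : ℝ → ℝ} {K η : ℝ} (h : Step χ χ' K η) (κ c₀ : ℝ)

/-- the class of `θ_t(f)` -/
noncomputable def TH (h : Step χ χ' K η) (κ c₀ t : ℝ) (f : M →ₘ[m] ℝ) : M →ₘ[m] ℝ :=
  AEEqFun.comp (tht χ κ c₀ t) (tht_cont h κ c₀ t) f

noncomputable def TH' (h : Step χ χ' K η) (κ c₀ t : ℝ) (f : M →ₘ[m] ℝ) : M →ₘ[m] ℝ :=
  AEEqFun.comp (tht' χ' κ c₀ t) (tht'_cont h κ c₀ t) f

theorem TH_ae (t : ℝ) (f : M →ₘ[m] ℝ) : ⇑(TH h κ c₀ t f) =ᵐ[m] fun x => tht χ κ c₀ t (f x) :=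
  AEEqFun.coeFn_comp _ _ _

theorem TH'_ae (t : ℝ) (f : M →ₘ[m] ℝ) : ⇑(TH' h κ c₀ t f) =ᵐ[m] fun x => tht' χ' κ c₀ t (f x) :=
  AEEqFun.coeFn_comp _ _ _

theorem TH_chain (hC : IsDir C) (t : ℝ) {f : M →ₘ[m] ℝ} (hf : f ∈ C.W) :
    TH h κ c₀ t f ∈ C.W ∧ ∀ g ∈ C.W, C.Γ (TH h κ c₀ t f) g = TH' h κ c₀ t f * C.Γ f g :=
  hC.chain f hf _ _ _ _ (tht_deriv h κ c₀ t) (tht_zero h κ c₀ t) ⟨K, fun s => by
    unfold tht'; rw [abs_of_nonneg (h.nonneg' _)]; exact h.le' _⟩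

theorem TH_Γ_ae (hC : IsDir C) (t : ℝ) {f g : M →ₘ[m] ℝ} (hf : f ∈ C.W) (hg : g ∈ C.W) :
    ∀ᵐ x ∂m, C.Γ (TH h κ c₀ t f) g x = tht' χ' κ c₀ t (f x) * C.Γ f g x := by
  rw [(TH_chain h κ c₀ hC t hf).2 g hg]
  filter_upwards [mul_ae (TH' h κ c₀ t f) (C.Γ f g), TH'_ae h κ c₀ t f] with x h1 h2
  rw [h1, h2]

theorem TH_sub_sq {s t : ℝ} {f g : M →ₘ[m] ℝ} (hf : MemLp f 2 m) (hg : MemLp g 2 m) :
    MemLp (TH h κ c₀ s f - TH h κ c₀ t g) 2 m ∧
    I ((TH h κ c₀ s f - TH h κ c₀ t g) ^ 2) ≤ 2 * K ^ 2 * I ((f - g) ^ 2)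
      + 2 * (K * |κ| * |s - t|) ^ 2 * I (g ^ 2) := by
  have hK := h.K0
  have hb : ∀ᵐ x ∂m, |(TH h κ c₀ s f - TH h κ c₀ t g) x|
      ≤ K * |(f - g) x| + K * |κ| * |s - t| * |g x| := by
    filter_upwards [TH_ae h κ c₀ s f, TH_ae h κ c₀ t g, sub_ae (TH h κ c₀ s f) (TH h κ c₀ t g),
      sub_ae f g] with x h1 h2 h3 h4
    rw [h3, h1, h2, h4]
    exact tht_both h κ c₀ s t (f x) (g x)
  have hfg : MemLp (f - g) 2 m := mem_sub hf hg
  have hmem : MemLp (TH h κ c₀ s f - TH h κ c₀ t g) 2 m := by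
    refine MemLp.mono (g := fun x => K * |(f - g) x| + K * |κ| * |s - t| * |g x|)
      ((hfg.abs.const_mul K).add (hg.abs.const_mul _)) (AEEqFun.aestronglyMeasurable _) ?_
    filter_upwards [hb] with x hx
    rw [Real.norm_eq_abs, Real.norm_eq_abs]
    exact hx.trans (le_abs_self _)
  refine ⟨hmem, ?_⟩
  have e : 2 * K ^ 2 * I ((f - g) ^ 2) + 2 * (K * |κ| * |s - t|) ^ 2 * I (g ^ 2)
      = I ((2 * K ^ 2) • (f - g) ^ 2 + (2 * (K * |κ| * |s - t|) ^ 2) • g ^ 2) := by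
    rw [I_add (mem_smul _ (mem_sq hfg)) (mem_smul _ (mem_sq hg)), I_smul, I_smul]
  rw [e]
  refine I_mono (mem_sq hmem) (mem_add (mem_smul _ (mem_sq hfg)) (mem_smul _ (mem_sq hg))) ?_
  rw [le_iff_ae]
  filter_upwards [hb, sq_ae (TH h κ c₀ s f - TH h κ c₀ t g), sq_ae (f - g), sq_ae g,
    add_ae ((2 * K ^ 2) • (f - g) ^ 2) ((2 * (K * |κ| * |s - t|) ^ 2) • g ^ 2),
    smul_ae ((f - g) ^ 2) (2 * K ^ 2), smul_ae (g ^ 2) (2 * (K * |κ| * |s - t|) ^ 2)]
    with x h1 h2 h3 h4 h5 h6 h7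
  rw [h2, h5, h6, h7, h3, h4]
  set A := K * |(f - g) x| with hA
  set B := K * |κ| * |s - t| * |g x| with hB
  have h8 : (TH h κ c₀ s f - TH h κ c₀ t g) x ^ 2 ≤ (A + B) ^ 2 := by
    rw [← sq_abs]
    gcongr
  have h9 : (A + B) ^ 2 ≤ 2 * A ^ 2 + 2 * B ^ 2 := by nlinarith [sq_nonneg (A - B)]
  have h10 : 2 * A ^ 2 = 2 * K ^ 2 * (f - g) x ^ 2 := by rw [hA, mul_pow, sq_abs]; ring
  have h11 : 2 * B ^ 2 = 2 * (K * |κ| * |s - t|) ^ 2 * g x ^ 2 := by
    rw [hB, mul_pow, sq_abs]; ring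
  linarith

/-- energy of the difference -/
theorem TH_sub_E (hC : IsDir C) {s t δ : ℝ} {f g : M →ₘ[m] ℝ} (hf : f ∈ C.W) (hg : g ∈ C.W)
    (hfg : ∀ᵐ x ∂m, |f x - g x| ≤ δ) :
    I (C.Γ (TH h κ c₀ s f - TH h κ c₀ t g) (TH h κ c₀ s f - TH h κ c₀ t g))
      ≤ 2 * K ^ 2 * I (C.Γ (f - g) (f - g))
        + 2 * (K * (δ + |κ| * |s - t|)) ^ 2 * I (C.Γ g g) := by
  have hK := h.K0
  have hF := (TH_chain h κ c₀ hC s hf).1
  have hG := (TH_chain h κ c₀ hC t hg).1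
  set w := TH h κ c₀ s f - TH h κ c₀ t g with hw
  have hwW : w ∈ C.W := hC.sub_mem hF hG
  have hfgW : f - g ∈ C.W := hC.sub_mem hf hg
  set B := K * (δ + |κ| * |s - t|) with hB
  have e : 2 * K ^ 2 * I (C.Γ (f - g) (f - g)) + 2 * B ^ 2 * I (C.Γ g g)
      = I ((2 * K ^ 2) • C.Γ (f - g) (f - g) + (2 * B ^ 2) • C.Γ g g) := by
    rw [I_add (mem_smul _ (hC.mem1 _ hfgW)) (mem_smul _ (hC.mem1 _ hg)), I_smul, I_smul]
  rw [e]
  refine I_mono (hC.mem1 _ hwW) (mem_add (mem_smul _ (hC.mem1 _ hfgW))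
    (mem_smul _ (hC.mem1 _ hg))) ?_
  rw [le_iff_ae]
  have e1 : C.Γ w w = C.Γ (TH h κ c₀ s f) w - C.Γ (TH h κ c₀ t g) w := by
    rw [← hC.Γ_sub_left hF hG hwW]
  have e2 : C.Γ (f - g) w = C.Γ f w - C.Γ g w := hC.Γ_sub_left hf hg hwW
  have e3 : ∀ᵐ x ∂m, C.Γ w w x = C.Γ (TH h κ c₀ s f) w x - C.Γ (TH h κ c₀ t g) w x := by
    rw [e1]; exact sub_ae _ _
  have e4 : ∀ᵐ x ∂m, C.Γ (f - g) w x = C.Γ f w x - C.Γ g w x := by
    rw [e2]; exact sub_ae _ _
  filter_upwards [e3, e4, TH_Γ_ae h κ c₀ hC s hf hwW, TH_Γ_ae h κ c₀ hC t hg hwW, hfg,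
    hC.Γ_abs_ae hfgW hwW, hC.Γ_abs_ae hg hwW, hC.Γ_nonneg_ae hwW, hC.Γ_nonneg_ae hfgW,
    hC.Γ_nonneg_ae hg, add_ae ((2 * K ^ 2) • C.Γ (f - g) (f - g)) ((2 * B ^ 2) • C.Γ g g),
    smul_ae (C.Γ (f - g) (f - g)) (2 * K ^ 2), smul_ae (C.Γ g g) (2 * B ^ 2)]
    with x h1 h2 h3 h4 h5 h6 h7 h8 h9 h10 h11 h12 h13
  rw [h11, h12, h13]
  set W := Real.sqrt (C.Γ w w x) with hW
  set P := Real.sqrt (C.Γ (f - g) (f - g) x) with hP
  set Q := Real.sqrt (C.Γ g g x) with hQ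
  have hW0 : 0 ≤ W := Real.sqrt_nonneg _
  have hP0 : 0 ≤ P := Real.sqrt_nonneg _
  have hQ0 : 0 ≤ Q := Real.sqrt_nonneg _
  have hW2 : W ^ 2 = C.Γ w w x := Real.sq_sqrt h8
  have hP2 : P ^ 2 = C.Γ (f - g) (f - g) x := Real.sq_sqrt h9
  have hQ2 : Q ^ 2 = C.Γ g g x := Real.sq_sqrt h10
  have hB0 : 0 ≤ B := by
    have := (abs_nonneg _).trans h5
    positivity
  have k1 : C.Γ w w x = tht' χ' κ c₀ s (f x) * C.Γ (f - g) w x
      + (tht' χ' κ c₀ s (f x) - tht' χ' κ c₀ t (g x)) * C.Γ g w x := by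
    rw [h1, h3, h4, h2]; ring
  have k2 : |tht' χ' κ c₀ s (f x)| ≤ K := by
    unfold tht'; rw [abs_of_nonneg (h.nonneg' _)]; exact h.le' _
  have k3 : |tht' χ' κ c₀ s (f x) - tht' χ' κ c₀ t (g x)| ≤ B :=
    (tht'_lip h κ c₀ s t (f x) (g x)).trans (by rw [hB]; gcongr)
  have k4 : W ^ 2 ≤ (K * P + B * Q) * W := by
    rw [hW2, k1]
    refine (le_abs_self _).trans ((abs_add_le _ _).trans ?_)
    rw [abs_mul, abs_mul]
    have a1 : |tht' χ' κ c₀ s (f x)| * |C.Γ (f - g) w x| ≤ K * (P * W) := by gcongr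
    have a2 : |tht' χ' κ c₀ s (f x) - tht' χ' κ c₀ t (g x)| * |C.Γ g w x| ≤ B * (Q * W) := by
      gcongr
    linarith
  have k5 : W ≤ K * P + B * Q := by
    rcases hW0.eq_or_lt with h0 | h0
    · rw [← h0]; positivity
    · rw [sq] at k4
      exact le_of_mul_le_mul_right k4 h0
  rw [← hW2, ← hP2, ← hQ2]
  have k6 : W ^ 2 ≤ (K * P + B * Q) ^ 2 := by gcongr
  nlinarith [sq_nonneg (K * P - B * Q)]

end

section

variable {a b L c : ℝ} {u D : ℝ → M →ₘ[m] ℝ} {χ χ' : ℝ → ℝ} {K η : ℝ}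

/-- The curve `θ_t(u_t)` is continuous in `W`. -/
theorem HJData.TH_cont (hd : HJData C a b L c u D) (hC : IsDir C) (h : Step χ χ' K η)
    (κ c₀ : ℝ) {t : ℝ} (ht : t ∈ Icc a b) :
    Tendsto (fun s => C.nrm2 (TH h κ c₀ s (u s) - TH h κ c₀ t (u t))) (𝓝[Icc a b] t) (𝓝 0) := by
  have h0 : Tendsto (fun s => 2 * K ^ 2 * C.nrm2 (u s - u t)
      + 2 * (K * (L * |s - t| + |κ| * |s - t|)) ^ 2 * C.nrm2 (u t)) (𝓝[Icc a b] t) (𝓝 0) := by
    have h1 := (hd.cont t ht).const_mul (2 * K ^ 2)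
    have h2 : Tendsto (fun s : ℝ => 2 * (K * (L * |s - t| + |κ| * |s - t|)) ^ 2 * C.nrm2 (u t))
        (𝓝[Icc a b] t) (𝓝 0) := by
      have hc : Continuous fun s : ℝ =>
          2 * (K * (L * |s - t| + |κ| * |s - t|)) ^ 2 * C.nrm2 (u t) := by fun_prop
      have h3 := hc.tendsto t
      simp only [sub_self, abs_zero, mul_zero, add_zero] at h3
      norm_num at h3
      exact h3.mono_left nhdsWithin_le_nhds
    simpa using h1.add h2
  refine squeeze_zero' ?_ ?_ h0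
  · filter_upwards [self_mem_nhdsWithin] with s hs
    exact hC.nrm2_nonneg (hC.sub_mem (TH_chain h κ c₀ hC s (hd.memW s hs)).1
      (TH_chain h κ c₀ hC t (hd.memW t ht)).1)
  · filter_upwards [self_mem_nhdsWithin] with s hs
    have h1 := (TH_sub_sq h κ c₀ (s := s) (t := t) (hC.memLp _ (hd.memW s hs))
      (hC.memLp _ (hd.memW t ht))).2
    have h2 := TH_sub_E h κ c₀ hC (s := s) (t := t) (hd.memW s hs) (hd.memW t ht)
      (hd.lipt s hs t ht)
    have hn1 : I ((u s - u t) ^ 2) + I (C.Γ (u s - u t) (u s - u t)) = C.nrm2 (u s - u t) := rfl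
    have hn2 : I ((u t) ^ 2) + I (C.Γ (u t) (u t)) = C.nrm2 (u t) := rfl
    have h3 : (K * |κ| * |s - t|) ^ 2 ≤ (K * (L * |s - t| + |κ| * |s - t|)) ^ 2 := by
      have := h.K0
      have := hd.L0
      have h4 : K * |κ| * |s - t| ≤ K * (L * |s - t| + |κ| * |s - t|) := by
        have : 0 ≤ K * (L * |s - t|) := by positivity
        nlinarith
      gcongr
    have h5 : 0 ≤ I ((u t) ^ 2) := I_sq_nonneg _
    have h6 := mul_le_mul_of_nonneg_right h3 h5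
    unfold Calc.nrm2 at hn1 hn2 ⊢
    nlinarith [h1, h2, h6]

/-- the derivative of `t ↦ ∫ G χ(u_t - κ t - c₀)` -/
theorem HJData.hasDeriv (hd : HJData C a b L c u D) (hC : IsDir C) (h : Step χ χ' K η)
    (κ c₀ : ℝ) {G : M →ₘ[m] ℝ} (hG1 : MemLp G 1 m) (hG2 : MemLp G 2 m) {t : ℝ}
    (ht : t ∈ Icc a b) :
    HasDerivWithinAt (fun s => ∫ x, G x * χ (u s x - κ * s - c₀) ∂m)
      (∫ x, G x * (χ' (u t x - κ * t - c₀) * (D t x - κ)) ∂m) (Icc a b) t := by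
  have hK := h.K0
  have hGi : Integrable G m := int_of_mem hG1
  have hmeas : ∀ (F : ℝ → ℝ), Continuous F → ∀ s, AEStronglyMeasurable
      (fun x => F (u s x - κ * s - c₀)) m := fun F hF s =>
    hF.comp_aestronglyMeasurable (((AEEqFun.aestronglyMeasurable (u s)).sub
      aestronglyMeasurable_const).sub aestronglyMeasurable_const)
  have hi1 : ∀ s, Integrable (fun x => G x * χ (u s x - κ * s - c₀)) m := fun s => by
    refine hGi.mul_bdd (c := 1) (hmeas χ h.cont s) ?_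
    filter_upwards with x
    rw [Real.norm_eq_abs, abs_of_nonneg (h.nonneg _)]
    exact h.le_one _
  set T' := TH' h κ c₀ t (u t) with hT'
  have hT'ae : ∀ᵐ x ∂m, T' x = χ' (u t x - κ * t - c₀) := TH'_ae h κ c₀ t (u t)
  have hT'top : MemLp T' ∞ m := mem_top_iff.2 ⟨K, by
    filter_upwards [hT'ae] with x hx
    rw [hx, abs_of_nonneg (h.nonneg' _)]; exact h.le' _⟩
  set G' : M →ₘ[m] ℝ := G * T' with hG'
  have hG'1 : MemLp G' 1 m := mem_top_mul hG1 hT'top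
  have hG'2 : MemLp G' 2 m := mem_top_mul hG2 hT'top
  have hG'ae : ∀ᵐ x ∂m, G' x = G x * χ' (u t x - κ * t - c₀) := by
    filter_upwards [mul_ae G T', hT'ae] with x h1 h2
    rw [h1, h2]
  have hDt := hd.memD t ht
  have hz' : Integrable (fun x => G x * (χ' (u t x - κ * t - c₀) * (D t x - κ))) m := by
    have h1 : Integrable (fun x => (G' * D t) x - κ * G' x) m :=
      (int_of_mem (mem_mul_22 hG'2 hDt)).sub ((int_of_mem hG'1).const_mul κ)
    refine h1.congr ?_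
    filter_upwards [hG'ae, mul_ae G' (D t)] with x h2 h3
    rw [h3, h2]; ring
  set q : ℝ → M →ₘ[m] ℝ := fun s => (s - t)⁻¹ • (u s - u t) with hq
  have hq2 : ∀ s ∈ Icc a b, MemLp (q s - D t) 2 m := fun s hs =>
    mem_sub (mem_smul _ (mem_sub (hC.memLp _ (hd.memW s hs)) (hC.memLp _ (hd.memW t ht)))) hDt
  rw [hasDerivWithinAt_iff_tendsto_slope]
  rw [tendsto_iff_norm_sub_tendsto_zero]
  set B : ℝ := K * (L + |κ|) ^ 2 with hB
  have hbound : ∀ s ∈ Icc a b \ {t},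
      ‖_root_.slope (fun s => ∫ x, G x * χ (u s x - κ * s - c₀) ∂m) t s
        - ∫ x, G x * (χ' (u t x - κ * t - c₀) * (D t x - κ)) ∂m‖
      ≤ B * |s - t| * ∫ x, |G x| ∂m + √(I (G' ^ 2)) * √(I ((q s - D t) ^ 2)) := by
    intro s hs
    have hsI := hs.1
    have hst : s - t ≠ 0 := sub_ne_zero.2 hs.2
    have e1 : _root_.slope (fun s => ∫ x, G x * χ (u s x - κ * s - c₀) ∂m) t s
        = ∫ x, (s - t)⁻¹ * (G x * χ (u s x - κ * s - c₀) - G x * χ (u t x - κ * t - c₀)) ∂m := by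
      rw [integral_const_mul, integral_sub (hi1 s) (hi1 t)]
      rfl
    have hi2 : Integrable (fun x => (s - t)⁻¹ * (G x * χ (u s x - κ * s - c₀)
        - G x * χ (u t x - κ * t - c₀))) m := ((hi1 s).sub (hi1 t)).const_mul _
    have hi3 : Integrable (G' * (q s - D t) : M →ₘ[m] ℝ) m :=
      int_of_mem (mem_mul_22 hG'2 (hq2 s hsI))
    set E : M → ℝ := fun x => (s - t)⁻¹ * (G x * χ (u s x - κ * s - c₀)
        - G x * χ (u t x - κ * t - c₀)) - G x * (χ' (u t x - κ * t - c₀) * (D t x - κ))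
        - (G' * (q s - D t)) x with hE
    have hEi : Integrable E m := (hi2.sub hz').sub hi3
    have e2 : ∫ x, (s - t)⁻¹ * (G x * χ (u s x - κ * s - c₀) - G x * χ (u t x - κ * t - c₀)) ∂m
        - ∫ x, G x * (χ' (u t x - κ * t - c₀) * (D t x - κ)) ∂m
        = (∫ x, E x ∂m) + I (G' * (q s - D t)) := by
      have h1 : ∫ x, E x ∂m = (∫ x, (s - t)⁻¹ * (G x * χ (u s x - κ * s - c₀)
          - G x * χ (u t x - κ * t - c₀)) ∂m
          - ∫ x, G x * (χ' (u t x - κ * t - c₀) * (D t x - κ)) ∂m)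
          - ∫ x, (G' * (q s - D t)) x ∂m := by
        rw [← integral_sub hi2 hz']
        exact integral_sub (hi2.sub hz') hi3
      rw [h1]; unfold I; ring
    rw [e1, e2]
    refine (norm_add_le _ _).trans (add_le_add ?_ ?_)
    · refine (norm_integral_le_integral_norm _).trans ?_
      rw [← integral_const_mul]
      refine integral_mono_ae hEi.norm (hGi.abs.const_mul _) ?_
      filter_upwards [mul_ae G' (q s - D t), sub_ae (q s) (D t), smul_ae (u s - u t) (s - t)⁻¹,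
        sub_ae (u s) (u t), hG'ae, hd.lipt s hsI t ht] with x h1 h2 h3 h4 h5 h6
      have h3' : q s x = (s - t)⁻¹ * (u s - u t) x := h3
      have e3 : E x = (s - t)⁻¹ * (G x * (χ (u s x - κ * s - c₀) - χ (u t x - κ * t - c₀)
          - χ' (u t x - κ * t - c₀) * ((u s x - κ * s - c₀) - (u t x - κ * t - c₀)))) := by
        simp only [hE]
        rw [h1, h2, h3', h4, h5]
        field_simp
        ring
      have h7 := h.taylor (u t x - κ * t - c₀) (u s x - κ * s - c₀)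
      have h8 : ((u s x - κ * s - c₀) - (u t x - κ * t - c₀)) ^ 2 ≤ ((L + |κ|) * |s - t|) ^ 2 := by
        rw [← sq_abs]
        have e4 : (u s x - κ * s - c₀) - (u t x - κ * t - c₀)
            = (u s x - u t x) + (-κ) * (s - t) := by ring
        have h9 := abs_add_le (u s x - u t x) (-κ * (s - t))
        rw [abs_mul, abs_neg] at h9
        rw [e4]
        have h10 : |u s x - u t x + -κ * (s - t)| ≤ (L + |κ|) * |s - t| := by linarith
        gcongr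
      rw [Real.norm_eq_abs, e3, abs_mul, abs_mul, abs_inv]
      have hst' : 0 < |s - t| := abs_pos.2 hst
      rw [inv_mul_le_iff₀ hst']
      have h11 := h7.trans (mul_le_mul_of_nonneg_left h8 hK)
      calc |G x| * _ ≤ |G x| * (K * ((L + |κ|) * |s - t|) ^ 2) := by gcongr
        _ = |s - t| * (B * |s - t| * |G x|) := by rw [hB]; ring
    · rw [Real.norm_eq_abs]
      exact I_abs_le hG'2 (hq2 s hsI)
  refine squeeze_zero' (Eventually.of_forall fun s => norm_nonneg _) (g := fun s =>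
    B * |s - t| * ∫ x, |G x| ∂m + √(I (G' ^ 2)) * √(I ((q s - D t) ^ 2))) ?_ ?_
  · filter_upwards [self_mem_nhdsWithin] with s hs
    exact hbound s hs
  · have h1 : Tendsto (fun s : ℝ => B * |s - t| * ∫ x, |G x| ∂m) (𝓝[Icc a b \ {t}] t) (𝓝 0) := by
      have hc : Continuous fun s : ℝ => B * |s - t| * ∫ x, |G x| ∂m := by fun_prop
      have h3 := hc.tendsto t
      simp only [sub_self, abs_zero, mul_zero, zero_mul] at h3
      exact h3.mono_left nhdsWithin_le_nhds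
    have h2 : Tendsto (fun s => √(I (G' ^ 2)) * √(I ((q s - D t) ^ 2)))
        (𝓝[Icc a b \ {t}] t) (𝓝 0) := by
      have h3 := ((Real.continuous_sqrt.tendsto 0).comp (hd.deriv t ht)).const_mul (√(I (G' ^ 2)))
      simpa [Function.comp_def] using h3
    simpa using h1.add h2

/-- the weighted inequality -/
theorem HJData.weighted (hd : HJData C a b L c u D) (hC : IsDir C) (h : Step χ χ' K η)
    {lam : ℝ} (hl : 0 < lam) (c₀ : ℝ) {ψ g : M →ₘ[m] ℝ} (hψ0 : 0 ≤ ψ) (hψ : MemLp ψ ∞ m)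
    (hψ1 : MemLp ψ 2 m) (hg : g ∈ C.W)
    (hcont : ContinuousOn (fun t => I (ψ * C.Γ (TH h (lam ^ 2 / 2 + c) c₀ t (u t)) g)) (Icc a b)) :
    ∫ t in a..b, I (ψ * C.Γ (TH h (lam ^ 2 / 2 + c) c₀ t (u t)) g)
      ≤ lam⁻¹ * ∫ x, ψ x * √(C.Γ g g x) ∂m := by
  set κ : ℝ := lam ^ 2 / 2 + c with hκ
  -- the weight
  set S : M →ₘ[m] ℝ := AEEqFun.comp Real.sqrt Real.continuous_sqrt (C.Γ g g) with hS
  have hSae : ∀ᵐ x ∂m, S x = √(C.Γ g g x) := AEEqFun.coeFn_comp _ _ _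
  have hS2 : MemLp S 2 m := by
    refine memLp_two_of_sq ?_
    refine (memLp_congr_ae ?_).1 (hC.mem1 g hg)
    filter_upwards [sq_ae S, hSae, hC.Γ_nonneg_ae hg] with x h1 h2 h3
    rw [h1, h2, Real.sq_sqrt h3]
  set G : M →ₘ[m] ℝ := ψ * S with hG
  have hG1 : MemLp G 1 m := mem_mul_22 hψ1 hS2
  have hG2 : MemLp G 2 m := mem_mul_top hψ hS2
  have hGi : Integrable G m := int_of_mem hG1
  have hGae : ∀ᵐ x ∂m, G x = ψ x * √(C.Γ g g x) := by
    filter_upwards [mul_ae ψ S, hSae] with x h1 h2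
    rw [h1, h2]
  have hψae := nonneg_iff_ae.1 hψ0
  have hG0 : ∀ᵐ x ∂m, 0 ≤ G x := by
    filter_upwards [hGae, hψae] with x h1 h2
    rw [h1]; exact mul_nonneg h2 (Real.sqrt_nonneg _)
  set z : ℝ → ℝ := fun s => ∫ x, G x * χ (u s x - κ * s - c₀) ∂m with hz
  set z' : ℝ → ℝ := fun t => ∫ x, G x * (χ' (u t x - κ * t - c₀) * (D t x - κ)) ∂m with hz'
  set φ : ℝ → ℝ := fun t => I (ψ * C.Γ (TH h κ c₀ t (u t)) g) with hφ
  have hzd : ∀ t ∈ Icc a b, HasDerivWithinAt z (z' t) (Icc a b) t := fun t ht =>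
    hd.hasDeriv hC h κ c₀ hG1 hG2 ht
  have hmeas : ∀ (F : ℝ → ℝ), Continuous F → ∀ s, AEStronglyMeasurable
      (fun x => F (u s x - κ * s - c₀)) m := fun F hF s =>
    hF.comp_aestronglyMeasurable (((AEEqFun.aestronglyMeasurable (u s)).sub
      aestronglyMeasurable_const).sub aestronglyMeasurable_const)
  have hi1 : ∀ s, Integrable (fun x => G x * χ (u s x - κ * s - c₀)) m := fun s => by
    refine hGi.mul_bdd (c := 1) (hmeas χ h.cont s) ?_
    filter_upwards with x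
    rw [Real.norm_eq_abs, abs_of_nonneg (h.nonneg _)]
    exact h.le_one _
  -- comparison of the derivatives
  have hcmp : ∀ t ∈ Icc a b, lam * φ t ≤ - z' t := by
    intro t ht
    have huW := hd.memW t ht
    have hT'ae : ∀ᵐ x ∂m, TH' h κ c₀ t (u t) x = χ' (u t x - κ * t - c₀) :=
      TH'_ae h κ c₀ t (u t)
    have hT'top : MemLp (TH' h κ c₀ t (u t)) ∞ m := mem_top_iff.2 ⟨K, by
      filter_upwards [hT'ae] with x hx
      rw [hx, abs_of_nonneg (h.nonneg' _)]; exact h.le' _⟩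
    have hG'1 : MemLp (G * TH' h κ c₀ t (u t) : M →ₘ[m] ℝ) 1 m := mem_top_mul hG1 hT'top
    have hG'2 : MemLp (G * TH' h κ c₀ t (u t) : M →ₘ[m] ℝ) 2 m := mem_top_mul hG2 hT'top
    have hDt := hd.memD t ht
    have hz'i : Integrable (fun x => G x * (χ' (u t x - κ * t - c₀) * (D t x - κ))) m := by
      have h1 : Integrable (fun x => (G * TH' h κ c₀ t (u t) * D t) x
          - κ * (G * TH' h κ c₀ t (u t)) x) m :=
        (int_of_mem (mem_mul_22 hG'2 hDt)).sub ((int_of_mem hG'1).const_mul κ)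
      refine h1.congr ?_
      filter_upwards [mul_ae G (TH' h κ c₀ t (u t)), hT'ae,
        mul_ae (G * TH' h κ c₀ t (u t)) (D t)] with x h2 h3 h4
      rw [h4, h2, h3]; ring
    have hTW := (TH_chain h κ c₀ hC t huW).1
    have e1 : lam * φ t = ∫ x, lam * (ψ * C.Γ (TH h κ c₀ t (u t)) g) x ∂m := by
      rw [integral_const_mul]; rfl
    have e2 : - z' t = ∫ x, -(G x * (χ' (u t x - κ * t - c₀) * (D t x - κ))) ∂m := by
      rw [integral_neg]
    rw [e1, e2]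
    refine integral_mono_ae ((int_of_mem (mem_mul_top hψ (hC.Γ_mem1 hTW hg))).const_mul _)
      hz'i.neg ?_
    filter_upwards [mul_ae ψ (C.Γ (TH h κ c₀ t (u t)) g), TH_Γ_ae h κ c₀ hC t huW hg,
      hC.Γ_abs_ae huW hg, hd.ineq t ht, hGae, hψae, hC.Γ_nonneg_ae huW]
      with x h1 h2 h3 h4 h5 h6 h7
    rw [h1, h2, h5]
    show lam * (ψ x * (χ' (u t x - κ * t - c₀) * C.Γ (u t) g x)) ≤
      -(ψ x * √(C.Γ g g x) * (χ' (u t x - κ * t - c₀) * (D t x - κ)))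
    set P := √(C.Γ (u t) (u t) x) with hP
    set Q := √(C.Γ g g x) with hQ
    set X' := χ' (u t x - κ * t - c₀) with hX'
    have hX0 : 0 ≤ X' := h.nonneg' _
    have hP0 : 0 ≤ P := Real.sqrt_nonneg _
    have hQ0 : 0 ≤ Q := Real.sqrt_nonneg _
    have hP2 : P ^ 2 = C.Γ (u t) (u t) x := Real.sq_sqrt h7
    have k1 : lam * P ≤ κ - D t x := by
      rw [← hP2] at h4
      rw [hκ]
      nlinarith [sq_nonneg (lam - P)]
    have k2 : C.Γ (u t) g x ≤ P * Q := (le_abs_self _).trans h3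
    have k3 : lam * (ψ x * (X' * C.Γ (u t) g x)) ≤ ψ x * X' * Q * (lam * P) := by
      have : 0 ≤ ψ x * X' := mul_nonneg h6 hX0
      have := mul_le_mul_of_nonneg_left k2 (mul_nonneg hl.le this)
      nlinarith
    have k4 : ψ x * X' * Q * (lam * P) ≤ ψ x * X' * Q * (κ - D t x) :=
      mul_le_mul_of_nonneg_left k1 (mul_nonneg (mul_nonneg h6 hX0) hQ0)
    linarith
  -- monotonicity
  have hφi : IntervalIntegrable φ volume a b := hcont.intervalIntegrable_of_Icc hd.hab.le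
  set y : ℝ → ℝ := fun r => -z r - lam * ∫ t in a..r, φ t with hy
  have hyc : ContinuousOn y (Icc a b) := by
    refine ContinuousOn.sub (fun t ht => (hzd t ht).continuousWithinAt.neg) ?_
    refine ContinuousOn.mul continuousOn_const ?_
    have h1 := intervalIntegral.continuousOn_primitive_interval' hφi left_mem_uIcc
    rwa [uIcc_of_le hd.hab.le] at h1
  have hyd : ∀ t ∈ Ioo a b, HasDerivAt y (-z' t - lam * φ t) t := by
    intro t ht
    have hnhds : Icc a b ∈ 𝓝 t := Icc_mem_nhds ht.1 ht.2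
    have h1 : HasDerivAt z (z' t) t := (hzd t ⟨ht.1.le, ht.2.le⟩).hasDerivAt hnhds
    have h2 : HasDerivAt (fun r => ∫ t in a..r, φ t) (φ t) t := by
      refine intervalIntegral.integral_hasDerivAt_right ?_ ?_ ?_
      · refine ContinuousOn.intervalIntegrable_of_Icc ht.1.le (hcont.mono ?_)
        exact Icc_subset_Icc_right ht.2.le
      · exact hcont.stronglyMeasurableAtFilter_nhdsWithin measurableSet_Icc t |>.filter_mono (by
          rw [nhdsWithin_eq_nhds.2 hnhds])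
      · exact (hcont t ⟨ht.1.le, ht.2.le⟩).continuousAt hnhds
    exact h1.neg.sub (h2.const_mul lam)
  have hmono : MonotoneOn y (Icc a b) := by
    refine monotoneOn_of_deriv_nonneg (convex_Icc a b) hyc ?_ ?_
    · intro t ht
      rw [interior_Icc] at ht
      exact (hyd t ht).differentiableAt.differentiableWithinAt
    · intro t ht
      rw [interior_Icc] at ht
      rw [(hyd t ht).deriv]
      linarith [hcmp t ⟨ht.1.le, ht.2.le⟩]
  have hfin := hmono (left_mem_Icc.2 hd.hab.le) (right_mem_Icc.2 hd.hab.le) hd.hab.le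
  simp only [hy, intervalIntegral.integral_same, mul_zero, sub_zero] at hfin
  have hzb : 0 ≤ z b := by
    refine integral_nonneg_of_ae ?_
    filter_upwards [hG0] with x hx
    exact mul_nonneg hx (h.nonneg _)
  have hza : z a ≤ ∫ x, ψ x * √(C.Γ g g x) ∂m := by
    rw [← integral_congr_ae hGae]
    refine integral_mono_ae (hi1 a) hGi ?_
    filter_upwards [hG0] with x hx
    exact mul_le_of_le_one_right hx (h.le_one _)
  rw [inv_mul_eq_div, le_div_iff₀ hl]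
  linarith

/-- The time integral of `θ_t(u_t)` has a slope at most `1/λ`. -/
theorem HJData.exists_int (hd : HJData C a b L c u D) (hC : IsDir C) (h : Step χ χ' K η)
    {lam : ℝ} (hl : 0 < lam) (c₀ : ℝ) :
    ∃ F ∈ C.W, (∀ᵐ x ∂m, C.Γ F F x ≤ lam⁻¹ ^ 2) ∧ ∀ g : M →ₘ[m] ℝ, MemLp g 2 m →
      ContinuousOn (fun t => I (TH h (lam ^ 2 / 2 + c) c₀ t (u t) * g)) (Icc a b) ∧
      I (F * g) = ∫ t in a..b, I (TH h (lam ^ 2 / 2 + c) c₀ t (u t) * g) := by
  set κ : ℝ := lam ^ 2 / 2 + c with hκ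
  obtain ⟨F, hF, h1, h2⟩ := hC.exists_wint hd.hab.le (v := fun t => TH h κ c₀ t (u t))
    (fun t ht => (TH_chain h κ c₀ hC t (hd.memW t ht)).1) (fun t ht => hd.TH_cont hC h κ c₀ ht)
  refine ⟨F, hF, ?_, h1⟩
  have hlam : 0 < lam⁻¹ := inv_pos.2 hl
  set A : Set M := {x | lam⁻¹ ^ 2 < C.Γ F F x} with hA
  have hAm : MeasurableSet A :=
    measurableSet_lt measurable_const (AEEqFun.measurable (C.Γ F F))
  have hFi : Integrable (C.Γ F F) m := int_of_mem (hC.mem1 F hF)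
  have hAfin : m A < ∞ := hFi.measure_gt_lt_top (by positivity)
  set i1 : M → ℝ := A.indicator fun _ => (1 : ℝ) with hi1
  have hi1m : AEStronglyMeasurable i1 m :=
    (measurable_const.indicator hAm).aestronglyMeasurable
  set ψ : M →ₘ[m] ℝ := AEEqFun.mk i1 hi1m with hψ
  have hψae : ∀ᵐ x ∂m, ψ x = i1 x := AEEqFun.coeFn_mk _ _
  have hψ0 : 0 ≤ ψ := by
    rw [nonneg_iff_ae]
    filter_upwards [hψae] with x hx
    rw [hx]; exact indicator_nonneg (fun _ _ => zero_le_one) x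
  have hψ2 : MemLp ψ 2 m := (memLp_congr_ae hψae).2
    (memLp_indicator_const 2 hAm 1 (Or.inr hAfin.ne))
  have hψt : MemLp ψ ∞ m := mem_top_iff.2 ⟨1, by
    filter_upwards [hψae] with x hx
    rw [hx]
    by_cases hxA : x ∈ A
    · simp [hi1, hxA]
    · simp [hi1, hxA]⟩
  obtain ⟨h3, h4⟩ := h2 ψ hψt F hF
  have h5 := hd.weighted hC h hl c₀ hψ0 hψt hψ2 hF h3
  rw [← h4] at h5
  -- `∫_A (Γ - √Γ/λ) ≤ 0`
  have hsq : ∀ᵐ x ∂m, x ∈ A → 0 < C.Γ F F x - lam⁻¹ * √(C.Γ F F x) := by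
    filter_upwards with x hx
    have hx' : lam⁻¹ ^ 2 < C.Γ F F x := hx
    have h6 : 0 ≤ C.Γ F F x := (sq_nonneg _).trans hx'.le
    set q := √(C.Γ F F x) with hq
    have hq2 : q ^ 2 = C.Γ F F x := Real.sq_sqrt h6
    have hq0 : 0 ≤ q := Real.sqrt_nonneg _
    rw [← hq2] at hx' ⊢
    have h7 : lam⁻¹ < q := lt_of_pow_lt_pow_left₀ 2 hq0 hx'
    nlinarith
  have hi2 : Integrable (ψ * C.Γ F F : M →ₘ[m] ℝ) m :=
    int_of_mem (mem_mul_top hψt (hC.mem1 F hF))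
  have hSi : Integrable (fun x => ψ x * √(C.Γ F F x)) m := by
    set S : M →ₘ[m] ℝ := AEEqFun.comp Real.sqrt Real.continuous_sqrt (C.Γ F F) with hS
    have hSae : ∀ᵐ x ∂m, S x = √(C.Γ F F x) := AEEqFun.coeFn_comp _ _ _
    have hS2 : MemLp S 2 m := by
      refine memLp_two_of_sq ?_
      refine (memLp_congr_ae ?_).1 (hC.mem1 F hF)
      filter_upwards [sq_ae S, hSae, hC.Γ_nonneg_ae hF] with x h1 h2 h3
      rw [h1, h2, Real.sq_sqrt h3]
    refine (int_of_mem (mem_mul_22 hψ2 hS2)).congr ?_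
    filter_upwards [mul_ae ψ S, hSae] with x a1 a2
    rw [a1, a2]
  set R : M → ℝ := fun x => (ψ * C.Γ F F) x - lam⁻¹ * (ψ x * √(C.Γ F F x)) with hR
  have hRi : Integrable R m := hi2.sub (hSi.const_mul _)
  have hR0 : 0 ≤ᵐ[m] R := by
    filter_upwards [mul_ae ψ (C.Γ F F), hψae, hsq] with x a1 a2 a3
    simp only [hR, Pi.zero_apply]
    rw [a1, a2]
    by_cases hxA : x ∈ A
    · simp only [hi1, indicator_of_mem hxA, one_mul]
      exact (a3 hxA).le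
    · simp [hi1, hxA]
  have hRint : ∫ x, R x ∂m = 0 := by
    refine le_antisymm ?_ (integral_nonneg_of_ae hR0)
    have e : ∫ x, R x ∂m = I (ψ * C.Γ F F) - lam⁻¹ * ∫ x, ψ x * √(C.Γ F F x) ∂m := by
      rw [← integral_const_mul]
      exact integral_sub hi2 (hSi.const_mul _)
    rw [e]; linarith
  have hRz := (integral_eq_zero_iff_of_nonneg_ae hR0 hRi).1 hRint
  filter_upwards [hRz, mul_ae ψ (C.Γ F F), hψae, hsq] with x a1 a2 a3 a4
  by_contra hcon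
  push Not at hcon
  have hxA : x ∈ A := hcon
  have a5 := a4 hxA
  have a6 : R x = C.Γ F F x - lam⁻¹ * √(C.Γ F F x) := by
    simp only [hR]
    rw [a2, a3]
    simp only [hi1, indicator_of_mem hxA, one_mul]
  rw [a6] at a1
  exact a5.ne' a1

end

end Vale.Agent.P233.H790
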