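import Vale.Agent.P233.Bd3.B1

/-! P233: time integrals of continuous `W`-valued curves in the abstract calculus. -/

set_option linter.all false

open MeasureTheory Filter Topology Set
open scoped ENNReal NNReal InnerProductSpace

namespace Vale.Agent.P233.IsDir

variable {M : Type*} [MeasurableSpace M] {m : Measure M} {C : Calc m}

/-- The time integral `F = ∫_a^b v_t dt` of a curve `v` which is continuous in the norm of `W`. -/
theorem exists_wint (hC : IsDir C) {a b : ℝ} (hab : a ≤ b) {v : ℝ → M →ₘ[m] ℝ}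
    (hv : ∀ t ∈ Icc a b, v t ∈ C.W)
    (hcont : ∀ t ∈ Icc a b, Tendsto (fun s => C.nrm2 (v s - v t)) (𝓝[Icc a b] t) (𝓝 0)) :
    ∃ F ∈ C.W,
      (∀ g : M →ₘ[m] ℝ, MemLp g 2 m → ContinuousOn (fun t => I (v t * g)) (Icc a b) ∧
        I (F * g) = ∫ t in a..b, I (v t * g)) ∧
      (∀ ψ : M →ₘ[m] ℝ, MemLp ψ ∞ m → ∀ g ∈ C.W,
        ContinuousOn (fun t => I (ψ * C.Γ (v t) g)) (Icc a b) ∧
        I (ψ * C.Γ F g) = ∫ t in a..b, I (ψ * C.Γ (v t) g)) := by
  classical
  letI cI : InnerProductSpace.Core ℝ hC.HS := hC.core (lam := 1) one_pos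
  letI nI : NormedAddCommGroup hC.HS := cI.toNormedAddCommGroup
  letI iI : InnerProductSpace ℝ hC.HS := InnerProductSpace.ofCore cI.toCore
  have hin : ∀ x y : hC.HS, ⟪x, y⟫_ℝ = I (x.val * y.val) + 1 * I (C.Γ x.val y.val) :=
    fun x y => rfl
  have hnorm : ∀ x : hC.HS, ‖x‖ ^ 2 = C.nrm2 x.val := fun x => by
    rw [← real_inner_self_eq_norm_sq, hin, one_mul, ← sq]; rfl
  have hE0 : ∀ x : hC.HS, 0 ≤ I (C.Γ x.val x.val) := fun x => I_nonneg (hC.nonneg _ x.mem)
  have hL0 : ∀ x : hC.HS, 0 ≤ I (x.val ^ 2) := fun x => I_sq_nonneg _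
  have hL : ∀ x : hC.HS, Real.sqrt (I (x.val ^ 2)) ≤ ‖x‖ := fun x => by
    rw [← Real.sqrt_sq (norm_nonneg x), hnorm]
    exact Real.sqrt_le_sqrt (by unfold Calc.nrm2; linarith [hE0 x])
  have hE : ∀ x : hC.HS, Real.sqrt (I (C.Γ x.val x.val)) ≤ ‖x‖ := fun x => by
    rw [← Real.sqrt_sq (norm_nonneg x), hnorm]
    exact Real.sqrt_le_sqrt (by unfold Calc.nrm2; linarith [hL0 x])
  haveI : CompleteSpace hC.HS := by
    refine Metric.complete_of_cauchySeq_tendsto fun u hu => ?_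
    obtain ⟨f, hf, hlim⟩ := hC.complete (fun n => (u n).val) (fun n => (u n).mem) (by
      intro ε hε
      rw [Metric.cauchySeq_iff] at hu
      obtain ⟨N, hN⟩ := hu (Real.sqrt ε) (Real.sqrt_pos.2 hε)
      refine ⟨N, fun n hn k hk => ?_⟩
      have h1 := hN n hn k hk
      rw [dist_eq_norm] at h1
      have h3 := hnorm (u n - u k)
      rw [HS.val_sub] at h3
      rw [← h3, ← Real.sq_sqrt hε.le]
      have := norm_nonneg (u n - u k)
      gcongr)
    refine ⟨HS.mk f hf, ?_⟩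
    rw [tendsto_iff_norm_sub_tendsto_zero]
    have h1 : Tendsto (fun n => ‖u n - HS.mk f hf‖ ^ 2) atTop (𝓝 0) := by
      refine hlim.congr fun n => ?_
      rw [hnorm]; rfl
    have h2 := (Real.continuous_sqrt.tendsto 0).comp h1
    simpa [Function.comp_def, Real.sqrt_sq (norm_nonneg _)] using h2
  -- the functionals
  have hl1 : ∀ g : M →ₘ[m] ℝ, MemLp g 2 m → ∃ ℓ : hC.HS →L[ℝ] ℝ, ∀ x, ℓ x = I (x.val * g) := by
    intro g hg
    let ℓ0 : hC.HS →ₗ[ℝ] ℝ :=
      { toFun := fun x => I (x.val * g)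
        map_add' := fun x y => by
          rw [HS.val_add, add_mul, I_add (mem_mul_22 (hC.memLp _ x.mem) hg)
            (mem_mul_22 (hC.memLp _ y.mem) hg)]
        map_smul' := fun c x => by
          rw [HS.val_smul, smul_mul_assoc, I_smul]; rfl }
    refine ⟨ℓ0.mkContinuous (Real.sqrt (I (g ^ 2))) fun x => ?_, fun x => rfl⟩
    show |I (x.val * g)| ≤ _
    refine (I_abs_le (hC.memLp _ x.mem) hg).trans ?_
    rw [mul_comm]
    exact mul_le_mul_of_nonneg_left (hL x) (Real.sqrt_nonneg _)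
  have hl2 : ∀ ψ : M →ₘ[m] ℝ, MemLp ψ ∞ m → ∀ g ∈ C.W,
      ∃ ℓ : hC.HS →L[ℝ] ℝ, ∀ x, ℓ x = I (ψ * C.Γ x.val g) := by
    intro ψ hψ g hg
    obtain ⟨K, hK⟩ := mem_top_iff.1 hψ
    let ℓ0 : hC.HS →ₗ[ℝ] ℝ :=
      { toFun := fun x => I (ψ * C.Γ x.val g)
        map_add' := fun x y => by
          rw [HS.val_add, hC.add_left _ x.mem _ y.mem _ hg, mul_add,
            I_add (mem_mul_top hψ (hC.Γ_mem1 x.mem hg)) (mem_mul_top hψ (hC.Γ_mem1 y.mem hg))]
        map_smul' := fun c x => by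
          rw [HS.val_smul, hC.smul_left _ _ x.mem _ hg, mul_smul_comm, I_smul]; rfl }
    refine ⟨ℓ0.mkContinuous (|K| * Real.sqrt (I (C.Γ g g))) fun x => ?_, fun x => rfl⟩
    show |I (ψ * C.Γ x.val g)| ≤ _
    have h1 : |I (ψ * C.Γ x.val g)| ≤ |K| * ∫ y, |C.Γ x.val g y| ∂m := by
      unfold I
      rw [← Real.norm_eq_abs]
      refine (norm_integral_le_integral_norm _).trans ?_
      rw [← integral_const_mul]
      refine integral_mono_ae (int_of_mem (mem_mul_top hψ (hC.Γ_mem1 x.mem hg))).norm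
        ((int_of_mem (hC.Γ_mem1 x.mem hg)).abs.const_mul _) ?_
      filter_upwards [hK, mul_ae ψ (C.Γ x.val g)] with y h1 h2
      rw [h2, Real.norm_eq_abs, abs_mul]
      exact mul_le_mul_of_nonneg_right (h1.trans (le_abs_self K)) (abs_nonneg _)
    refine h1.trans ?_
    rw [mul_assoc]
    refine mul_le_mul_of_nonneg_left ?_ (abs_nonneg K)
    refine (hC.int_abs_Γ_le x.mem hg).trans ?_
    rw [mul_comm]
    exact mul_le_mul_of_nonneg_left (hE x) (Real.sqrt_nonneg _)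
  -- the curve
  set γ : ℝ → hC.HS := fun t => if h : t ∈ Icc a b then HS.mk (v t) (hv t h) else 0 with hγ
  have hγv : ∀ t ∈ Icc a b, (γ t).val = v t := by
    intro t ht
    simp only [hγ, dif_pos ht, HS.val_mk]
  have hγc : ContinuousOn γ (Icc a b) := by
    intro t ht
    show Tendsto γ (𝓝[Icc a b] t) (𝓝 (γ t))
    rw [tendsto_iff_norm_sub_tendsto_zero]
    have h1 : Tendsto (fun s => ‖γ s - γ t‖ ^ 2) (𝓝[Icc a b] t) (𝓝 0) := by
      refine (hcont t ht).congr' ?_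
      filter_upwards [self_mem_nhdsWithin] with s hs
      rw [hnorm, HS.val_sub, hγv s hs, hγv t ht]
    have h2 := (Real.continuous_sqrt.tendsto 0).comp h1
    simpa [Function.comp_def, Real.sqrt_sq (norm_nonneg _)] using h2
  have hγi : IntervalIntegrable γ volume a b :=
    ContinuousOn.intervalIntegrable_of_Icc hab hγc
  have huIcc : uIcc a b = Icc a b := uIcc_of_le hab
  refine ⟨(∫ t in a..b, γ t).val, HS.mem _, fun g hg => ?_, fun ψ hψ g hg => ?_⟩
  · obtain ⟨ℓ, hℓ⟩ := hl1 g hg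
    have he : ∀ t ∈ Icc a b, ℓ (γ t) = I (v t * g) := fun t ht => by rw [hℓ, hγv t ht]
    refine ⟨?_, ?_⟩
    · exact (ℓ.continuous.comp_continuousOn hγc).congr fun t ht => (he t ht).symm
    · rw [← hℓ, ← ContinuousLinearMap.intervalIntegral_comp_comm ℓ hγi]
      refine intervalIntegral.integral_congr fun t ht => ?_
      rw [huIcc] at ht
      exact he t ht
  · obtain ⟨ℓ, hℓ⟩ := hl2 ψ hψ g hg
    have he : ∀ t ∈ Icc a b, ℓ (γ t) = I (ψ * C.Γ (v t) g) := fun t ht => by rw [hℓ, hγv t ht]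
    refine ⟨?_, ?_⟩
    · exact (ℓ.continuous.comp_continuousOn hγc).congr fun t ht => (he t ht).symm
    · rw [← hℓ, ← ContinuousLinearMap.intervalIntegral_comp_comm ℓ hγi]
      refine intervalIntegral.integral_congr fun t ht => ?_
      rw [huIcc] at ht
      exact he t ht

end Vale.Agent.P233.IsDir
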